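import Vale.Agent.Lib.P279.Paths

namespace Vale.Agent.Lib.P279

lemma quad_lemma (n x : ℝ) (hn : 1 ≤ n) (h1 : n - 1 / 4 ≤ x) (h2 : x ≤ n + 3 / 4) :
    (n + x + 1 / 6) ^ 2 ≤ (4 * n + 1) * x := by
  nlinarith [mul_nonneg (sub_nonneg.2 h1) (sub_nonneg.2 h2)]

/-- Choice of the line. -/
lemma choose_line (t X E : ℝ) (ht : 3 ≤ t) (hX : 0 ≤ X) (hE0 : 0 ≤ E) (hE1 : E ≤ t ^ 2 / 9)
    (hE2 : X < t ^ 2 / 16 → 16 * E ^ 2 ≤ 9 * X * t ^ 2) :
    ∃ n : ℕ, ((n : ℝ) * (t - 1) + (X + E) / t) ^ 2 ≤ (4 * n + 1) * X := by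
  set u := t - 1 with hu
  have hu2 : 2 ≤ u := by rw [hu]; linarith
  have hupos : 0 < u := by linarith
  have htpos : 0 < t := by linarith
  have hx0 : 0 ≤ X / u ^ 2 + 1 / 4 := by positivity
  set n := ⌊X / u ^ 2 + 1 / 4⌋₊ with hn
  have hn1 : (n : ℝ) ≤ X / u ^ 2 + 1 / 4 := Nat.floor_le hx0
  have hn2 : X / u ^ 2 + 1 / 4 < n + 1 := Nat.lt_floor_add_one _
  refine ⟨n, ?_⟩
  have hXeq : X = X / u ^ 2 * u ^ 2 := by field_simp
  rcases Nat.eq_zero_or_pos n with hn0 | hnpos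
  · -- the stable case
    rw [hn0] at hn2 ⊢
    simp only [Nat.cast_zero, zero_mul, zero_add, mul_zero]
    have hx3 : X / u ^ 2 < 3 / 4 := by
      simp only [Nat.cast_zero] at hn2
      linarith
    have hXlt : X < 3 / 4 * t ^ 2 := by
      have h1 : X < 3 / 4 * u ^ 2 := by
        rw [div_lt_iff₀ (by positivity)] at hx3
        exact hx3
      have h2 : u ^ 2 ≤ t ^ 2 := by
        have : u ≤ t := by rw [hu]; linarith
        exact pow_le_pow_left₀ hupos.le this 2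
      linarith
    have hmain : (X + E) ^ 2 ≤ X * t ^ 2 := by
      by_cases hcase : X < t ^ 2 / 16
      · have h16 := hE2 hcase
        -- using square roots
        set s := Real.sqrt X with hs
        have hs2 : s ^ 2 = X := Real.sq_sqrt hX
        have hs0 : 0 ≤ s := Real.sqrt_nonneg _
        have hst : s * 4 ≤ t := by
          by_contra hlt
          rw [not_le] at hlt
          have : t ^ 2 < (s * 4) ^ 2 := pow_lt_pow_left₀ hlt htpos.le (by norm_num)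
          nlinarith
        have hEs : 4 * E ≤ 3 * s * t := by
          by_contra hlt
          rw [not_le] at hlt
          have h3 : 0 ≤ 3 * s * t := by positivity
          have : (3 * s * t) ^ 2 < (4 * E) ^ 2 := pow_lt_pow_left₀ hlt h3 (by norm_num)
          nlinarith
        have hsum : X + E ≤ s * t := by
          have : 4 * X ≤ s * t := by
            rw [← hs2]
            nlinarith
          linarith
        have h0 : 0 ≤ X + E := by linarith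
        calc (X + E) ^ 2 ≤ (s * t) ^ 2 := pow_le_pow_left₀ h0 hsum 2
          _ = X * t ^ 2 := by rw [mul_pow, hs2]
      · rw [not_lt] at hcase
        have h1 : (X + E) ^ 2 ≤ (X + t ^ 2 / 9) ^ 2 :=
          pow_le_pow_left₀ (by linarith) (by linarith) 2
        have ht2 : 0 ≤ t ^ 2 := by positivity
        nlinarith [mul_nonneg (sub_nonneg.2 hcase) (sub_nonneg.2 hXlt.le)]
    have : ((X + E) / t) ^ 2 = (X + E) ^ 2 / t ^ 2 := by rw [div_pow]
    rw [this, div_le_iff₀ (by positivity)]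
    linarith
  · -- the main case
    set x := X / u ^ 2 with hx
    have hnR : (1 : ℝ) ≤ n := by exact_mod_cast hnpos
    have hq := quad_lemma n x hnR (by linarith) (by linarith)
    have hXt : X / t ≤ x * u := by
      have h1 : X / t ≤ X / u := by
        apply div_le_div_of_nonneg_left hX hupos
        rw [hu]; linarith
      have h2 : X / u = x * u := by
        rw [hx]; field_simp
      linarith
    have hEt : E / t ≤ u / 6 := by
      rw [div_le_iff₀ htpos]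
      have : t ^ 2 / 9 ≤ u / 6 * t := by
        rw [hu]; nlinarith
      linarith
    have hle : (n : ℝ) * u + (X + E) / t ≤ u * (n + x + 1 / 6) := by
      have : (X + E) / t = X / t + E / t := by ring
      rw [this]
      nlinarith
    have h0 : 0 ≤ (n : ℝ) * u + (X + E) / t := by positivity
    calc ((n : ℝ) * u + (X + E) / t) ^ 2 ≤ (u * (n + x + 1 / 6)) ^ 2 :=
          pow_le_pow_left₀ h0 hle 2
      _ = u ^ 2 * (n + x + 1 / 6) ^ 2 := by ring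
      _ ≤ u ^ 2 * ((4 * n + 1) * x) := mul_le_mul_of_nonneg_left hq (by positivity)
      _ = (4 * n + 1) * X := by
          rw [hx]; field_simp

/-- The small multiplicity regime. -/
lemma block_path {m a δ K : ℕ} (h : Cov m ((a + δ) * m) K) (hδ : δ * m ≤ a) (L : ℕ) :
    Cov m ((a + δ + L) * m) (K + L * (2 * a + L)) := by
  induction L with
  | zero => simpa using h
  | succ L ih =>
    have hW : (a + δ + L) * m + m ≤ cap m m (2 * (a + L) + 1) := by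
      rw [cap_odd]
      have e : m + 1 - m = 1 := by omega
      rw [e]
      nlinarith
    have := Cov.fwd ih (2 * (a + L) + 1) m (le_refl _) hW
    have e1 : (a + δ + (L + 1)) * m = (a + δ + L) * m + m := by ring
    have e2 : K + (L + 1) * (2 * a + (L + 1)) = K + L * (2 * a + L) + (2 * (a + L) + 1) := by ring
    rw [e1, e2]
    exact this

lemma case_S {k m : ℕ} (hk : 3 * m + 2 ≤ k) : ∃ K, Cov m ((k + 1) * m) K ∧ K ≤ k ^ 2 + 1 := by
  obtain ⟨L, rfl⟩ : ∃ L, k = 3 * m + 2 + L := ⟨k - (3 * m + 2), by omega⟩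
  have h0 : Cov m ((m + 1) * m) ((m + 1) ^ 2) := Cov_levels m (m + 1)
  have h1 := block_path (a := m) (δ := 1) (K := (m + 1) ^ 2) h0 (by omega) (m + 1)
  have e1 : (m + 1 + (m + 1)) * m = (2 * m + 2) * m := by ring
  rw [e1] at h1
  have h2 := block_path (a := 2 * m) (δ := 2) (K := (m + 1) ^ 2 + (m + 1) * (2 * m + (m + 1)))
    (by simpa using h1) (by omega) (m + 1)
  have h3 := block_path (a := 3 * m) (δ := 3)
    (K := (m + 1) ^ 2 + (m + 1) * (2 * m + (m + 1)) + (m + 1) * (2 * (2 * m) + (m + 1)))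
    (by
      have e : (3 * m + 3) * m = (2 * m + 2 + (m + 1)) * m := by ring
      rw [e]
      exact h2) (by omega) L
  refine ⟨(m + 1) ^ 2 + (m + 1) * (2 * m + (m + 1)) + (m + 1) * (2 * (2 * m) + (m + 1)) +
    L * (2 * (3 * m) + L), ?_, ?_⟩
  · have e : (3 * m + 2 + L + 1) * m = (3 * m + 3 + L) * m := by ring
    rw [e]
    exact h3
  · nlinarith

/-- The crude two-jump pattern. -/
lemma case_A {m a j r Z : ℕ} (ha : 1 ≤ a) (hm : 1 ≤ m) (hZ : Z * (Z + 1) ≤ m) (hZm : Z ≤ m)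
    (hr1 : (a + j) ^ 2 + 2 * (a + 1) + 2 ≤ r) (hr2 : r ≤ (a + j) ^ 2 + 2 * (a + 1) + 3)
    (hmain : 5 * m ≤ 2 * a * Z) :
    ∃ W K, Cov m W K ∧ K ≤ r ∧ r * m ^ 2 < W ^ 2 := by
  have h0 : Cov m (1 * m + m) 4 := by
    have := Cov_levels m 2
    have e : 2 * m = 1 * m + m := by ring
    rw [e] at this
    simpa using this
  obtain ⟨z, hz1, hz2, hz3⟩ := crude_path (v₀ := 1) (z₀ := m) (Z := Z) (le_refl 1) h0 hZm
    (by simpa using hZ) a
  have h1 : Cov m (a * m + (m + z)) (4 + a * (2 * 1 + a)) := by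
    have e : (1 + a) * m + z = a * m + (m + z) := by ring
    rw [e] at hz1
    exact hz1
  obtain ⟨z', hz'1, _, hz'3⟩ := crude_path (v₀ := a) (z₀ := m + z) (Z := 0) ha h1 (Nat.zero_le _)
    (by simp) j
  refine ⟨(a + j) * m + z', _, hz'1, ?_, ?_⟩
  · nlinarith
  · -- the final inequality
    have hz'pos : 1 ≤ z' := by
      by_contra hlt
      have : z' = 0 := by omega
      rw [this] at hz'3
      simp at hz'3
      omega
    have hzZ : a * m * 2 * Z ≤ a * m * 2 * z := Nat.mul_le_mul_left _ hz2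
    have h5 : 5 * m * m ≤ 2 * a * Z * m := Nat.mul_le_mul_right _ hmain
    have hrm : r * m ^ 2 ≤ ((a + j) ^ 2 + 2 * (a + 1) + 3) * m ^ 2 := Nat.mul_le_mul_right _ hr2
    have h6 : a * (m + z) * (2 * m) ≤ (a + j) * z' * (2 * m) := Nat.mul_le_mul_right _ hz'3
    have hz'2 : 1 ≤ z' ^ 2 := Nat.one_le_pow _ _ hz'pos
    nlinarith

/-- The choice of `Z` in the crude pattern. -/
lemma exists_Z {k m : ℕ} (h100 : 100 * m ≤ k ^ 2 + 2 * k) (hm : 10 ≤ m) :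
    ∃ Z, Z * (Z + 1) ≤ m ∧ Z ≤ m ∧ 5 * m ≤ (k - 1) * Z := by
  set q := Nat.sqrt m with hq
  have hq1 : q ^ 2 ≤ m := Nat.sqrt_le' m
  have hq2 : m < (q + 1) ^ 2 := Nat.lt_succ_sqrt' m
  have hq3 : 3 ≤ q := by
    by_contra hlt
    have : q ≤ 2 := by omega
    have : (q + 1) ^ 2 ≤ 3 ^ 2 := Nat.pow_le_pow_left (by omega) 2
    omega
  have hkq : 10 * q ≤ k := by
    by_contra hlt
    have : k + 1 ≤ 10 * q := by omega
    have : (k + 1) ^ 2 ≤ (10 * q) ^ 2 := Nat.pow_le_pow_left this 2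
    nlinarith
  obtain ⟨k', rfl⟩ : ∃ k', k = k' + 1 := ⟨k - 1, by omega⟩
  simp only [Nat.add_sub_cancel]
  by_cases hcase : q * (q + 1) ≤ m
  · refine ⟨q, hcase, by nlinarith, ?_⟩
    nlinarith
  · rw [not_le] at hcase
    obtain ⟨q', hq'⟩ : ∃ q', q = q' + 1 := ⟨q - 1, by omega⟩
    rw [hq'] at hcase hq1 hq3 hkq
    refine ⟨q', by nlinarith, by nlinarith, ?_⟩
    nlinarith

/-- The line pattern. -/
lemma case_L {m τ j r : ℕ} (hm : 10 ≤ m) (hτ : 1 ≤ τ) (hτm : τ + 4 ≤ 2 * m)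
    (hr1 : (τ + 1 + j) ^ 2 + 2 * τ + 3 ≤ r) (hr2 : r ≤ (τ + 1 + j) ^ 2 + 2 * τ + 4)
    (ht3 : 3 ≤ τ + 1 + j)
    (hE1 : (2 * m + τ + (τ : ℝ) ^ 2 / 4) ≤ ((τ + 1 + j : ℕ) : ℝ) ^ 2 / 9)
    (hE2 : ((τ : ℝ) * (4 * (m - 1) - τ) / 4) < ((τ + 1 + j : ℕ) : ℝ) ^ 2 / 16 →
      16 * (2 * m + τ + (τ : ℝ) ^ 2 / 4) ^ 2 ≤
        9 * ((τ : ℝ) * (4 * (m - 1) - τ) / 4) * ((τ + 1 + j : ℕ) : ℝ) ^ 2) :
    ∃ W K, Cov m W K ∧ K ≤ r ∧ r * m ^ 2 < W ^ 2 := by
  obtain ⟨ζ, rfl⟩ : ∃ ζ, m = ζ + 1 := ⟨m - 1, by omega⟩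
  obtain ⟨κ, hκ⟩ : ∃ κ, τ + κ = 4 * ζ := ⟨4 * ζ - τ, by omega⟩
  set t := τ + 1 + j with htdef
  have htR : (3 : ℝ) ≤ (t : ℝ) := by exact_mod_cast ht3
  have hκR : (κ : ℝ) = 4 * ζ - τ := by
    have : ((τ + κ : ℕ) : ℝ) = ((4 * ζ : ℕ) : ℝ) := by rw [hκ]
    push_cast at this
    linarith
  let X : ℝ := (τ : ℝ) * κ / 4
  let E : ℝ := 2 * ((ζ + 1 : ℕ) : ℝ) + τ + (τ : ℝ) ^ 2 / 4
  have hX0 : 0 ≤ X := by positivity
  have hE0 : 0 ≤ E := by positivity
  have hXE : X + E = ((τ : ℝ) + 2) * ((ζ + 1 : ℕ) : ℝ) := by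
    simp only [X, E]
    rw [hκR]
    push_cast
    ring
  have hXdef : (τ : ℝ) * (4 * (((ζ + 1 : ℕ) : ℝ) - 1) - τ) / 4 = X := by
    simp only [X]
    rw [hκR]
    push_cast
    ring
  rw [hXdef] at hE2
  obtain ⟨n, hn⟩ := choose_line (t : ℝ) X E htR hX0 hE0 hE1 hE2
  -- the intercept
  set Nn := ((4 * n + 1) * (τ * κ)) / 4 with hNn
  set B₀ := Nat.sqrt Nn with hB₀
  have hB1 : B₀ ^ 2 ≤ Nn := Nat.sqrt_le' Nn
  have hB2 : Nn < (B₀ + 1) ^ 2 := Nat.lt_succ_sqrt' Nn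
  have hB3 : 4 * Nn ≤ (4 * n + 1) * (τ * κ) := Nat.mul_div_le _ _
  have hB4 : (4 * n + 1) * (τ * κ) < 4 * (Nn + 1) := by
    have := Nat.lt_mul_div_succ ((4 * n + 1) * (τ * κ)) (show 0 < 4 by norm_num)
    simpa [Nat.mul_add, hNn] using this
  have hB : 4 * B₀ ^ 2 ≤ (4 * n + 1) * (τ * κ) := by nlinarith
  have hlt : (4 * n + 1) * (τ * κ) < 4 * (B₀ + 1) ^ 2 := by nlinarith
  -- real form
  have hltR : (4 * (n : ℝ) + 1) * X < ((B₀ : ℝ) + 1) ^ 2 := by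
    have : (((4 * n + 1) * (τ * κ) : ℕ) : ℝ) < ((4 * (B₀ + 1) ^ 2 : ℕ) : ℝ) := by
      exact_mod_cast hlt
    push_cast at this
    simp only [X]
    linarith
  have hsq : ((n : ℝ) * ((t : ℝ) - 1) + (X + E) / t) ^ 2 < ((B₀ : ℝ) + 1) ^ 2 := lt_of_le_of_lt hn hltR
  have hroot : (n : ℝ) * ((t : ℝ) - 1) + (X + E) / t < (B₀ : ℝ) + 1 :=
    lt_of_pow_lt_pow_left₀ 2 (by positivity) hsq
  have htpos : (0 : ℝ) < t := by linarith
  have hXEt : 0 ≤ (X + E) / t := by positivity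
  have hntle : n * t ≤ B₀ + n + 1 := by
    have h1 : (n : ℝ) * ((t : ℝ) - 1) < (B₀ : ℝ) + 1 := by linarith
    have h2 : ((n * t : ℕ) : ℝ) < ((B₀ + n + 1 : ℕ) : ℝ) := by
      push_cast
      linarith
    exact (by exact_mod_cast h2 : n * t < B₀ + n + 1).le
  have hC0 : Cov (ζ + 1) ((τ + 1) * (ζ + 1) + (ζ + 1)) ((τ + 2) ^ 2) := by
    have := Cov_levels (ζ + 1) (τ + 2)
    have e : (τ + 2) * (ζ + 1) = (τ + 1) * (ζ + 1) + (ζ + 1) := by ring
    rwa [e] at this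
  have hC := lines_main (n₀ := n) hκ hB hC0 j (by rw [← htdef]; exact hntle)
  rw [← htdef] at hC
  refine ⟨t * (ζ + 1) + (B₀ + n + 1 - n * t), _, hC, ?_, ?_⟩
  · have : (τ + 2) ^ 2 + j * (2 * (τ + 1) + j) = t ^ 2 + 2 * τ + 3 := by
      rw [htdef]; ring
    omega
  · -- the final inequality
    set z := B₀ + n + 1 - n * t with hz
    have hzR : (z : ℝ) = (B₀ : ℝ) + n + 1 - n * t := by
      rw [hz, Nat.cast_sub hntle]
      push_cast
      ring
    have hzt : ((τ : ℝ) + 2) * ((ζ + 1 : ℕ) : ℝ) < t * z := by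
      have h1 : (X + E) / t < z := by
        rw [hzR]
        nlinarith
      rw [div_lt_iff₀ htpos] at h1
      rw [← hXE]
      linarith
    have hmpos : (0 : ℝ) < ((ζ + 1 : ℕ) : ℝ) := by positivity
    have hfinal : ((r * (ζ + 1) ^ 2 : ℕ) : ℝ) < (((t * (ζ + 1) + z) ^ 2 : ℕ) : ℝ) := by
      have hrR : (r : ℝ) ≤ (t : ℝ) ^ 2 + 2 * τ + 4 := by
        have : ((r : ℕ) : ℝ) ≤ (((t ^ 2 + 2 * τ + 4 : ℕ)) : ℝ) := by exact_mod_cast hr2
        push_cast at this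
        linarith
      have hm2 : (0 : ℝ) < (((ζ + 1 : ℕ) : ℝ)) ^ 2 := by positivity
      have h1 : (r : ℝ) * ((ζ + 1 : ℕ) : ℝ) ^ 2 ≤ ((t : ℝ) ^ 2 + 2 * τ + 4) * ((ζ + 1 : ℕ) : ℝ) ^ 2 :=
        mul_le_mul_of_nonneg_right hrR hm2.le
      have h2 : 2 * ((ζ + 1 : ℕ) : ℝ) * (((τ : ℝ) + 2) * ((ζ + 1 : ℕ) : ℝ)) <
          2 * ((ζ + 1 : ℕ) : ℝ) * (t * z) := mul_lt_mul_of_pos_left hzt (by positivity)
      have h3 : (0 : ℝ) ≤ (z : ℝ) ^ 2 := by positivity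
      push_cast at h1 h2 ⊢
      nlinarith
    exact_mod_cast hfinal

end Vale.Agent.Lib.P279
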