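import Mathlib

namespace Vale.Agent.Lib.P279

variable {r : ℕ}

/-- Variance estimate in terms of a minimal gap. -/
lemma gap_lemma (x : Fin r → ℕ) {a c : Fin r} (hac : x a < x c)
    (hmin : ∀ i k, x i < x k → x c - x a ≤ x k - x i) :
    ((r : ℤ) - 1) * ((x c : ℤ) - x a) ^ 2 ≤
      r * (∑ i, (x i : ℤ) ^ 2) - (∑ i, (x i : ℤ)) ^ 2 := by
  classical
  have hne : a ≠ c := by
    rintro rfl
    exact lt_irrefl _ hac
  set g : ℤ := (x c : ℤ) - x a with hg
  have hgpos : 0 < g := by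
    have : (x a : ℤ) < x c := by exact_mod_cast hac
    omega
  let y : Fin r → ℤ := fun i => 2 * (x i : ℤ) - x a - x c
  have hya : y a = -g := by simp only [y, hg]; ring
  have hyc : y c = g := by simp only [y, hg]; ring
  have hy : ∀ i, g ^ 2 ≤ y i ^ 2 := by
    intro i
    by_cases h1 : x i ≤ x a
    · have h1' : (x i : ℤ) ≤ x a := by exact_mod_cast h1
      have : y i ≤ -g := by
        simp only [y, hg]
        omega
      nlinarith
    · by_cases h2 : x c ≤ x i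
      · have h2' : (x c : ℤ) ≤ x i := by exact_mod_cast h2
        have : g ≤ y i := by
          simp only [y, hg]
          omega
        nlinarith
      · exfalso
        have := hmin a i (by omega)
        omega
  set S : ℤ := ∑ i, (x i : ℤ) with hS
  set X2 : ℤ := ∑ i, (x i : ℤ) ^ 2 with hX2
  set A : ℤ := (x a : ℤ) + x c with hA
  have hy' : ∀ i, y i = 2 * (x i : ℤ) - A := by
    intro i
    simp only [y, hA]
    ring
  have hsum1 : ∑ i, y i = 2 * S - r * A := by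
    simp only [hy']
    rw [Finset.sum_sub_distrib, ← Finset.mul_sum]
    simp [hS]
  have hsum2 : ∑ i, y i ^ 2 = 4 * X2 - 4 * S * A + r * A ^ 2 := by
    have : ∀ i, y i ^ 2 = 4 * (x i : ℤ) ^ 2 - 4 * A * (x i : ℤ) + A ^ 2 := by
      intro i
      rw [hy']
      ring
    simp only [this]
    rw [Finset.sum_add_distrib, Finset.sum_sub_distrib, ← Finset.mul_sum, ← Finset.mul_sum]
    simp only [Finset.sum_const, Finset.card_univ, Fintype.card_fin, nsmul_eq_mul, hX2, hS]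
    ring
  let s := (Finset.univ.erase a).erase c
  have hcards : (s.card : ℤ) = (r : ℤ) - 2 := by
    have h1 : (Finset.univ.erase a).card = r - 1 := by
      rw [Finset.card_erase_of_mem (Finset.mem_univ _), Finset.card_univ, Fintype.card_fin]
    have h2 : s.card = r - 1 - 1 := by
      rw [Finset.card_erase_of_mem (by simp [Ne.symm hne]), h1]
    have hr : 2 ≤ r := by
      have hpos : 0 < r := Fin.pos a
      by_contra hlt
      have : r = 1 := by omega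
      subst this
      exact hne (Subsingleton.elim _ _)
    rw [h2]
    omega
  have hsplit : ∀ f : Fin r → ℤ, ∑ i, f i = f a + f c + ∑ i ∈ s, f i := by
    intro f
    have h1 := Finset.add_sum_erase Finset.univ f (Finset.mem_univ a)
    have h2 := Finset.add_sum_erase (Finset.univ.erase a) f
      (show c ∈ Finset.univ.erase a by simp [Ne.symm hne])
    rw [← h1, ← h2]
    ring
  set T : ℤ := ∑ i ∈ s, y i with hT
  set Q : ℤ := ∑ i ∈ s, y i ^ 2 with hQ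
  have hcs : T ^ 2 ≤ ((r : ℤ) - 2) * Q := by
    have := sq_sum_le_card_mul_sum_sq (s := s) (f := y)
    rw [hcards] at this
    exact this
  have hQ2 : ((r : ℤ) - 2) * g ^ 2 ≤ Q := by
    have := Finset.card_nsmul_le_sum s (fun i => y i ^ 2) (g ^ 2) (fun i _ => hy i)
    rw [nsmul_eq_mul, hcards] at this
    exact this
  have h1 : 2 * S - r * A = T := by
    rw [← hsum1, hsplit y, hya, hyc]
    ring
  have h2 : 4 * X2 - 4 * S * A + r * A ^ 2 = 2 * g ^ 2 + Q := by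
    rw [← hsum2, hsplit (fun i => y i ^ 2), hya, hyc]
    ring
  have h3 : 4 * ((r : ℤ) * X2 - S ^ 2) = r * (2 * g ^ 2 + Q) - T ^ 2 := by
    rw [← h1, ← h2]
    ring
  nlinarith

lemma aux3 (R g μ X S : ℤ) (hR : 11 ≤ R) (hgap : (R - 1) * g ^ 2 ≤ R * X - S ^ 2) (hμ : 1 ≤ μ)
    (h10 : 10 * μ < g) : R * μ ≤ R * X - S ^ 2 := by
  have h1 : 100 * μ ^ 2 ≤ g ^ 2 := by nlinarith
  have h2 : μ ≤ μ ^ 2 := by nlinarith
  have h3 : (R - 1) * (100 * μ ^ 2) ≤ (R - 1) * g ^ 2 :=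
    mul_le_mul_of_nonneg_left h1 (by linarith)
  have h4 : (R - 1) * (100 * μ) ≤ (R - 1) * (100 * μ ^ 2) :=
    mul_le_mul_of_nonneg_left (by linarith) (by linarith)
  have h5 : R * μ ≤ (R - 1) * (100 * μ) := by nlinarith
  linarith

lemma aux_enough (R S b : ℤ) (hR : 0 ≤ R) (h : S ^ 2 ≤ R * b ^ 2) :
    (R ^ 2 - 100) * S ^ 2 ≤ R ^ 3 * b ^ 2 := by
  have h1 : R ^ 2 * S ^ 2 ≤ R ^ 2 * (R * b ^ 2) := mul_le_mul_of_nonneg_left h (by positivity)
  have h2 : 0 ≤ S ^ 2 := by positivity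
  nlinarith

lemma aux_const_small (R μ b : ℤ) (hR : 11 ≤ R) (h : R * μ ^ 2 ≤ b ^ 2) :
    (R ^ 2 - 100) * (R * μ) ^ 2 ≤ R ^ 3 * b ^ 2 := by
  apply aux_enough R _ b (by linarith)
  have h2 : R * (R * μ ^ 2) ≤ R * b ^ 2 := mul_le_mul_of_nonneg_left h (by linarith)
  nlinarith

lemma aux_const_big (R μ b : ℤ) (hR : 11 ≤ R) (hμ : 1 ≤ μ) (h100 : R < 100 * μ)
    (h : R * μ ^ 2 ≤ b ^ 2 + μ) : (R ^ 2 - 100) * (R * μ) ^ 2 ≤ R ^ 3 * b ^ 2 := by
  have hR0 : 0 ≤ R := by linarith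
  have h3 : R ^ 3 * (R * μ ^ 2) ≤ R ^ 3 * (b ^ 2 + μ) := mul_le_mul_of_nonneg_left h (by positivity)
  have h5 : R ^ 2 * μ * R ≤ R ^ 2 * μ * (100 * μ) :=
    mul_le_mul_of_nonneg_left h100.le (by positivity)
  nlinarith

lemma aux_swap (R S X b g : ℤ) (hR : 11 ≤ R) (hS : 0 ≤ S) (_hg : 1 ≤ g)
    (hgap : (R - 1) * g ^ 2 ≤ R * X - S ^ 2) (hX : X ≤ b ^ 2 + g ^ 2) (h10 : R * g ≤ 10 * S) :
    (R ^ 2 - 100) * S ^ 2 ≤ R ^ 3 * b ^ 2 := by
  have hR0 : 0 ≤ R := by linarith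
  have h2 : S ^ 2 - g ^ 2 ≤ R * b ^ 2 := by
    have : R * X ≤ R * (b ^ 2 + g ^ 2) := mul_le_mul_of_nonneg_left hX hR0
    nlinarith
  have h3 : (R * g) ^ 2 ≤ (10 * S) ^ 2 := by
    apply pow_le_pow_left₀ _ h10
    positivity
  have h4 : R ^ 2 * (S ^ 2 - g ^ 2) ≤ R ^ 2 * (R * b ^ 2) :=
    mul_le_mul_of_nonneg_left h2 (by positivity)
  nlinarith

lemma aux_xu (R S X b μ : ℤ) (hR : 11 ≤ R) (hX : X ≤ b ^ 2 + μ) (hV : R * μ ≤ R * X - S ^ 2) :
    (R ^ 2 - 100) * S ^ 2 ≤ R ^ 3 * b ^ 2 := by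
  have hR0 : 0 ≤ R := by linarith
  apply aux_enough R S b hR0
  have : R * X ≤ R * (b ^ 2 + μ) := mul_le_mul_of_nonneg_left hX hR0
  nlinarith

lemma aux_zero (R S X μ g : ℤ) (hR : 11 ≤ R) (hgμ : g ≤ μ) (hX : μ * S ≤ X) (hS2 : 2 ≤ S)
    (h10 : 10 * S < R * g) : R * μ ≤ R * X - S ^ 2 := by
  have hR0 : 0 ≤ R := by linarith
  have hrμ : R * g ≤ R * μ := mul_le_mul_of_nonneg_left hgμ hR0
  have hrS : 10 * S < R * μ := by linarith
  have h3 : R * (μ * S) ≤ R * X := mul_le_mul_of_nonneg_left hX hR0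
  have h4 : 0 ≤ (S - 2) * (R * μ - S) := by
    apply mul_nonneg <;> linarith
  nlinarith

lemma aux_one (R b : ℤ) (hR : 11 ≤ R) (hb : 1 ≤ b) : (R ^ 2 - 100) * 1 ^ 2 ≤ R ^ 3 * b ^ 2 := by
  have h1 : (1 : ℤ) ≤ b ^ 2 := by nlinarith
  have h2 : R ^ 3 * 1 ≤ R ^ 3 * b ^ 2 := mul_le_mul_of_nonneg_left h1 (by positivity)
  have h3 : R ^ 2 ≤ R ^ 3 := by nlinarith [sq_nonneg R]
  nlinarith

/-- Cast of a sum of squares. -/
lemma cast_sum_sq (x : Fin r → ℕ) : ((∑ i, x i * x i : ℕ) : ℤ) = ∑ i, (x i : ℤ) ^ 2 := by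
  push_cast
  apply Finset.sum_congr rfl
  intro i _
  ring

/-- The arithmetic combining the inequalities valid for an irreducible form, equal multiplicities. -/
lemma irr_arith_const (x : Fin r → ℕ) (b : ℕ) (hr11 : (11 : ℤ) ≤ r)
    (hxu : ∀ j, 1 ≤ x j → ∑ i, x i * x i ≤ b * b + x j)
    (hconst : ∀ μ, 1 ≤ μ → 100 * μ ≤ r → (∀ i, x i = μ) → r * μ ^ 2 ≤ b ^ 2)
    (hcst : ∀ i k, x i = x k) :
    ((r : ℤ) ^ 2 - 100) * (∑ i, (x i : ℤ)) ^ 2 ≤ (r : ℤ) ^ 3 * (b : ℤ) ^ 2 := by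
  have hrpos : 0 < r := by
    have : (0 : ℤ) < r := by omega
    exact_mod_cast this
  let i₀ : Fin r := ⟨0, hrpos⟩
  set μ := x i₀ with hμ
  have hall : ∀ i, x i = μ := fun i => hcst i i₀
  have hSval : (∑ i, (x i : ℤ)) = r * μ := by
    simp [hall]
  have hX2val : (∑ i, (x i : ℤ) ^ 2) = r * (μ : ℤ) ^ 2 := by
    simp [hall]
  rw [hSval]
  by_cases hμ0 : μ = 0
  · rw [hμ0]
    simp
    positivity
  have hμ1 : 1 ≤ μ := by omega
  have hμZ : (1 : ℤ) ≤ μ := by exact_mod_cast hμ1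
  by_cases h100 : 100 * μ ≤ r
  · have h1 := hconst μ hμ1 h100 hall
    have h1' : (r : ℤ) * (μ : ℤ) ^ 2 ≤ (b : ℤ) ^ 2 := by exact_mod_cast h1
    exact aux_const_small _ _ _ hr11 h1'
  · have h1 := hxu i₀ (by omega)
    have h1' : (r : ℤ) * (μ : ℤ) ^ 2 ≤ (b : ℤ) ^ 2 + μ := by
      rw [← hX2val, ← cast_sum_sq]
      have : ((∑ i, x i * x i : ℕ) : ℤ) ≤ ((b * b + x i₀ : ℕ) : ℤ) := by exact_mod_cast h1
      rw [Nat.cast_add, Nat.cast_mul] at this
      rw [sq]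
      exact this
    have h100' : (r : ℤ) < 100 * μ := by
      have : r < 100 * μ := by omega
      exact_mod_cast this
    exact aux_const_big _ _ _ hr11 hμZ h100' h1'

/-- The arithmetic when a multiplicity vanishes. -/
lemma irr_arith_zero (x : Fin r → ℕ) (b : ℕ) (hbZ : (1 : ℤ) ≤ b) (hr11 : (11 : ℤ) ≤ r)
    {g : ℤ} (h10 : 10 * (∑ i, (x i : ℤ)) < (r : ℤ) * g) {j : Fin r} (hj1 : 1 ≤ x j)
    (hjm : ∀ i, 1 ≤ x i → x j ≤ x i) (hgμ : g ≤ x j)
    (h1' : (∑ i, (x i : ℤ) ^ 2) ≤ (b : ℤ) ^ 2 + x j) :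
    ((r : ℤ) ^ 2 - 100) * (∑ i, (x i : ℤ)) ^ 2 ≤ (r : ℤ) ^ 3 * (b : ℤ) ^ 2 := by
  have hX2μ : (x j : ℤ) * (∑ i, (x i : ℤ)) ≤ ∑ i, (x i : ℤ) ^ 2 := by
    rw [Finset.mul_sum]
    apply Finset.sum_le_sum
    intro i _
    by_cases hi : 1 ≤ x i
    · have h2 : (x j : ℤ) ≤ (x i : ℤ) := by exact_mod_cast hjm i hi
      have h3 : (0 : ℤ) ≤ x i := by positivity
      nlinarith
    · have : x i = 0 := by omega
      simp [this]
  have hSμ : (x j : ℤ) ≤ ∑ i, (x i : ℤ) :=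
    Finset.single_le_sum (f := fun i => (x i : ℤ)) (fun i _ => by positivity) (Finset.mem_univ j)
  have hμ1 : (1 : ℤ) ≤ x j := by exact_mod_cast hj1
  by_cases hS1 : (∑ i, (x i : ℤ)) ≤ 1
  · have hS' : (∑ i, (x i : ℤ)) = 1 := by omega
    rw [hS']
    exact aux_one _ _ hr11 hbZ
  · exact aux_xu _ _ _ _ _ hr11 h1' (aux_zero _ _ _ _ g hr11 hgμ hX2μ (by omega) h10)

/-- The arithmetic combining the inequalities valid for an irreducible form. -/
theorem irr_arith (x : Fin r → ℕ) (b : ℕ) (hb : 1 ≤ b)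
    (hxu : ∀ j, 1 ≤ x j → ∑ i, x i * x i ≤ b * b + x j)
    (hswap : ∀ a c, x a < x c → ∑ i, x i * x i ≤ b * b + (x c - x a) ^ 2)
    (hconst : ∀ μ, 1 ≤ μ → 100 * μ ≤ r → (∀ i, x i = μ) → r * μ ^ 2 ≤ b ^ 2) :
    ((r : ℤ) ^ 2 - 100) * (∑ i, (x i : ℤ)) ^ 2 ≤ (r : ℤ) ^ 3 * (b : ℤ) ^ 2 := by
  classical
  have hbZ : (1 : ℤ) ≤ b := by exact_mod_cast hb
  have hrZ0 : (0 : ℤ) ≤ r := by positivity
  by_cases hr10 : (r : ℤ) ^ 2 ≤ 100
  · have h1 : ((r : ℤ) ^ 2 - 100) * (∑ i, (x i : ℤ)) ^ 2 ≤ 0 :=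
      mul_nonpos_of_nonpos_of_nonneg (by linarith) (by positivity)
    have h2 : (0 : ℤ) ≤ (r : ℤ) ^ 3 * (b : ℤ) ^ 2 := by positivity
    linarith
  have hr11 : (11 : ℤ) ≤ r := by
    by_contra hlt
    have hlt' : (r : ℤ) ≤ 10 := by omega
    apply hr10
    nlinarith
  have hrpos : 0 < r := by
    have : (0 : ℤ) < r := by omega
    exact_mod_cast this
  by_cases hcst : ∀ i k, x i = x k
  · exact irr_arith_const x b hr11 hxu hconst hcst
  · -- non-constant multiplicities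
    push Not at hcst
    obtain ⟨a₀, c₀, hne₀⟩ := hcst
    have hexpair : ∃ a c, x a < x c := by
      rcases Nat.lt_or_gt_of_ne hne₀ with h | h
      · exact ⟨a₀, c₀, h⟩
      · exact ⟨c₀, a₀, h⟩
    -- a pair with minimal gap
    let P : Finset (Fin r × Fin r) := Finset.univ.filter fun q => x q.1 < x q.2
    have hPne : P.Nonempty := by
      obtain ⟨a, c, h⟩ := hexpair
      exact ⟨(a, c), by simp [P, h]⟩
    obtain ⟨⟨a, c⟩, hqP, hqmin⟩ := Finset.exists_min_image P (fun q => x q.2 - x q.1) hPne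
    have hac : x a < x c := by simpa [P] using hqP
    have hmin : ∀ i k, x i < x k → x c - x a ≤ x k - x i := by
      intro i k hik
      exact hqmin (i, k) (by simp [P, hik])
    have hgap := gap_lemma x hac hmin
    have hgpos : 1 ≤ (x c : ℤ) - x a := by
      have : (x a : ℤ) < x c := by exact_mod_cast hac
      omega
    have hS0 : 0 ≤ ∑ i, (x i : ℤ) := Finset.sum_nonneg (fun i _ => by positivity)
    by_cases h10 : (r : ℤ) * ((x c : ℤ) - x a) ≤ 10 * ∑ i, (x i : ℤ)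
    · -- use the swap inequality
      have h1 := hswap a c hac
      have h1' : (∑ i, (x i : ℤ) ^ 2) ≤ (b : ℤ) ^ 2 + ((x c : ℤ) - x a) ^ 2 := by
        rw [← cast_sum_sq]
        have : ((∑ i, x i * x i : ℕ) : ℤ) ≤ ((b * b + (x c - x a) ^ 2 : ℕ) : ℤ) := by
          exact_mod_cast h1
        rw [Nat.cast_add, Nat.cast_mul, Nat.cast_pow, Nat.cast_sub hac.le] at this
        rw [sq (b : ℤ)]
        exact this
      exact aux_swap _ _ _ _ _ hr11 hS0 hgpos hgap h1' h10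
    · -- use the deformation inequality
      push Not at h10
      let Q : Finset (Fin r) := Finset.univ.filter fun i => 1 ≤ x i
      have hQne : Q.Nonempty := ⟨c, by simp [Q]; omega⟩
      obtain ⟨j, hjQ, hjmin⟩ := Finset.exists_min_image Q x hQne
      have hj1 : 1 ≤ x j := by simpa [Q] using hjQ
      have hjm : ∀ i, 1 ≤ x i → x j ≤ x i := fun i hi => hjmin i (by simp [Q, hi])
      have h1 := hxu j hj1
      have h1' : (∑ i, (x i : ℤ) ^ 2) ≤ (b : ℤ) ^ 2 + x j := by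
        rw [← cast_sum_sq]
        have : ((∑ i, x i * x i : ℕ) : ℤ) ≤ ((b * b + x j : ℕ) : ℤ) := by exact_mod_cast h1
        rw [Nat.cast_add, Nat.cast_mul] at this
        rw [sq (b : ℤ)]
        exact this
      have hμ1 : (1 : ℤ) ≤ x j := by exact_mod_cast hj1
      by_cases hzero : ∀ i, 1 ≤ x i
      · -- no zero multiplicity
        have hSμ : (r : ℤ) * x j ≤ ∑ i, (x i : ℤ) := by
          have := Finset.card_nsmul_le_sum Finset.univ (fun i => (x i : ℤ)) (x j : ℤ) (fun i _ => by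
            have := hjm i (hzero i)
            exact_mod_cast this)
          simpa using this
        have hg10 : 10 * (x j : ℤ) < (x c : ℤ) - x a := by
          have h2 : (r : ℤ) * (10 * (x j : ℤ)) < (r : ℤ) * ((x c : ℤ) - x a) := by linarith
          exact lt_of_mul_lt_mul_left h2 hrZ0
        exact aux_xu _ _ _ _ _ hr11 h1' (aux3 _ _ _ _ _ hr11 hgap hμ1 hg10)
      · -- some zero multiplicity
        push Not at hzero
        obtain ⟨i₀, hi₀⟩ := hzero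
        have hi₀0 : x i₀ = 0 := by omega
        have hgμ : (x c : ℤ) - x a ≤ x j := by
          have h2 := hmin i₀ j (by omega)
          rw [hi₀0] at h2
          have : ((x c - x a : ℕ) : ℤ) ≤ ((x j - 0 : ℕ) : ℤ) := by exact_mod_cast h2
          rw [Nat.cast_sub hac.le] at this
          simpa using this
        exact irr_arith_zero x b hbZ hr11 h10 hj1 hjm hgμ h1'

end Vale.Agent.Lib.P279
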