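import Vale.Agent.Lib.P279.Core

namespace Vale.Agent.Lib.P279

/-- The test functions `(u,v) ↦ (u)_s (v)_t` (falling factorials). -/
noncomputable def tst (s t : ℕ) (w : ℕ × ℕ) : ℂ :=
  (w.1.descFactorial s : ℂ) * (w.2.descFactorial t : ℂ)

/-- Polynomial functions of `(u,v)` of total degree `< m`, spanned by falling factorials. -/
noncomputable def PolySpace (m : ℕ) : Submodule ℂ (ℕ × ℕ → ℂ) :=
  Submodule.span ℂ {g | ∃ s t, s + t < m ∧ g = tst s t}

lemma tst_mem {m s t : ℕ} (h : s + t < m) : tst s t ∈ PolySpace m :=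
  Submodule.subset_span ⟨s, t, h, rfl⟩

lemma PolySpace_mono {m n : ℕ} (h : m ≤ n) : PolySpace m ≤ PolySpace n := by
  apply Submodule.span_mono
  rintro g ⟨s, t, hst, rfl⟩
  exact ⟨s, t, lt_of_lt_of_le hst h, rfl⟩

lemma desc_succ_cast (u s : ℕ) :
    ((u.descFactorial (s + 1) : ℕ) : ℂ) = ((u : ℂ) - s) * (u.descFactorial s : ℂ) := by
  rw [Nat.descFactorial_succ]
  by_cases h : s ≤ u
  · push_cast [Nat.cast_sub h]; ring
  · have : u.descFactorial s = 0 := Nat.descFactorial_eq_zero_iff_lt.mpr (by omega)
    simp [this]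

lemma fst_mul_mem {k : ℕ} {g : ℕ × ℕ → ℂ} (hg : g ∈ PolySpace k) (a : ℂ) :
    (fun w : ℕ × ℕ => ((w.1 : ℂ) - a) * g w) ∈ PolySpace (k + 1) := by
  induction hg using Submodule.span_induction with
  | mem g hg =>
    obtain ⟨s, t, hst, rfl⟩ := hg
    have : (fun w : ℕ × ℕ => ((w.1 : ℂ) - a) * tst s t w)
        = tst (s + 1) t + ((s : ℂ) - a) • tst s t := by
      funext w
      simp only [tst, Pi.add_apply, Pi.smul_apply, smul_eq_mul]
      rw [desc_succ_cast]
      ring
    rw [this]
    exact Submodule.add_mem _ (tst_mem (by omega)) (Submodule.smul_mem _ _ (tst_mem (by omega)))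
  | zero =>
    have : (fun w : ℕ × ℕ => ((w.1 : ℂ) - a) * (0 : ℕ × ℕ → ℂ) w) = 0 := by
      funext w; simp
    rw [this]
    exact Submodule.zero_mem _
  | add x y _ _ hx hy =>
    have : (fun w : ℕ × ℕ => ((w.1 : ℂ) - a) * (x + y) w)
        = (fun w : ℕ × ℕ => ((w.1 : ℂ) - a) * x w) + (fun w : ℕ × ℕ => ((w.1 : ℂ) - a) * y w) := by
      funext w; simp [mul_add]
    rw [this]
    exact Submodule.add_mem _ hx hy
  | smul r x _ hx =>
    have : (fun w : ℕ × ℕ => ((w.1 : ℂ) - a) * (r • x) w)
        = r • (fun w : ℕ × ℕ => ((w.1 : ℂ) - a) * x w) := by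
      funext w; simp; ring
    rw [this]
    exact Submodule.smul_mem _ _ hx

lemma snd_mul_mem {k : ℕ} {g : ℕ × ℕ → ℂ} (hg : g ∈ PolySpace k) (a : ℂ) :
    (fun w : ℕ × ℕ => ((w.2 : ℂ) - a) * g w) ∈ PolySpace (k + 1) := by
  induction hg using Submodule.span_induction with
  | mem g hg =>
    obtain ⟨s, t, hst, rfl⟩ := hg
    have : (fun w : ℕ × ℕ => ((w.2 : ℂ) - a) * tst s t w)
        = tst s (t + 1) + ((t : ℂ) - a) • tst s t := by
      funext w
      simp only [tst, Pi.add_apply, Pi.smul_apply, smul_eq_mul]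
      rw [desc_succ_cast]
      ring
    rw [this]
    exact Submodule.add_mem _ (tst_mem (by omega)) (Submodule.smul_mem _ _ (tst_mem (by omega)))
  | zero =>
    have : (fun w : ℕ × ℕ => ((w.2 : ℂ) - a) * (0 : ℕ × ℕ → ℂ) w) = 0 := by
      funext w; simp
    rw [this]
    exact Submodule.zero_mem _
  | add x y _ _ hx hy =>
    have : (fun w : ℕ × ℕ => ((w.2 : ℂ) - a) * (x + y) w)
        = (fun w : ℕ × ℕ => ((w.2 : ℂ) - a) * x w) + (fun w : ℕ × ℕ => ((w.2 : ℂ) - a) * y w) := by
      funext w; simp [mul_add]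
    rw [this]
    exact Submodule.add_mem _ hx hy
  | smul r x _ hx =>
    have : (fun w : ℕ × ℕ => ((w.2 : ℂ) - a) * (r • x) w)
        = r • (fun w : ℕ × ℕ => ((w.2 : ℂ) - a) * x w) := by
      funext w; simp; ring
    rw [this]
    exact Submodule.smul_mem _ _ hx

lemma one_mem_PolySpace : (fun _ : ℕ × ℕ => (1 : ℂ)) ∈ PolySpace 1 := by
  have : (fun _ : ℕ × ℕ => (1 : ℂ)) = tst 0 0 := by
    funext w; simp [tst]
  rw [this]
  exact tst_mem (by omega)

lemma prod_fst_mem (X : Finset ℕ) {k : ℕ} {g : ℕ × ℕ → ℂ} (hg : g ∈ PolySpace k) :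
    (fun w : ℕ × ℕ => (∏ x ∈ X, ((w.1 : ℂ) - x)) * g w) ∈ PolySpace (k + X.card) := by
  classical
  induction X using Finset.induction_on with
  | empty => simpa using hg
  | insert a X ha ih =>
    rw [Finset.card_insert_of_notMem ha, ← add_assoc]
    have := fst_mul_mem ih (a : ℂ)
    convert this using 1
    funext w
    rw [Finset.prod_insert ha]
    ring

lemma prod_snd_mem {ι : Type} (Y : Finset ι) (η : ι → ℕ) {k : ℕ} {g : ℕ × ℕ → ℂ}
    (hg : g ∈ PolySpace k) :
    (fun w : ℕ × ℕ => (∏ i ∈ Y, ((w.2 : ℂ) - η i)) * g w) ∈ PolySpace (k + Y.card) := by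
  classical
  induction Y using Finset.induction_on with
  | empty => simpa using hg
  | insert a Y ha ih =>
    rw [Finset.card_insert_of_notMem ha, ← add_assoc]
    have := snd_mul_mem ih (η a : ℂ)
    convert this using 1
    funext w
    rw [Finset.prod_insert ha]
    ring

/-- The base lemma for staircase sets: rows `η i`, `i < ℓ`, with row `i` inside a set `X i` of size
at most `m - i`.  A functional on such a set killing all polynomials of degree `< m` vanishes. -/
lemma staircase (m : ℕ) (η : ℕ → ℕ) (X : ℕ → Finset ℕ) (ℓ : ℕ)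
    (hη : ∀ i < ℓ, ∀ j < ℓ, η i = η j → i = j) (hX : ∀ i < ℓ, (X i).card + i ≤ m)
    (S : Finset (ℕ × ℕ)) (hS : ∀ w ∈ S, ∃ i < ℓ, w.2 = η i ∧ w.1 ∈ X i)
    (c : ℕ × ℕ → ℂ) (hc : ∀ g ∈ PolySpace m, ∑ w ∈ S, c w * g w = 0) : ∀ w ∈ S, c w = 0 := by
  classical
  induction ℓ generalizing S with
  | zero =>
    intro w hw
    obtain ⟨i, hi, _⟩ := hS w hw
    omega
  | succ ℓ ih =>
    -- first: vanishing on the last row
    have hlast : ∀ w ∈ S, w.2 = η ℓ → c w = 0 := by
      intro w hw hwy
      obtain ⟨i0, hi0, hi0y, hi0x⟩ := hS w hw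
      have hi0' : i0 = ℓ := hη i0 hi0 ℓ (by omega) (by rw [← hi0y, hwy])
      subst hi0'
      let g : ℕ × ℕ → ℂ := fun w' => (∏ i ∈ Finset.range i0, ((w'.2 : ℂ) - η i)) *
        ((∏ x ∈ (X i0).erase w.1, ((w'.1 : ℂ) - x)) * 1)
      have hg : g ∈ PolySpace m := by
        have h1 := prod_fst_mem ((X i0).erase w.1) one_mem_PolySpace
        have h2 := prod_snd_mem (Finset.range i0) η h1
        have hcard : ((X i0).erase w.1).card + 1 = (X i0).card := by
          rw [Finset.card_erase_of_mem hi0x]
          have : 0 < (X i0).card := Finset.card_pos.mpr ⟨_, hi0x⟩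
          omega
        have hle := hX i0 (by omega)
        refine PolySpace_mono ?_ h2
        rw [Finset.card_range]
        omega
      have hsum := hc g hg
      have hsingle : ∑ w' ∈ S, c w' * g w' = c w * g w := by
        apply Finset.sum_eq_single_of_mem w hw
        intro w' hw' hne
        obtain ⟨i', hi', hi'y, hi'x⟩ := hS w' hw'
        by_cases hii : i' = i0
        · subst hii
          have hx : w'.1 ≠ w.1 := by
            intro hxx
            apply hne
            apply Prod.ext hxx
            rw [hi'y, hwy]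
          have : ∏ x ∈ (X i').erase w.1, ((w'.1 : ℂ) - x) = 0 := by
            apply Finset.prod_eq_zero (i := w'.1) (Finset.mem_erase.mpr ⟨hx, hi'x⟩)
            simp
          simp [g, this]
        · have : ∏ i ∈ Finset.range i0, ((w'.2 : ℂ) - η i) = 0 := by
            apply Finset.prod_eq_zero (i := i') (Finset.mem_range.mpr (by omega))
            rw [hi'y]; simp
          simp [g, this]
      rw [hsingle] at hsum
      have hgw : g w ≠ 0 := by
        simp only [g, mul_one]
        apply mul_ne_zero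
        · apply Finset.prod_ne_zero_iff.mpr
          intro i hi
          rw [Finset.mem_range] at hi
          rw [hwy, sub_ne_zero]
          intro h
          have := hη i0 (by omega) i (by omega) (by exact_mod_cast h)
          omega
        · apply Finset.prod_ne_zero_iff.mpr
          intro x hx
          rw [sub_ne_zero]
          intro h
          have hxx : w.1 = x := by exact_mod_cast h
          exact (Finset.mem_erase.mp hx).1 hxx.symm
      exact (mul_eq_zero.mp hsum).resolve_right hgw
    -- now the remaining rows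
    have hrest := ih (fun i hi j hj h => hη i (by omega) j (by omega) h)
      (fun i hi => hX i (by omega)) (S.filter fun w => w.2 ≠ η ℓ)
      (by
        intro w hw
        rw [Finset.mem_filter] at hw
        obtain ⟨i, hi, hiy, hix⟩ := hS w hw.1
        have : i ≠ ℓ := by
          rintro rfl
          exact hw.2 hiy
        exact ⟨i, by omega, hiy, hix⟩)
      (by
        intro g hg
        rw [← hc g hg]
        apply Finset.sum_subset (Finset.filter_subset _ _)
        intro w hw hw'
        have : w.2 = η ℓ := by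
          by_contra h
          exact hw' (Finset.mem_filter.mpr ⟨hw, h⟩)
        rw [hlast w hw this, zero_mul])
    intro w hw
    by_cases h : w.2 = η ℓ
    · exact hlast w hw h
    · exact hrest w (Finset.mem_filter.mpr ⟨hw, h⟩)

/-- A functional killing the spanning falling factorials kills the whole space. -/
lemma annihilates_span {S : Finset (ℕ × ℕ)} {c : ℕ × ℕ → ℂ} {m : ℕ}
    (h : ∀ s t, s + t < m → ∑ w ∈ S, c w * tst s t w = 0) :
    ∀ g ∈ PolySpace m, ∑ w ∈ S, c w * g w = 0 := by
  intro g hg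
  induction hg using Submodule.span_induction with
  | mem g hg =>
    obtain ⟨s, t, hst, rfl⟩ := hg
    exact h s t hst
  | zero => simp
  | add x y _ _ hx hy =>
    simp only [Pi.add_apply, mul_add, Finset.sum_add_distrib, hx, hy, add_zero]
  | smul r x _ hx =>
    simp only [Pi.smul_apply, smul_eq_mul]
    have : ∑ w ∈ S, c w * (r * x w) = r * ∑ w ∈ S, c w * x w := by
      rw [Finset.mul_sum]
      apply Finset.sum_congr rfl
      intro w _
      ring
    rw [this, hx, mul_zero]

end Vale.Agent.Lib.P279
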