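import Vale.Agent.Lib.P279.Interp

open MvPolynomial Module

namespace Vale.Agent.Lib.P279

lemma tri_bezout (b c e : ℕ) :
    tri (b + c + e + 1) + tri (e + 1) = tri (c + e + 1) + tri (b + e + 1) + b * c := by
  have h1 := two_tri (b + c + e + 1)
  have h2 := two_tri (e + 1)
  have h3 := two_tri (c + e + 1)
  have h4 := two_tri (b + e + 1)
  nlinarith

section Global

variable {F G : A3} {b c : ℕ}

/-- The map `(u,v) ↦ u F + v G` on forms of complementary degrees. -/
noncomputable def PhiL (hF : F.IsHomogeneous b) (hG : G.IsHomogeneous c) (e : ℕ) :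
    (RR (c + e) × RR (b + e)) →ₗ[ℂ] RR (b + c + e) :=
  LinearMap.codRestrict (RR (b + c + e))
    (LinearMap.coprod ((LinearMap.mulRight ℂ F) ∘ₗ (RR (c + e)).subtype)
      ((LinearMap.mulRight ℂ G) ∘ₗ (RR (b + e)).subtype))
    (by
      rintro ⟨u, v⟩
      rw [mem_homogeneousSubmodule]
      have hu : (u.1).IsHomogeneous (c + e) := (mem_homogeneousSubmodule _ _).mp u.2
      have hv : (v.1).IsHomogeneous (b + e) := (mem_homogeneousSubmodule _ _).mp v.2
      simp only [LinearMap.coprod_apply, LinearMap.comp_apply, Submodule.subtype_apply,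
        LinearMap.mulRight_apply]
      apply IsHomogeneous.add
      · have := hu.mul hF
        rwa [show c + e + b = b + c + e by omega] at this
      · have := hv.mul hG
        rwa [show b + e + c = b + c + e by omega] at this)

/-- The syzygies `w ↦ (w G, - w F)`. -/
noncomputable def SyzG (hF : F.IsHomogeneous b) (hG : G.IsHomogeneous c) (e : ℕ) :
    RR e →ₗ[ℂ] (RR (c + e) × RR (b + e)) :=
  LinearMap.prod
    (LinearMap.codRestrict (RR (c + e)) ((LinearMap.mulRight ℂ G) ∘ₗ (RR e).subtype) (by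
      intro w
      rw [mem_homogeneousSubmodule]
      have hw : (w.1).IsHomogeneous e := (mem_homogeneousSubmodule _ _).mp w.2
      simp only [LinearMap.comp_apply, Submodule.subtype_apply, LinearMap.mulRight_apply]
      have := hw.mul hG
      rwa [show e + c = c + e by omega] at this))
    (LinearMap.codRestrict (RR (b + e)) (-((LinearMap.mulRight ℂ F) ∘ₗ (RR e).subtype)) (by
      intro w
      rw [mem_homogeneousSubmodule]
      have hw : (w.1).IsHomogeneous e := (mem_homogeneousSubmodule _ _).mp w.2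
      simp only [LinearMap.neg_apply, LinearMap.comp_apply, Submodule.subtype_apply,
        LinearMap.mulRight_apply]
      have := (hw.mul hF).neg
      rwa [show e + b = b + e by omega] at this))

lemma ker_PhiL_le (hFi : Irreducible F) (hF : F.IsHomogeneous b) (hG : G.IsHomogeneous c)
    (hFG : ¬ F ∣ G) (e : ℕ) :
    LinearMap.ker (PhiL hF hG e) ≤ LinearMap.range (SyzG hF hG e) := by
  rintro ⟨u, v⟩ huv
  rw [LinearMap.mem_ker] at huv
  have h0 : u.1 * F + v.1 * G = 0 := by
    have := congrArg Subtype.val huv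
    simpa [PhiL] using this
  have hF0 : F ≠ 0 := hFi.ne_zero
  have hprime : Prime F := hFi.prime
  have hdvd : F ∣ v.1 * G := by
    refine ⟨-u.1, ?_⟩
    linear_combination h0
  obtain ⟨w, hw⟩ := (hprime.dvd_or_dvd hdvd).resolve_right hFG
  have hvhom : (v.1).IsHomogeneous (b + e) := (mem_homogeneousSubmodule _ _).mp v.2
  have hwhom : w.IsHomogeneous e := by
    apply isHomogeneous_of_mul_left hF hF0
    rw [← hw]
    exact hvhom
  have hu : u.1 = -(w * G) := by
    have h1 : F * (u.1 + w * G) = 0 := by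
      rw [hw] at h0
      linear_combination h0
    have h2 := (mul_eq_zero.mp h1).resolve_left hF0
    linear_combination h2
  refine ⟨⟨-w, (mem_homogeneousSubmodule _ _).mpr hwhom.neg⟩, ?_⟩
  apply Prod.ext
  · apply Subtype.ext
    simp [SyzG, hu]
  · apply Subtype.ext
    simp [SyzG, hw]
    ring

end Global

lemma local_count' {f g : A2} {a n ε k : ℕ} (hk : a + n + ε = k) (hf : ExactOrd f a) (hg : OrdGe g n) :
    finrank ℂ (LinearMap.range (PsiL f g (n + ε) (a + ε) k)) + a * n ≤ tri k := by
  subst hk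
  exact local_count ε hf hg

lemma mem_range_PsiL' {f g : A2} {a n ε k : ℕ} (hk : a + n + ε = k) (hf : OrdGe f a) (hg : OrdGe g n)
    (U V : A2) : tr k (f * U + g * V) ∈ LinearMap.range (PsiL f g (n + ε) (a + ε) k) := by
  subst hk
  exact mem_range_PsiL ε hf hg U V

/-- The Bezout inequality with multiplicities. -/
theorem bezout {ι : Type} [Fintype ι] [DecidableEq ι] {F G : A3} {b c : ℕ}
    (hFi : Irreducible F) (hF : F.IsHomogeneous b) (hG : G.IsHomogeneous c) (hFG : ¬ F ∣ G)
    (p : ι → Fin 3 → ℂ) (hp : ∀ i, p i 2 ≠ 0)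
    (hsep : ∀ i j, i ≠ j → p i 0 * p j 2 ≠ p j 0 * p i 2)
    (a n : ι → ℕ) (ha : ∀ i, ExactOrd (psi (p i) F) (a i))
    (hn : ∀ i, OrdGe (psi (p i) G) (n i)) :
    ∑ i, a i * n i ≤ b * c := by
  classical
  -- the jet order
  set k : ℕ := ∑ i, (a i + n i) + 1 with hk
  have hle : ∀ i, a i + n i + 1 ≤ k := by
    intro i
    have : a i + n i ≤ ∑ i, (a i + n i) :=
      Finset.single_le_sum (f := fun i => a i + n i) (fun _ _ => Nat.zero_le _) (Finset.mem_univ i)
    omega
  let ε : ι → ℕ := fun i => k - (a i + n i)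
  have hε : ∀ i, a i + n i + ε i = k := by
    intro i
    have := hle i
    simp only [ε]
    omega
  set e : ℕ := Fintype.card ι * k with he
  set N : ℕ := b + c + e with hN
  -- the subspaces at each point
  let Iso : ι → Submodule ℂ (TT k → ℂ) := fun i =>
    LinearMap.range (PsiL (psi (p i) F) (psi (p i) G) (n i + ε i) (a i + ε i) k)
  have hIso : ∀ i, finrank ℂ (Iso i) + a i * n i ≤ tri k := fun i =>
    local_count' (hε i) (ha i) (hn i)
  -- the total jet map modulo these subspaces
  let E : RR N →ₗ[ℂ] (∀ i, (TT k → ℂ) ⧸ Iso i) :=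
    LinearMap.pi fun i => (Iso i).mkQ ∘ₗ (tr k) ∘ₗ (psi (p i)).toLinearMap ∘ₗ (RR N).subtype
  have hEapply : ∀ (P : RR N) (i : ι), E P i = (Iso i).mkQ (tr k (psi (p i) P.1)) := fun P i => rfl
  have hEsurj : Function.Surjective E := by
    intro y
    choose τ hτ using fun i => Submodule.mkQ_surjective (Iso i) (y i)
    obtain ⟨P, hP1, hP2⟩ := exists_form_all hp hsep (k := k) (N := N) (by omega) τ
    refine ⟨⟨P, (mem_homogeneousSubmodule _ _).mpr hP1⟩, ?_⟩
    funext i
    rw [hEapply]
    simp only [hP2, hτ]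
  -- dimension of the target
  have htarget : ∑ i, a i * n i ≤ finrank ℂ (∀ i, (TT k → ℂ) ⧸ Iso i) := by
    rw [Module.finrank_pi_fintype]
    apply Finset.sum_le_sum
    intro i _
    have h1 := Submodule.finrank_quotient_add_finrank (Iso i)
    rw [finrank_TT] at h1
    have h2 := hIso i
    omega
  have hrnE : finrank ℂ (∀ i, (TT k → ℂ) ⧸ Iso i) + finrank ℂ (LinearMap.ker E) = tri (N + 1) := by
    have := LinearMap.finrank_range_add_finrank_ker E
    rwa [LinearMap.range_eq_top.mpr hEsurj, finrank_top, finrank_RR] at this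
  -- the image of `Φ` is killed by `E`
  have hPhi : LinearMap.range (PhiL hF hG e) ≤ LinearMap.ker E := by
    rintro _ ⟨⟨u, v⟩, rfl⟩
    rw [LinearMap.mem_ker]
    funext i
    rw [hEapply]
    simp only [Pi.zero_apply]
    rw [Submodule.mkQ_apply, Submodule.Quotient.mk_eq_zero]
    have hval : ((PhiL hF hG e (u, v)) : RR N).1 = u.1 * F + v.1 * G := by
      simp [PhiL]
    rw [hval, map_add (psi (p i)), map_mul (psi (p i)), map_mul (psi (p i)), mul_comm (psi (p i) u.1),
      mul_comm (psi (p i) v.1)]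
    exact mem_range_PsiL' (hε i) (ha i).1 (hn i) _ _
  have h1 : finrank ℂ (LinearMap.range (PhiL hF hG e)) ≤ finrank ℂ (LinearMap.ker E) :=
    Submodule.finrank_mono hPhi
  have hrnPhi := LinearMap.finrank_range_add_finrank_ker (PhiL hF hG e)
  rw [Module.finrank_prod, finrank_RR, finrank_RR] at hrnPhi
  have h2 : finrank ℂ (LinearMap.ker (PhiL hF hG e)) ≤ tri (e + 1) := by
    have h3 := Submodule.finrank_mono (ker_PhiL_le hFi hF hG hFG e)
    have h4 := LinearMap.finrank_range_le (SyzG hF hG e)
    rw [finrank_RR] at h4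
    omega
  have hid := tri_bezout b c e
  rw [← hN] at hid
  omega

end Vale.Agent.Lib.P279
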