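import Mathlib

open Polynomial

namespace Vale.Agent.Lib.P279

/-- Semicontinuity in a parameter: if a matrix with polynomial entries has independent columns at
parameter `0`, then it has independent columns at some nonzero parameter. -/
lemma exists_eval_indep {ι κ : Type} [Fintype ι] (S : Finset κ) (A : ι → κ → ℂ[X])
    (h0 : ∀ c : κ → ℂ, (∀ i, ∑ w ∈ S, c w * (A i w).eval 0 = 0) → ∀ w ∈ S, c w = 0) :
    ∃ t : ℂ, t ≠ 0 ∧ ∀ c : κ → ℂ, (∀ i, ∑ w ∈ S, c w * (A i w).eval t = 0) → ∀ w ∈ S, c w = 0 := by
  classical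
  -- the matrix with columns indexed by `S`
  let B : Matrix ι S ℂ[X] := Matrix.of fun i w => A i w.1
  let B0 : Matrix ι S ℂ := B.map (Polynomial.eval 0)
  -- injectivity at zero
  have hinj : Function.Injective B0.mulVecLin := by
    rw [← LinearMap.ker_eq_bot, LinearMap.ker_eq_bot']
    intro x hx
    let c : κ → ℂ := fun w => if h : w ∈ S then x ⟨w, h⟩ else 0
    have hc := h0 c (by
      intro i
      have := congrFun hx i
      simp only [Matrix.mulVecLin_apply, Matrix.mulVec, dotProduct, B0, B, Matrix.map_apply,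
        Matrix.of_apply, Pi.zero_apply] at this
      rw [← Finset.sum_coe_sort S]
      refine Eq.trans ?_ this
      apply Finset.sum_congr rfl
      intro w _
      simp [c, mul_comm])
    funext w
    have := hc w.1 w.2
    simpa [c] using this
  obtain ⟨g, hg⟩ := LinearMap.exists_leftInverse_of_injective B0.mulVecLin
    (LinearMap.ker_eq_bot.mpr hinj)
  let L : Matrix S ι ℂ := LinearMap.toMatrix' g
  have hL : L * B0 = 1 := by
    have : (LinearMap.toMatrix' g) * (LinearMap.toMatrix' B0.mulVecLin) = 1 := by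
      rw [← LinearMap.toMatrix'_comp, hg, LinearMap.toMatrix'_id]
    rwa [← Matrix.toLin'_apply', LinearMap.toMatrix'_toLin'] at this
  let Bt : Matrix S S ℂ[X] := (L.map Polynomial.C) * B
  let D : ℂ[X] := Bt.det
  have hmap : ∀ t : ℂ, Bt.map (Polynomial.eval t) = L * (B.map (Polynomial.eval t)) := by
    intro t
    ext i j
    simp [Bt, Matrix.mul_apply, Polynomial.eval_finsetSum]
  have hdet : ∀ t : ℂ, D.eval t = (L * (B.map (Polynomial.eval t))).det := by
    intro t
    rw [← hmap t]
    have := RingHom.map_det (Polynomial.evalRingHom t) Bt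
    simpa [D, Polynomial.coe_evalRingHom, RingHom.mapMatrix_apply] using this
  have hD0 : D.eval 0 = 1 := by
    rw [hdet 0]
    show (L * B0).det = 1
    rw [hL, Matrix.det_one]
  have hD : D ≠ 0 := by
    intro h
    rw [h] at hD0
    simp at hD0
  -- pick a nonzero non-root
  have : ∃ t : ℂ, t ≠ 0 ∧ D.eval t ≠ 0 := by
    have hfin : (D.rootSet ℂ ∪ {0}).Finite := (Polynomial.rootSet_finite D ℂ).union (Set.finite_singleton 0)
    obtain ⟨t, ht⟩ := hfin.exists_notMem
    refine ⟨t, ?_, ?_⟩
    · intro h
      exact ht (Or.inr h)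
    · intro h
      apply ht
      left
      rw [Polynomial.mem_rootSet]
      refine ⟨hD, ?_⟩
      simpa using h
  obtain ⟨t, ht0, ht⟩ := this
  refine ⟨t, ht0, ?_⟩
  intro c hc
  have hdett : (L * (B.map (Polynomial.eval t))).det ≠ 0 := by
    rw [← hdet t]; exact ht
  let x : S → ℂ := fun w => c w.1
  have hx : (B.map (Polynomial.eval t)).mulVec x = 0 := by
    funext i
    have := hc i
    simp only [Matrix.mulVec, dotProduct, B, Matrix.map_apply, Matrix.of_apply, Pi.zero_apply, x]
    rw [← Finset.sum_coe_sort S] at this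
    refine Eq.trans ?_ this
    apply Finset.sum_congr rfl
    intro w _
    ring
  have hx' : (L * (B.map (Polynomial.eval t))).mulVec x = 0 := by
    rw [← Matrix.mulVec_mulVec, hx, Matrix.mulVec_zero]
  have hx0 : x = 0 := Matrix.eq_zero_of_mulVec_eq_zero hdett hx'
  intro w hw
  have := congrFun hx0 ⟨w, hw⟩
  simpa [x] using this

end Vale.Agent.Lib.P279
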