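import Vale.Agent.Lib.P279.RankLem

open MvPolynomial Module

namespace Vale.Agent.Lib.P279

variable {r : ℕ}

/-- Row indices: a point and a derivative of order below the prescribed multiplicity there. -/
abbrev Row (x : Fin r → ℕ) : Type := Σ i : Fin r, Tests (x i)

/-- The numerical matrix of the conditions. -/
noncomputable def matV (b : ℕ) (x : Fin r → ℕ) (v : Fin r → Fin 3 → ℂ) :
    Matrix (Row x) (TT (b + 1)) ℂ :=
  Matrix.of fun q w => ent b (q.2.1.1 : ℕ) (q.2.1.2 : ℕ) w.1 (v q.1)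

/-- The same matrix with polynomial entries in the coordinates of the points. -/
noncomputable def matP (b : ℕ) (x : Fin r → ℕ) :
    Matrix (Row x) (TT (b + 1)) (MvPolynomial (Fin r × Fin 3) ℂ) :=
  Matrix.of fun q w => entP b (q.2.1.1 : ℕ) (q.2.1.2 : ℕ) w.1 q.1

/-- Evaluation point. -/
abbrev evv (v : Fin r → Fin 3 → ℂ) : Fin r × Fin 3 → ℂ := fun q => v q.1 q.2

lemma matP_map (b : ℕ) (x : Fin r → ℕ) (v : Fin r → Fin 3 → ℂ) :
    (matP b x).map (eval (evv v)) = matV b x v := by
  ext q w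
  simp only [Matrix.map_apply, matP, matV, Matrix.of_apply]
  exact eval_entP _ _ _ _ _ _

/-- A minor of the matrix of conditions. -/
noncomputable def minorP (b : ℕ) (x : Fin r → ℕ) (n : ℕ) (φ : Fin n → Row x) (ψ : Fin n → TT (b + 1)) :
    MvPolynomial (Fin r × Fin 3) ℂ :=
  ((matP b x).submatrix φ ψ).det

lemma eval_minorP (b : ℕ) (x : Fin r → ℕ) (n : ℕ) (φ : Fin n → Row x) (ψ : Fin n → TT (b + 1))
    (v : Fin r → Fin 3 → ℂ) :
    eval (evv v) (minorP b x n φ ψ) = ((matV b x v).submatrix φ ψ).det := by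
  have := RingHom.map_det (eval (evv v)) ((matP b x).submatrix φ ψ)
  rw [minorP, this, ← matP_map]
  congr 1

lemma minorP_multiHomogeneous (b : ℕ) (x : Fin r → ℕ) (n : ℕ) (φ : Fin n → Row x)
    (ψ : Fin n → TT (b + 1)) : IsMultiHomogeneous (minorP b x n φ ψ) := by
  classical
  let e : Row x → ℕ := fun q => b - (q.2.1.1 : ℕ) - (q.2.1.2 : ℕ)
  refine ⟨fun i => ∑ l : Fin n, if (φ l).1 = i then e (φ l) else 0, ?_⟩
  intro lam v
  let v' : Fin r → Fin 3 → ℂ := fun i j => lam i * v i j
  have h1 : eval (fun q : Fin r × Fin 3 => lam q.1 * v q.1 q.2) (minorP b x n φ ψ)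
      = eval (evv v') (minorP b x n φ ψ) := rfl
  have h2 : eval (fun q : Fin r × Fin 3 => v q.1 q.2) (minorP b x n φ ψ)
      = eval (evv v) (minorP b x n φ ψ) := rfl
  rw [h1, h2, eval_minorP, eval_minorP]
  have hscale : ((matV b x v').submatrix φ ψ) =
      Matrix.of fun l l' => (lam (φ l).1 ^ e (φ l)) * ((matV b x v).submatrix φ ψ) l l' := by
    ext l l'
    simp only [Matrix.submatrix_apply, matV, Matrix.of_apply]
    exact ent_scale b _ _ (ψ l').1 (ψ l').2 _ _
  rw [hscale, Matrix.det_mul_column]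
  congr 1
  simp_rw [← Finset.prod_pow_eq_pow_sum]
  rw [Finset.prod_comm]
  apply Finset.prod_congr rfl
  intro l _
  rw [Finset.prod_eq_single (φ l).1]
  · simp
  · intro c _ hc
    have : (φ l).1 ≠ c := fun h => hc h.symm
    simp [this]
  · simp

/-- All nonzero minors of all the matrices of conditions. -/
def minorSet (r : ℕ) : Set (MvPolynomial (Fin r × Fin 3) ℂ) :=
  {G | G ≠ 0 ∧ ∃ (b : ℕ) (x : Fin r → ℕ) (n : ℕ) (φ : Fin n → Row x) (ψ : Fin n → TT (b + 1)),
    G = minorP b x n φ ψ}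

lemma minorSet_countable (r : ℕ) : (minorSet r).Countable := by
  let idx := Σ (b : ℕ) (x : Fin r → ℕ) (n : ℕ), (Fin n → Row x) × (Fin n → TT (b + 1))
  let f : idx → MvPolynomial (Fin r × Fin 3) ℂ := fun a => minorP a.1 a.2.1 a.2.2.1 a.2.2.2.1 a.2.2.2.2
  apply (Set.countable_range f).mono
  rintro G ⟨_, b, x, n, φ, ψ, rfl⟩
  exact ⟨⟨b, x, n, φ, ψ⟩, rfl⟩

/-- The tuple is very general with respect to all the matrices of conditions. -/
def Good (v : Fin r → Fin 3 → ℂ) : Prop :=
  ∀ G ∈ minorSet r, eval (evv v) G ≠ 0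

/-- At a very general tuple the matrices of conditions have maximal rank. -/
lemma rank_le_of_good {v : Fin r → Fin 3 → ℂ} (hv : Good v) (b : ℕ) (x : Fin r → ℕ)
    (w : Fin r → Fin 3 → ℂ) : (matV b x w).rank ≤ (matV b x v).rank := by
  obtain ⟨φ, ψ, h⟩ := exists_minor_of_rank (matV b x w)
  have hne : minorP b x _ φ ψ ≠ 0 := by
    intro h0
    apply h
    rw [← eval_minorP, h0, map_zero]
  have hv' := hv _ ⟨hne, b, x, _, φ, ψ, rfl⟩
  rw [eval_minorP] at hv'
  exact le_rank_of_minor _ φ ψ hv'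

/-- The product of the matrix with the coefficient vector computes the derivatives. -/
lemma matV_mulVec_coeffs {b : ℕ} {F : A3} (hF : F.IsHomogeneous b) (x : Fin r → ℕ)
    (v : Fin r → Fin 3 → ℂ) (q : Row x) :
    (matV b x v).mulVec (coeffsOf b F) q =
      eval (v q.1) (mixedDeriv (q.2.1.1 : ℕ) (q.2.1.2 : ℕ) 0 F) := by
  rw [eval_deriv_eq hF, ← Finset.sum_coe_sort]
  simp only [Matrix.mulVec, dotProduct, matV, Matrix.of_apply]
  apply Finset.sum_congr rfl
  intro w _
  rw [mul_comm]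
  rfl

lemma mulVec_eq_zero_iff {b : ℕ} {F : A3} (hF : F.IsHomogeneous b) (x : Fin r → ℕ)
    (v : Fin r → Fin 3 → ℂ) :
    (matV b x v).mulVec (coeffsOf b F) = 0 ↔ ∀ i, OrdGe (psi (v i) F) (x i) := by
  constructor
  · intro h i
    rw [ordGe_psi_iff]
    intro s t hst
    have := congrFun h ⟨i, ⟨(⟨s, by omega⟩, ⟨t, by omega⟩), hst⟩⟩
    rw [matV_mulVec_coeffs hF] at this
    exact this
  · intro h
    funext q
    rw [matV_mulVec_coeffs hF]
    exact ordGe_psi_iff.mp (h q.1) _ _ q.2.2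

section Move

open scoped Polynomial

/-- Moved point. -/
noncomputable def moveP (p : Fin 3 → ℂ) (d : Bool) (τ : ℂ) : Fin 3 → ℂ :=
  if d then ![p 0, p 1 + τ, p 2] else ![p 0 + τ, p 1, p 2]

lemma moveP_zero (p : Fin 3 → ℂ) (d : Bool) : moveP p d 0 = p := by
  funext i
  cases d <;> fin_cases i <;> simp [moveP]

/-- The matrix entry as a polynomial in the parameter of the motion. -/
noncomputable def entMove (b s t : ℕ) (w : ℕ × ℕ) (p : Fin 3 → ℂ) (d : Bool) : ℂ[X] :=
  if d then Polynomial.C (tst s t w * (p 0 ^ (w.1 - s) * p 2 ^ (b - w.1 - w.2))) *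
      (Polynomial.X + Polynomial.C (p 1)) ^ (w.2 - t)
  else Polynomial.C (tst s t w * (p 1 ^ (w.2 - t) * p 2 ^ (b - w.1 - w.2))) *
      (Polynomial.X + Polynomial.C (p 0)) ^ (w.1 - s)

lemma eval_entMove (b s t : ℕ) (w : ℕ × ℕ) (p : Fin 3 → ℂ) (d : Bool) (τ : ℂ) :
    (entMove b s t w p d).eval τ = ent b s t w (moveP p d τ) := by
  cases d
  · simp [entMove, moveP, ent, add_comm]
    ring
  · simp [entMove, moveP, ent, add_comm]
    ring

lemma coeff_entMove (b s t : ℕ) (w : ℕ × ℕ) (p : Fin 3 → ℂ) (d : Bool) :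
    (entMove b s t w p d).coeff 1 =
      ent b (if d then s else s + 1) (if d then t + 1 else t) w p := by
  cases d
  · simp only [entMove, if_false, Bool.false_eq_true, Polynomial.coeff_C_mul, Polynomial.coeff_X_add_C_pow, ent, tst,
      Nat.choose_one_right]
    rw [Nat.descFactorial_succ]
    rw [show w.1 - s - 1 = w.1 - (s + 1) by omega]
    push_cast
    ring
  · simp only [entMove, if_true, Polynomial.coeff_C_mul, Polynomial.coeff_X_add_C_pow, ent, tst, Nat.choose_one_right]
    rw [Nat.descFactorial_succ]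
    rw [show w.2 - t - 1 = w.2 - (t + 1) by omega]
    push_cast
    ring

/-- The polynomial family of matrices obtained by moving the point `j`. -/
noncomputable def matMove (b : ℕ) (x : Fin r → ℕ) (v : Fin r → Fin 3 → ℂ) (j : Fin r) (d : Bool) :
    Matrix (Row x) (TT (b + 1)) ℂ[X] :=
  Matrix.of fun q w =>
    if q.1 = j then entMove b (q.2.1.1 : ℕ) (q.2.1.2 : ℕ) w.1 (v j) d
    else Polynomial.C (ent b (q.2.1.1 : ℕ) (q.2.1.2 : ℕ) w.1 (v q.1))

lemma matMove_eval (b : ℕ) (x : Fin r → ℕ) (v : Fin r → Fin 3 → ℂ) (j : Fin r) (d : Bool) (τ : ℂ) :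
    (matMove b x v j d).map (Polynomial.eval τ) =
      matV b x (Function.update v j (moveP (v j) d τ)) := by
  ext q w
  simp only [Matrix.map_apply, matMove, matV, Matrix.of_apply]
  by_cases h : q.1 = j
  · have h2 : Function.update v j (moveP (v j) d τ) q.1 = moveP (v j) d τ := by
      rw [h, Function.update_self]
    rw [if_pos h, eval_entMove, h2]
  · rw [if_neg h, Polynomial.eval_C, Function.update_of_ne h]

lemma matMove_eval_zero (b : ℕ) (x : Fin r → ℕ) (v : Fin r → Fin 3 → ℂ) (j : Fin r) (d : Bool) :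
    (matMove b x v j d).map (Polynomial.eval 0) = matV b x v := by
  rw [matMove_eval, moveP_zero, Function.update_eq_self]

lemma matMove_coeff_mulVec {b : ℕ} {F : A3} (hF : F.IsHomogeneous b) (x : Fin r → ℕ)
    (v : Fin r → Fin 3 → ℂ) (j : Fin r) (d : Bool) (q : Row x) :
    ((matMove b x v j d).map (fun P => P.coeff 1)).mulVec (coeffsOf b F) q =
      if q.1 = j then
        eval (v j) (mixedDeriv (if d then (q.2.1.1 : ℕ) else (q.2.1.1 : ℕ) + 1)
          (if d then (q.2.1.2 : ℕ) + 1 else (q.2.1.2 : ℕ)) 0 F)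
      else 0 := by
  by_cases h : q.1 = j
  · rw [if_pos h, eval_deriv_eq hF, ← Finset.sum_coe_sort]
    simp only [Matrix.mulVec, dotProduct, matMove, Matrix.of_apply, Matrix.map_apply, if_pos h,
      coeff_entMove]
    apply Finset.sum_congr rfl
    intro w _
    rw [mul_comm]
    rfl
  · rw [if_neg h]
    simp only [Matrix.mulVec, dotProduct, matMove, Matrix.of_apply, Matrix.map_apply, if_neg h,
      Polynomial.coeff_C]
    simp

/-- First order deformation of a form with multiplicities at a very general tuple. -/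
lemma deform {v : Fin r → Fin 3 → ℂ} (hv : Good v) {b : ℕ} {F : A3} (hF : F.IsHomogeneous b)
    {x : Fin r → ℕ} (hord : ∀ i, OrdGe (psi (v i) F) (x i)) (j : Fin r) (d : Bool) :
    ∃ G : A3, G.IsHomogeneous b ∧ (∀ i, i ≠ j → OrdGe (psi (v i) G) (x i)) ∧
      ∀ s t, s + t < x j → eval (v j) (mixedDeriv s t 0 G) +
        eval (v j) (mixedDeriv (if d then s else s + 1) (if d then t + 1 else t) 0 F) = 0 := by
  have hrank : ∀ t : ℂ, ((matMove b x v j d).map (Polynomial.eval t)).rank ≤
      ((matMove b x v j d).map (Polynomial.eval 0)).rank := by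
    intro t
    rw [matMove_eval_zero, matMove_eval]
    exact rank_le_of_good hv b x _
  have hker : ((matMove b x v j d).map (Polynomial.eval 0)).mulVec (coeffsOf b F) = 0 := by
    rw [matMove_eval_zero]
    exact (mulVec_eq_zero_iff hF x v).mpr hord
  obtain ⟨c', hc'⟩ := first_order _ hrank _ hker
  rw [matMove_eval_zero] at hc'
  set G := formOf b c' with hG
  have hGhom : G.IsHomogeneous b := formOf_isHomogeneous b c'
  have hcoef : coeffsOf b G = c' := coeffsOf_formOf b c'
  refine ⟨G, hGhom, ?_, ?_⟩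
  · intro i hi
    rw [ordGe_psi_iff]
    intro s t hst
    have := congrFun hc' ⟨i, ⟨(⟨s, by omega⟩, ⟨t, by omega⟩), hst⟩⟩
    rw [Pi.add_apply, matMove_coeff_mulVec hF, ← hcoef, matV_mulVec_coeffs hGhom] at this
    simpa [hi] using this
  · intro s t hst
    have := congrFun hc' ⟨j, ⟨(⟨s, by omega⟩, ⟨t, by omega⟩), hst⟩⟩
    rw [Pi.add_apply, matMove_coeff_mulVec hF, ← hcoef, matV_mulVec_coeffs hGhom] at this
    simpa using this

end Move

end Vale.Agent.Lib.P279
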