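import Mathlib

open MvPolynomial

namespace Vale.Agent.Lib.P279

/-- The iterated partial derivative `∂x^a ∂y^b ∂z^c F` of a ternary form. -/
noncomputable def mixedDeriv (a b c : ℕ) (F : MvPolynomial (Fin 3) ℂ) : MvPolynomial (Fin 3) ℂ :=
  (pderiv (0 : Fin 3))^[a] ((pderiv (1 : Fin 3))^[b] ((pderiv (2 : Fin 3))^[c] F))

/-- `F` has multiplicity at least `m` at `p`: all partial derivatives of order `< m` vanish there. -/
def HasMultAtLeast (F : MvPolynomial (Fin 3) ℂ) (p : Fin 3 → ℂ) (m : ℕ) : Prop :=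
  ∀ a b c : ℕ, a + b + c < m → eval p (mixedDeriv a b c F) = 0

/-- `G` is multi-homogeneous in the `r` triples of variables: scaling the `i`-th triple by
`lam i` multiplies the value of `G` by `lam i ^ k i`.  The zero set of such a `G` is a well defined
Zariski closed subset of `(ℙ²)^r`. -/
def IsMultiHomogeneous {r : ℕ} (G : MvPolynomial (Fin r × Fin 3) ℂ) : Prop :=
  ∃ k : Fin r → ℕ, ∀ (lam : Fin r → ℂ) (v : Fin r → Fin 3 → ℂ),
    eval (fun q : Fin r × Fin 3 => lam q.1 * v q.1 q.2) G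
      = (∏ i, lam i ^ k i) * eval (fun q : Fin r × Fin 3 => v q.1 q.2) G

/-- `P` holds for very general `r`-tuples of points of `ℙ²` (given by homogeneous coordinates):
it holds at every tuple outside the zero sets of a countable family of nonzero multi-homogeneous
polynomials. -/
def HoldsVeryGenerally (r : ℕ) (P : (Fin r → Fin 3 → ℂ) → Prop) : Prop :=
  ∃ 𝒢 : Set (MvPolynomial (Fin r × Fin 3) ℂ), 𝒢.Countable ∧
    (∀ G ∈ 𝒢, G ≠ 0 ∧ IsMultiHomogeneous G) ∧
    ∀ v : Fin r → Fin 3 → ℂ,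
      (∀ G ∈ 𝒢, eval (fun q : Fin r × Fin 3 => v q.1 q.2) G ≠ 0) → P v

end Vale.Agent.Lib.P279
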