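import Vale.Agent.Lib.P279.Jets

open MvPolynomial Module

namespace Vale.Agent.Lib.P279

abbrev A3 : Type := MvPolynomial (Fin 3) ℂ

lemma degree_fin3 (e : Fin 3 →₀ ℕ) : e.degree = e 0 + e 1 + e 2 := by
  rw [Finsupp.degree_eq_sum]
  simp [Fin.sum_univ_three]

lemma degree_expo {d : ℕ} {w : ℕ × ℕ} (hw : w ∈ triSet 0 (d + 1)) :
    (expo d w.1 w.2).degree = d := by
  rw [mem_TT] at hw
  rw [degree_fin3]
  simp
  omega

lemma expo_inj {d a b a' b' : ℕ} (h : expo d a b = expo d a' b') : a = a' ∧ b = b' := by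
  have h0 := DFunLike.congr_fun h 0
  have h1 := DFunLike.congr_fun h 1
  simpa using And.intro h0 h1

/-- The form with prescribed coefficients. -/
noncomputable def formOf (d : ℕ) : (TT (d + 1) → ℂ) →ₗ[ℂ] A3 where
  toFun c := ∑ w, monomial (expo d w.1.1 w.1.2) (c w)
  map_add' f g := by simp [Finset.sum_add_distrib]
  map_smul' a f := by simp [Finset.smul_sum, smul_monomial]

lemma formOf_apply (d : ℕ) (c : TT (d + 1) → ℂ) :
    formOf d c = ∑ w, monomial (expo d w.1.1 w.1.2) (c w) := rfl

lemma formOf_isHomogeneous (d : ℕ) (c : TT (d + 1) → ℂ) : (formOf d c).IsHomogeneous d := by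
  rw [formOf_apply]
  apply IsHomogeneous.sum
  intro w _
  exact isHomogeneous_monomial _ (degree_expo w.2)

lemma coeff_formOf (d : ℕ) (c : TT (d + 1) → ℂ) (w : TT (d + 1)) :
    coeff (expo d w.1.1 w.1.2) (formOf d c) = c w := by
  classical
  rw [formOf_apply, coeff_sum]
  simp only [coeff_monomial]
  rw [Finset.sum_eq_single w]
  · simp
  · intro w' _ hne
    rw [if_neg]
    intro heq
    obtain ⟨h1, h2⟩ := expo_inj heq
    exact hne (Subtype.ext (Prod.ext h1 h2))
  · simp

/-- The coefficients of a form. -/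
noncomputable def coeffsOf (d : ℕ) : A3 →ₗ[ℂ] (TT (d + 1) → ℂ) where
  toFun F w := coeff (expo d w.1.1 w.1.2) F
  map_add' f g := by funext w; simp
  map_smul' a f := by funext w; simp

lemma coeffsOf_formOf (d : ℕ) (c : TT (d + 1) → ℂ) : coeffsOf d (formOf d c) = c := by
  funext w
  exact coeff_formOf d c w

lemma formOf_coeffsOf {d : ℕ} {F : A3} (hF : F.IsHomogeneous d) : formOf d (coeffsOf d F) = F := by
  have h : (formOf d (coeffsOf d F) - F).IsHomogeneous d :=
    (formOf_isHomogeneous d _).sub hF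
  have h0 := eq_zero_of_coeff h (by
    intro w hw
    rw [coeff_sub]
    have := coeff_formOf d (coeffsOf d F) ⟨w, hw⟩
    simp only at this
    rw [this]
    simp [coeffsOf])
  exact sub_eq_zero.mp h0

/-- Forms of degree `N`. -/
abbrev RR (N : ℕ) : Submodule ℂ A3 := homogeneousSubmodule (Fin 3) ℂ N

/-- Forms of degree `N` are the same as their coefficient vectors. -/
noncomputable def RRequiv (N : ℕ) : (TT (N + 1) → ℂ) ≃ₗ[ℂ] RR N where
  toFun c := ⟨formOf N c, (mem_homogeneousSubmodule _ _).mpr (formOf_isHomogeneous N c)⟩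
  map_add' a b := by ext1; simp
  map_smul' a b := by ext1; simp
  invFun F := coeffsOf N F.1
  left_inv c := coeffsOf_formOf N c
  right_inv F := Subtype.ext (formOf_coeffsOf ((mem_homogeneousSubmodule _ _).mp F.2))

instance finite_RR (N : ℕ) : Module.Finite ℂ (RR N) :=
  Module.Finite.equiv (RRequiv N)

lemma finrank_RR (N : ℕ) : finrank ℂ (RR N) = tri (N + 1) := by
  rw [← (RRequiv N).finrank_eq, finrank_TT]

end Vale.Agent.Lib.P279
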