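import Vale.Agent.Lib.P279.Link

open MvPolynomial

namespace Vale.Agent.Lib.P279

/-- Indices of the derivatives of order `< m`. -/
abbrev Tests (m : ℕ) : Type := {x : Fin m × Fin m // (x.1 : ℕ) + (x.2 : ℕ) < m}

/-- The matrix entry as a polynomial in the coordinates of the `r` points. -/
noncomputable def entP {r : ℕ} (d s t : ℕ) (w : ℕ × ℕ) (i : Fin r) :
    MvPolynomial (Fin r × Fin 3) ℂ :=
  C (tst s t w) * (X (i, 0) ^ (w.1 - s) * X (i, 1) ^ (w.2 - t) * X (i, 2) ^ (d - w.1 - w.2))

lemma eval_entP {r : ℕ} (d s t : ℕ) (w : ℕ × ℕ) (i : Fin r) (v : Fin r → Fin 3 → ℂ) :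
    eval (fun q : Fin r × Fin 3 => v q.1 q.2) (entP d s t w i) = ent d s t w (v i) := by
  simp [entP, ent]

lemma ent_scale (d s t : ℕ) (w : ℕ × ℕ) (hw : w ∈ triSet 0 (d + 1)) (lam : ℂ) (p : Fin 3 → ℂ) :
    ent d s t w (fun j => lam * p j) = lam ^ (d - s - t) * ent d s t w p := by
  rw [mem_triSet] at hw
  by_cases h1 : s ≤ w.1
  · by_cases h2 : t ≤ w.2
    · have hexp : d - s - t = (w.1 - s) + (w.2 - t) + (d - w.1 - w.2) := by omega
      simp only [ent, mul_pow]
      rw [hexp, pow_add, pow_add]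
      ring
    · have : w.2.descFactorial t = 0 := Nat.descFactorial_eq_zero_iff_lt.mpr (by omega)
      simp [ent, tst, this]
  · have : w.1.descFactorial s = 0 := Nat.descFactorial_eq_zero_iff_lt.mpr (by omega)
    simp [ent, tst, this]

/-- Rows of the order `m` conditions turned into the characters used in `EE`. -/
lemma chi_eq_ent (d s t : ℕ) (w : ℕ × ℕ) (hw : w ∈ triSet 0 (d + 1)) (p : ℂ × ℂ) :
    chi p w * tst s t w = p.1 ^ s * p.2 ^ t * ent d s t w ![p.1, p.2, 1] := by
  by_cases h1 : s ≤ w.1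
  · by_cases h2 : t ≤ w.2
    · simp only [ent, chi, Matrix.cons_val_zero, Matrix.cons_val_one, Matrix.cons_val, one_pow,
        mul_one]
      have e1 : p.1 ^ w.1 = p.1 ^ s * p.1 ^ (w.1 - s) := by
        rw [← pow_add]; congr 1; omega
      have e2 : p.2 ^ w.2 = p.2 ^ t * p.2 ^ (w.2 - t) := by
        rw [← pow_add]; congr 1; omega
      rw [e1, e2]
      ring
    · have : w.2.descFactorial t = 0 := Nat.descFactorial_eq_zero_iff_lt.mpr (by omega)
      simp [ent, tst, this]
  · have : w.1.descFactorial s = 0 := Nat.descFactorial_eq_zero_iff_lt.mpr (by omega)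
    simp [ent, tst, this]

/-- A family of `r` points containing the given finite set. -/
lemma exists_enum {r : ℕ} (L : Finset (ℂ × ℂ)) (h : L.card ≤ r) :
    ∃ f : Fin r → ℂ × ℂ, ∀ p ∈ L, ∃ i, f i = p := by
  classical
  refine ⟨fun i => if h' : (i : ℕ) < L.card then (L.equivFin.symm ⟨i, h'⟩ : ℂ × ℂ) else (1, 1), ?_⟩
  intro p hp
  let k := L.equivFin ⟨p, hp⟩
  refine ⟨⟨k, by have := k.2; omega⟩, ?_⟩
  have hk : ((k : ℕ)) < L.card := k.2
  simp only [dif_pos hk]
  have : (⟨(k : ℕ), hk⟩ : Fin L.card) = k := rfl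
  rw [this]
  simp [k]

/-- From one good configuration to a multi-homogeneous polynomial detecting the good tuples. -/
theorem exists_G (r d m : ℕ) (hE : EE m (triSet 0 (d + 1)) r) :
    ∃ G : MvPolynomial (Fin r × Fin 3) ℂ, G ≠ 0 ∧ IsMultiHomogeneous G ∧
      ∀ v : Fin r → Fin 3 → ℂ, eval (fun q : Fin r × Fin 3 => v q.1 q.2) G ≠ 0 →
        ∀ F : MvPolynomial (Fin 3) ℂ, F.IsHomogeneous d →
          (∀ i, HasMultAtLeast F (v i) m) → F = 0 := by
  classical
  obtain ⟨L, hcard, _, hI⟩ := hE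
  obtain ⟨f, hf⟩ := exists_enum (r := r) L hcard
  let T := triSet 0 (d + 1)
  let M : Matrix (Fin r × Tests m) T (MvPolynomial (Fin r × Fin 3) ℂ) :=
    Matrix.of fun i w => entP d (i.2.1.1 : ℕ) (i.2.1.2 : ℕ) w.1 i.1
  let ev : (Fin r → Fin 3 → ℂ) → (Fin r × Fin 3 → ℂ) := fun v q => v q.1 q.2
  let v₀ : Fin r → Fin 3 → ℂ := fun i => ![(f i).1, (f i).2, 1]
  have hmapent : ∀ (v : Fin r → Fin 3 → ℂ) (i : Fin r × Tests m) (w : T),
      (M.map (eval (ev v))) i w = ent d (i.2.1.1 : ℕ) (i.2.1.2 : ℕ) w.1 (v i.1) := by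
    intro v i w
    simp only [Matrix.map_apply, M, Matrix.of_apply, ev]
    exact eval_entP _ _ _ _ _ _
  -- kernel at the special configuration is trivial
  have hker : ∀ x : T → ℂ, (M.map (eval (ev v₀))).mulVec x = 0 → x = 0 := by
    intro x hx
    let c : ℕ × ℕ → ℂ := fun w => if h : w ∈ T then x ⟨w, h⟩ else 0
    have hc := hI c (by
      intro p hp s t hst
      obtain ⟨i, rfl⟩ := hf p hp
      have hs : s < m := by omega
      have ht : t < m := by omega
      have hrow := congrFun hx (i, ⟨(⟨s, hs⟩, ⟨t, ht⟩), hst⟩)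
      simp only [Matrix.mulVec, dotProduct, Pi.zero_apply, hmapent] at hrow
      have hsum : ∑ w ∈ T, c w * (chi (f i) w * tst s t w) =
          (f i).1 ^ s * (f i).2 ^ t * ∑ w : T, ent d s t w.1 (v₀ i) * x w := by
        rw [← Finset.sum_coe_sort T, Finset.mul_sum]
        apply Finset.sum_congr rfl
        intro w _
        have := chi_eq_ent d s t w.1 w.2 (f i)
        simp only [c, dif_pos w.2]
        rw [this]
        simp only [v₀]
        ring
      rw [hsum]
      rw [show (∑ w : T, ent d s t w.1 (v₀ i) * x w) = 0 from hrow, mul_zero])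
    funext w
    have := hc w.1 w.2
    simpa [c] using this
  obtain ⟨φ, hφ⟩ := exists_minor _ hker
  let G : MvPolynomial (Fin r × Fin 3) ℂ := (M.submatrix φ id).det
  have heval : ∀ v : Fin r → Fin 3 → ℂ, eval (ev v) G = ((M.map (eval (ev v))).submatrix φ id).det := by
    intro v
    have := RingHom.map_det (eval (ev v)) (M.submatrix φ id)
    rw [show G = (M.submatrix φ id).det from rfl, this]
    congr 1
  refine ⟨G, ?_, ?_, ?_⟩
  · intro h0
    apply hφ
    rw [← heval v₀, h0, map_zero]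
  · -- multi-homogeneity
    let e : Fin r × Tests m → ℕ := fun i => d - (i.2.1.1 : ℕ) - (i.2.1.2 : ℕ)
    refine ⟨fun i => ∑ w : T, if (φ w).1 = i then e (φ w) else 0, ?_⟩
    intro lam v
    let v' : Fin r → Fin 3 → ℂ := fun i j => lam i * v i j
    have h1 : eval (fun q : Fin r × Fin 3 => lam q.1 * v q.1 q.2) G = eval (ev v') G := rfl
    have h2 : eval (fun q : Fin r × Fin 3 => v q.1 q.2) G = eval (ev v) G := rfl
    rw [h1, h2, heval v', heval v]
    have hscale : ((M.map (eval (ev v'))).submatrix φ id) =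
        Matrix.of fun w w' => (lam (φ w).1 ^ e (φ w)) *
          ((M.map (eval (ev v))).submatrix φ id) w w' := by
      ext w w'
      simp only [Matrix.submatrix_apply, id, Matrix.of_apply, hmapent]
      exact ent_scale d _ _ w'.1 w'.2 _ _
    rw [hscale, Matrix.det_mul_column]
    congr 1
    simp_rw [← Finset.prod_pow_eq_pow_sum]
    rw [Finset.prod_comm]
    apply Finset.prod_congr rfl
    intro w _
    rw [Finset.prod_eq_single (φ w).1]
    · simp
    · intro b _ hb
      have : (φ w).1 ≠ b := fun h => hb h.symm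
      simp [this]
    · simp
  · intro v hG F hF hmult
    apply eq_zero_of_coeff hF
    have hdet : ((M.map (eval (ev v))).submatrix φ id).det ≠ 0 := by
      rw [← heval v]; exact hG
    let x : T → ℂ := fun w => coeff (expo d w.1.1 w.1.2) F
    have hx : ((M.map (eval (ev v))).submatrix φ id).mulVec x = 0 := by
      funext w
      simp only [Matrix.mulVec, dotProduct, Pi.zero_apply, Matrix.submatrix_apply, id, hmapent]
      have hm := hmult (φ w).1 ((φ w).2.1.1 : ℕ) ((φ w).2.1.2 : ℕ) 0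
        (by have := (φ w).2.2; omega)
      rw [eval_deriv_eq hF, ← Finset.sum_coe_sort] at hm
      refine Eq.trans ?_ hm
      apply Finset.sum_congr rfl
      intro w' _
      ring
    have hx0 : x = 0 := Matrix.eq_zero_of_mulVec_eq_zero hdet hx
    intro w hw
    have := congrFun hx0 ⟨w, hw⟩
    simpa [x] using this

end Vale.Agent.Lib.P279
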