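import Vale.Agent.Lib.P279.Forms

open MvPolynomial Module

namespace Vale.Agent.Lib.P279

/-- The linear form vanishing on the line through `p` and `(0:1:0)`. -/
noncomputable def lineX (p : Fin 3 → ℂ) : A3 := C (p 2) * X 0 - C (p 0) * X 2

/-- The linear form vanishing on the line through `p` and `(1:0:0)`. -/
noncomputable def lineY (p : Fin 3 → ℂ) : A3 := C (p 2) * X 1 - C (p 1) * X 2

lemma lineX_hom (p : Fin 3 → ℂ) : (lineX p).IsHomogeneous 1 :=
  (isHomogeneous_C_mul_X _ _).sub (isHomogeneous_C_mul_X _ _)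

lemma lineY_hom (p : Fin 3 → ℂ) : (lineY p).IsHomogeneous 1 :=
  (isHomogeneous_C_mul_X _ _).sub (isHomogeneous_C_mul_X _ _)

lemma psi_lineX (q p : Fin 3 → ℂ) :
    psi q (lineX p) = C (p 2) * (C (q 0) + X 0) - C (p 0) * C (q 2) := by
  simp [lineX]

lemma psi_lineX_self (p : Fin 3 → ℂ) : psi p (lineX p) = C (p 2) * X 0 := by
  rw [psi_lineX]
  ring

lemma psi_lineY_self (p : Fin 3 → ℂ) : psi p (lineY p) = C (p 2) * X 1 := by
  simp [lineY]
  ring

/-- A form whose Taylor expansion at `p` is a single monomial. -/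
noncomputable def jetForm (p : Fin 3 → ℂ) (D s t : ℕ) : A3 :=
  lineX p ^ s * lineY p ^ t * X 2 ^ (D - s - t)

lemma jetForm_hom (p : Fin 3 → ℂ) {D s t : ℕ} (h : s + t ≤ D) : (jetForm p D s t).IsHomogeneous D := by
  have h1 := (((lineX_hom p).pow s).mul ((lineY_hom p).pow t)).mul
    ((isHomogeneous_X ℂ (2 : Fin 3)).pow (D - s - t))
  have e : 1 * s + 1 * t + 1 * (D - s - t) = D := by omega
  rwa [e] at h1

lemma psi_jetForm (p : Fin 3 → ℂ) {D s t : ℕ} (h : s + t ≤ D) :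
    psi p (jetForm p D s t) = monomial (mon2 s t) (p 2 ^ D) := by
  have e : D = s + t + (D - s - t) := by omega
  rw [jetForm, map_mul (psi p), map_mul (psi p), map_pow (psi p), map_pow (psi p), map_pow (psi p),
    psi_lineX_self, psi_lineY_self, psi_X2]
  rw [monomial_eq (s := mon2 s t), Finsupp.prod_fintype _ _ (by simp)]
  simp only [Fin.prod_univ_two, mon2_zero, mon2_one]
  conv_rhs => rw [e]
  simp only [pow_add, map_mul, map_pow]
  ring

/-- Each jet at a point is attained by a form of degree `D ≥ k-1`. -/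
lemma exists_form_jet {p : Fin 3 → ℂ} (hp : p 2 ≠ 0) {k D : ℕ} (hD : k ≤ D + 1) (φ : TT k → ℂ) :
    ∃ g : A3, g.IsHomogeneous D ∧ tr k (psi p g) = φ := by
  have hbd : ∀ w : TT k, w.1.1 + w.1.2 ≤ D := fun w => by
    have := mem_TT.mp w.2
    omega
  refine ⟨∑ w : TT k, C (φ w / p 2 ^ D) * jetForm p D w.1.1 w.1.2, ?_, ?_⟩
  · apply IsHomogeneous.sum
    intro w _
    have := (isHomogeneous_C (Fin 3) (φ w / p 2 ^ D)).mul (jetForm_hom p (hbd w))
    rwa [zero_add] at this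
  · rw [map_sum (psi p)]
    have : ∀ w : TT k, psi p (C (φ w / p 2 ^ D) * jetForm p D w.1.1 w.1.2) =
        monomial (mon2 w.1.1 w.1.2) (φ w) := by
      intro w
      rw [map_mul (psi p), psi_C, psi_jetForm p (hbd w), C_mul_monomial]
      congr 1
      field_simp
    simp_rw [this]
    rw [← polyOf_apply, tr_polyOf]

lemma exactOrd_zero_of_coeff {h : A2} (h0 : coeff 0 h ≠ 0) : ExactOrd h 0 := by
  refine ⟨OrdGe.zero_right h, fun hge => h0 (hge 0 (by simp))⟩

/-- Multiplication by a unit is bijective on jets. -/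
lemma exists_unit_jet {h : A2} (h0 : coeff 0 h ≠ 0) (k : ℕ) (τ : TT k → ℂ) :
    ∃ φ : TT k → ℂ, tr k (h * polyOf k φ) = τ := by
  let M : (TT k → ℂ) →ₗ[ℂ] (TT k → ℂ) := (tr k) ∘ₗ (LinearMap.mulLeft ℂ h) ∘ₗ polyOf k
  have hinj : Function.Injective M := by
    rw [← LinearMap.ker_eq_bot, LinearMap.ker_eq_bot']
    intro φ hφ
    have h1 : OrdGe (h * polyOf k φ) (0 + k) := by
      rw [zero_add]
      exact ordGe_iff_tr.mpr hφ
    have h2 := (exactOrd_zero_of_coeff h0).cancel h1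
    have h3 := ordGe_iff_tr.mp h2
    rwa [tr_polyOf] at h3
  have hsurj : Function.Surjective M := LinearMap.injective_iff_surjective.mp hinj
  obtain ⟨φ, hφ⟩ := hsurj τ
  exact ⟨φ, hφ⟩

section Sep

variable {ι : Type} [Fintype ι] [DecidableEq ι] (p : ι → Fin 3 → ℂ)

/-- The separating form. -/
noncomputable def sepForm (i₀ : ι) (k : ℕ) : A3 :=
  ∏ j ∈ Finset.univ.erase i₀, lineX (p j) ^ k

lemma sepForm_hom (i₀ : ι) (k : ℕ) :
    (sepForm p i₀ k).IsHomogeneous ((Fintype.card ι - 1) * k) := by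
  have h := IsHomogeneous.prod (Finset.univ.erase i₀) (fun j => lineX (p j) ^ k) (fun _ => 1 * k)
    (fun j _ => (lineX_hom (p j)).pow k)
  rw [Finset.sum_const, Finset.card_erase_of_mem (Finset.mem_univ _), Finset.card_univ,
    smul_eq_mul, one_mul] at h
  exact h

lemma sepForm_ordGe (i₀ j : ι) (hj : j ≠ i₀) (k : ℕ) : OrdGe (psi (p j) (sepForm p i₀ k)) k := by
  have hdvd : lineX (p j) ^ k ∣ sepForm p i₀ k :=
    Finset.dvd_prod_of_mem _ (Finset.mem_erase.mpr ⟨hj, Finset.mem_univ _⟩)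
  obtain ⟨u, hu⟩ := hdvd
  rw [hu, map_mul (psi (p j)), map_pow (psi (p j)), psi_lineX_self]
  have h1 : OrdGe (C (p j 2) * X 0 : A2) 1 := by
    apply OrdGe.mul_left
    intro d hd
    have h0 : d = 0 := by
      rw [degree_fin2] at hd
      ext j
      fin_cases j
      · simp only [Fin.zero_eta, Finsupp.coe_zero, Pi.zero_apply]; omega
      · simp only [Fin.mk_one, Finsupp.coe_zero, Pi.zero_apply]; omega
    rw [h0]
    simp
  have h2 := h1.pow k
  rw [one_mul] at h2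
  exact h2.mul_right _

lemma sepForm_coeff (i₀ : ι) (k : ℕ) (hsep : ∀ j, j ≠ i₀ → p i₀ 0 * p j 2 ≠ p j 0 * p i₀ 2) :
    coeff 0 (psi (p i₀) (sepForm p i₀ k)) ≠ 0 := by
  rw [coeff_zero_psi, sepForm, map_prod]
  apply Finset.prod_ne_zero_iff.mpr
  intro j hj
  rw [map_pow]
  apply pow_ne_zero
  have hj' := (Finset.mem_erase.mp hj).1
  simp only [lineX, map_sub, map_mul, eval_C, eval_X]
  intro h
  apply hsep j hj'
  linear_combination h

/-- Interpolation: jets at the finitely many points can be prescribed by forms of large degree. -/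
lemma exists_form_sep {p : ι → Fin 3 → ℂ} (hp : ∀ i, p i 2 ≠ 0)
    (hsep : ∀ i j, i ≠ j → p i 0 * p j 2 ≠ p j 0 * p i 2) {k N : ℕ}
    (hN : Fintype.card ι * k ≤ N + 1) (i₀ : ι) (τ : TT k → ℂ) :
    ∃ P : A3, P.IsHomogeneous N ∧ tr k (psi (p i₀) P) = τ ∧
      ∀ j, j ≠ i₀ → tr k (psi (p j) P) = 0 := by
  have hcard : 1 ≤ Fintype.card ι := Fintype.card_pos_iff.mpr ⟨i₀⟩
  have hmul : (Fintype.card ι - 1) * k + k = Fintype.card ι * k := by
    conv_rhs => rw [show Fintype.card ι = (Fintype.card ι - 1) + 1 by omega]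
    ring
  have hle : (Fintype.card ι - 1) * k ≤ N := by
    rcases Nat.eq_zero_or_pos k with h | h
    · simp [h]
    · omega
  set H := sepForm p i₀ k with hH
  have hco : coeff 0 (psi (p i₀) H) ≠ 0 :=
    sepForm_coeff p i₀ k (fun j hj => hsep i₀ j (Ne.symm hj))
  obtain ⟨φ, hφ⟩ := exists_unit_jet hco k τ
  obtain ⟨g, hg, hgφ⟩ := exists_form_jet (p := p i₀) (hp i₀) (k := k)
    (D := N - (Fintype.card ι - 1) * k) (by omega) φ
  refine ⟨H * g, ?_, ?_, ?_⟩
  · have := (sepForm_hom p i₀ k).mul hg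
    rwa [show (Fintype.card ι - 1) * k + (N - (Fintype.card ι - 1) * k) = N by omega] at this
  · rw [map_mul (psi (p i₀)), ← tr_mul_polyOf (OrdGe.zero_right _) _ (by omega : k ≤ 0 + k), hgφ, hφ]
  · intro j hj
    rw [map_mul (psi (p j))]
    exact ordGe_iff_tr.mp ((sepForm_ordGe p i₀ j hj k).mul_right _)

/-- Surjectivity of the jet map on forms of large degree. -/
lemma exists_form_all {p : ι → Fin 3 → ℂ} (hp : ∀ i, p i 2 ≠ 0)
    (hsep : ∀ i j, i ≠ j → p i 0 * p j 2 ≠ p j 0 * p i 2) {k N : ℕ}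
    (hN : Fintype.card ι * k ≤ N + 1) (τ : ι → TT k → ℂ) :
    ∃ P : A3, P.IsHomogeneous N ∧ ∀ i, tr k (psi (p i) P) = τ i := by
  classical
  choose P hP1 hP2 hP3 using fun i => exists_form_sep hp hsep hN i (τ i)
  refine ⟨∑ i, P i, IsHomogeneous.sum _ _ _ (fun i _ => hP1 i), ?_⟩
  intro i
  rw [map_sum (psi (p i)), map_sum (tr k), Finset.sum_eq_single i]
  · exact hP2 i
  · intro j _ hj
    exact hP3 j i (Ne.symm hj)
  · simp

end Sep

end Vale.Agent.Lib.P279
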