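import Vale.Agent.Lib.P279.Deform

open MvPolynomial Module

namespace Vale.Agent.Lib.P279

variable {r : ℕ}

/-- A form of the same degree divisible by `F` is a multiple of `F`. -/
lemma eq_C_of_dvd {F G : A3} {b : ℕ} (hF : F.IsHomogeneous b) (hF0 : F ≠ 0) (hG : G.IsHomogeneous b)
    (h : F ∣ G) : ∃ c : ℂ, G = C c * F := by
  obtain ⟨u, rfl⟩ := h
  have hu : u.IsHomogeneous 0 := isHomogeneous_of_mul_left hF hF0 (by simpa using hG)
  have hu2 : u.totalDegree = 0 := Nat.le_zero.mp hu.totalDegree_le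
  have hu3 := totalDegree_eq_zero_iff_eq_C.mp hu2
  refine ⟨coeff 0 u, ?_⟩
  rw [← hu3, mul_comm]

/-- Multiples of `F` vanish as much as `F`. -/
lemma ordGe_of_C_mul {p : Fin 3 → ℂ} {F G : A3} {c : ℂ} {m : ℕ} (hG : G = C c * F)
    (hF : OrdGe (psi p F) m) : OrdGe (psi p G) m := by
  rw [hG, map_mul (psi p)]
  exact hF.mul_left _

section Ineq

variable {v : Fin r → Fin 3 → ℂ} {F : A3} {b : ℕ} {x : Fin r → ℕ}

/-- The deformation inequality of Xu for an irreducible form at a very general tuple. -/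
theorem xu_ineq (hv : Good v) (hp : ∀ i, v i 2 ≠ 0)
    (hsep : ∀ i j, i ≠ j → v i 0 * v j 2 ≠ v j 0 * v i 2)
    (hFi : Irreducible F) (hF : F.IsHomogeneous b) (hx : ∀ i, ExactOrd (psi (v i) F) (x i))
    (j : Fin r) (hj : 1 ≤ x j) : ∑ i, x i * x i ≤ b * b + x j := by
  classical
  have hF0 : F ≠ 0 := hFi.ne_zero
  have hord : ∀ i, OrdGe (psi (v i) F) (x i) := fun i => (hx i).1
  obtain ⟨G₀, hG₀, hG₀1, hG₀2⟩ := deform hv hF hord j false
  obtain ⟨G₁, hG₁, hG₁1, hG₁2⟩ := deform hv hF hord j true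
  simp only [Bool.false_eq_true, if_false, if_true] at hG₀2 hG₁2
  have hFj := ordGe_psi_iff.mp (hord j)
  have hlow₀ : OrdGe (psi (v j) G₀) (x j - 1) := by
    rw [ordGe_psi_iff]
    intro s t hst
    have h1 := hG₀2 s t (by omega)
    rw [hFj (s + 1) t (by omega), add_zero] at h1
    exact h1
  have hlow₁ : OrdGe (psi (v j) G₁) (x j - 1) := by
    rw [ordGe_psi_iff]
    intro s t hst
    have h1 := hG₁2 s t (by omega)
    rw [hFj s (t + 1) (by omega), add_zero] at h1
    exact h1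
  have hnot : ¬ (F ∣ G₀ ∧ F ∣ G₁) := by
    rintro ⟨h0, h1⟩
    obtain ⟨c₀, hc₀⟩ := eq_C_of_dvd hF hF0 hG₀ h0
    obtain ⟨c₁, hc₁⟩ := eq_C_of_dvd hF hF0 hG₁ h1
    have h0' := ordGe_psi_iff.mp (ordGe_of_C_mul hc₀ (hord j))
    have h1' := ordGe_psi_iff.mp (ordGe_of_C_mul hc₁ (hord j))
    apply (hx j).2
    rw [ordGe_psi_iff]
    intro s t hst
    rcases Nat.eq_zero_or_pos s with hs | hs
    · rcases Nat.eq_zero_or_pos t with ht | ht
      · subst hs ht
        exact hFj 0 0 (by omega)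
      · obtain ⟨t', rfl⟩ : ∃ t', t = t' + 1 := ⟨t - 1, by omega⟩
        have h2 := hG₁2 s t' (by omega)
        rw [h1' s t' (by omega), zero_add] at h2
        exact h2
    · obtain ⟨s', rfl⟩ : ∃ s', s = s' + 1 := ⟨s - 1, by omega⟩
      have h2 := hG₀2 s' t (by omega)
      rw [h0' s' t (by omega), zero_add] at h2
      exact h2
  obtain ⟨G, hG, hFG, hG1, hGlow⟩ : ∃ G : A3, G.IsHomogeneous b ∧ ¬ F ∣ G ∧
      (∀ i, i ≠ j → OrdGe (psi (v i) G) (x i)) ∧ OrdGe (psi (v j) G) (x j - 1) := by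
    by_cases h : F ∣ G₀
    · have h' : ¬ F ∣ G₁ := fun h2 => hnot ⟨h, h2⟩
      exact ⟨G₁, hG₁, h', hG₁1, hlow₁⟩
    · exact ⟨G₀, hG₀, h, hG₀1, hlow₀⟩
  let n : Fin r → ℕ := fun i => if i = j then x j - 1 else x i
  have hn : ∀ i, OrdGe (psi (v i) G) (n i) := by
    intro i
    by_cases hi : i = j
    · simp only [n, hi, if_true]
      exact hGlow
    · simp only [n, hi, if_false]
      exact hG1 i hi
  have hB := bezout hFi hF hG hFG v hp hsep x n hx hn
  have hsum : ∑ i, x i * x i = ∑ i, x i * n i + x j := by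
    have h1 : ∀ i, x i * x i = x i * n i + if i = j then x j else 0 := by
      intro i
      by_cases hi : i = j
      · subst hi
        simp only [n, if_true]
        obtain ⟨y, hy⟩ : ∃ y, x i = y + 1 := ⟨x i - 1, by omega⟩
        rw [hy]
        simp
        ring
      · simp [n, hi]
    rw [Finset.sum_congr rfl (fun i _ => h1 i), Finset.sum_add_distrib]
    simp
  omega

/-- The swap inequality: exchanging two multiplicities produces another curve. -/
theorem swap_ineq (hv : Good v) (hp : ∀ i, v i 2 ≠ 0)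
    (hsep : ∀ i j, i ≠ j → v i 0 * v j 2 ≠ v j 0 * v i 2)
    (hFi : Irreducible F) (hF : F.IsHomogeneous b) (hx : ∀ i, ExactOrd (psi (v i) F) (x i))
    {a c : Fin r} (hac : x a < x c) : ∑ i, x i * x i ≤ b * b + (x c - x a) ^ 2 := by
  classical
  have hF0 : F ≠ 0 := hFi.ne_zero
  have hne : a ≠ c := by
    rintro rfl
    exact lt_irrefl _ hac
  let σ : Equiv.Perm (Fin r) := Equiv.swap a c
  have hσσ : ∀ i, σ (σ i) = i := fun i => Equiv.swap_apply_self a c i
  have hcoef0 : coeffsOf b F ≠ 0 := by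
    intro h0
    apply hF0
    rw [← formOf_coeffsOf hF, h0, map_zero]
  have hker : (matV b x v).mulVec (coeffsOf b F) = 0 :=
    (mulVec_eq_zero_iff hF x v).mpr (fun i => (hx i).1)
  have hlt := rank_lt_of_ker hcoef0 hker
  have hle := rank_le_of_good hv b x (fun i => v (σ i))
  obtain ⟨c₀, hc₀, hc₀'⟩ := exists_ker_of_rank_lt (lt_of_le_of_lt hle hlt)
  set G := formOf b c₀ with hGdef
  have hG : G.IsHomogeneous b := formOf_isHomogeneous b c₀
  have hcoef : coeffsOf b G = c₀ := coeffsOf_formOf b c₀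
  have hG0 : G ≠ 0 := by
    intro h0
    apply hc₀
    rw [← hcoef, h0, map_zero]
  have hGord : ∀ i, OrdGe (psi (v i) G) (x (σ i)) := by
    have h1 := (mulVec_eq_zero_iff hG x (fun i => v (σ i))).mp (by rw [hcoef]; exact hc₀')
    intro i
    have h2 := h1 (σ i)
    simp only [hσσ] at h2
    exact h2
  have hFG : ¬ F ∣ G := by
    intro hdvd
    obtain ⟨c₁, hc₁⟩ := eq_C_of_dvd hF hF0 hG hdvd
    have hc₁0 : c₁ ≠ 0 := by
      rintro rfl
      apply hG0
      rw [hc₁]
      simp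
    have h1 := hGord a
    have hσa : σ a = c := Equiv.swap_apply_left a c
    rw [hσa, hc₁, map_mul (psi (v a)), psi_C] at h1
    apply (hx a).2
    have h2 : OrdGe (C c₁⁻¹ * (C c₁ * psi (v a) F)) (x c) := h1.mul_left _
    rw [← mul_assoc, ← C_mul, inv_mul_cancel₀ hc₁0, C_1, one_mul] at h2
    exact h2.mono (by omega)
  have hB := bezout hFi hF hG hFG v hp hsep x (fun i => x (σ i)) hx hGord
  have hsumZ : ∑ i, (((x i : ℤ) * x i) - (x i : ℤ) * x (σ i)) = ((x c : ℤ) - x a) ^ 2 := by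
    rw [Finset.sum_eq_add a c hne]
    · have hσa : σ a = c := Equiv.swap_apply_left a c
      have hσc : σ c = a := Equiv.swap_apply_right a c
      rw [hσa, hσc]
      ring
    · intro i _ hi
      have hσi : σ i = i := Equiv.swap_apply_of_ne_of_ne hi.1 hi.2
      rw [hσi]
      ring
    · simp
    · simp
  have hcast : ((x c - x a : ℕ) : ℤ) = (x c : ℤ) - x a := by
    rw [Nat.cast_sub hac.le]
  have hfinal : (∑ i, ((x i * x i : ℕ) : ℤ)) ≤ ((b * b + (x c - x a) ^ 2 : ℕ) : ℤ) := by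
    have hB' : (∑ i, ((x i * x (σ i) : ℕ) : ℤ)) ≤ ((b * b : ℕ) : ℤ) := by exact_mod_cast hB
    rw [Finset.sum_sub_distrib] at hsumZ
    push_cast at hB' ⊢
    rw [hcast]
    linarith
  have : ((∑ i, x i * x i : ℕ) : ℤ) ≤ ((b * b + (x c - x a) ^ 2 : ℕ) : ℤ) := by
    rw [Nat.cast_sum]
    exact hfinal
  exact_mod_cast this

end Ineq

end Vale.Agent.Lib.P279
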