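import Vale.Agent.Lib.P279.Tay

open MvPolynomial Module

namespace Vale.Agent.Lib.P279

/-- Lattice points `(s,t)` with `s+t<k`. -/
abbrev TT (k : ℕ) : Type := {w : ℕ × ℕ // w ∈ triSet 0 k}

lemma mem_TT {k : ℕ} {w : ℕ × ℕ} : w ∈ triSet 0 k ↔ w.1 + w.2 < k := by
  rw [mem_triSet]
  simp

/-- Number of lattice points with `s+t<k`. -/
def tri (k : ℕ) : ℕ := (triSet 0 k).card

lemma two_tri (k : ℕ) : 2 * tri k = k * (k + 1) := by
  induction k with
  | zero =>
    have : triSet 0 0 = ∅ := by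
      ext w
      simp [mem_TT]
    simp [tri, this]
  | succ k ih =>
    have hsplit : triSet 0 (k + 1) = triSet 0 k ∪ Finset.HasAntidiagonal.antidiagonal k := by
      ext w
      simp only [Finset.mem_union, Finset.HasAntidiagonal.mem_antidiagonal, mem_TT]
      omega
    have hdisj : Disjoint (triSet 0 k) (Finset.HasAntidiagonal.antidiagonal k) := by
      rw [Finset.disjoint_left]
      intro w hw hw'
      rw [mem_TT] at hw
      rw [Finset.HasAntidiagonal.mem_antidiagonal] at hw'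
      omega
    have hcard : tri (k + 1) = tri k + (k + 1) := by
      simp only [tri]
      rw [hsplit, Finset.card_union_of_disjoint hdisj, Finset.Nat.card_antidiagonal]
    rw [hcard, mul_add, ih]
    ring

lemma finrank_TT (k : ℕ) : finrank ℂ (TT k → ℂ) = tri k := by
  rw [Module.finrank_fintype_fun_eq_card, Fintype.card_coe]
  rfl

abbrev A2 : Type := MvPolynomial (Fin 2) ℂ

/-- Truncation to the coefficients of degree `< k`. -/
noncomputable def tr (k : ℕ) : A2 →ₗ[ℂ] (TT k → ℂ) where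
  toFun f w := coeff (mon2 w.1.1 w.1.2) f
  map_add' f g := by funext w; simp
  map_smul' c f := by funext w; simp

@[simp] lemma tr_apply (k : ℕ) (f : A2) (w : TT k) : tr k f w = coeff (mon2 w.1.1 w.1.2) f := rfl

/-- The polynomial with prescribed coefficients of degree `< k`. -/
noncomputable def polyOf (k : ℕ) : (TT k → ℂ) →ₗ[ℂ] A2 where
  toFun φ := ∑ w, monomial (mon2 w.1.1 w.1.2) (φ w)
  map_add' f g := by simp [Finset.sum_add_distrib]
  map_smul' c f := by simp [Finset.smul_sum, smul_monomial]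

lemma mon2_inj {s t s' t' : ℕ} (h : mon2 s t = mon2 s' t') : s = s' ∧ t = t' := by
  have h0 := DFunLike.congr_fun h 0
  have h1 := DFunLike.congr_fun h 1
  simpa using And.intro h0 h1

lemma polyOf_apply (k : ℕ) (φ : TT k → ℂ) :
    polyOf k φ = ∑ w, monomial (mon2 w.1.1 w.1.2) (φ w) := rfl

lemma tr_polyOf (k : ℕ) (φ : TT k → ℂ) : tr k (polyOf k φ) = φ := by
  classical
  funext w
  rw [polyOf_apply, tr_apply, coeff_sum]
  simp only [coeff_monomial]
  rw [Finset.sum_eq_single w]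
  · simp
  · intro w' _ hne
    rw [if_neg]
    intro heq
    obtain ⟨h1, h2⟩ := mon2_inj heq
    exact hne (Subtype.ext (Prod.ext h1 h2))
  · simp

lemma ordGe_iff_tr {f : A2} {k : ℕ} : OrdGe f k ↔ tr k f = 0 := by
  rw [ordGe_iff_mon2]
  constructor
  · intro h
    funext w
    exact h _ _ (mem_TT.mp w.2)
  · intro h s t hst
    have := congrFun h ⟨(s, t), mem_TT.mpr hst⟩
    simpa using this

lemma ordGe_sub_polyOf (k : ℕ) (f : A2) : OrdGe (f - polyOf k (tr k f)) k := by
  rw [ordGe_iff_tr, map_sub, tr_polyOf, sub_self]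

/-- Truncated products depend only on the truncation of the factor. -/
lemma tr_mul_polyOf {h : A2} {a k : ℕ} (hh : OrdGe h a) (U : A2) {k' : ℕ} (hk : k ≤ a + k') :
    tr k (h * polyOf k' (tr k' U)) = tr k (h * U) := by
  have h1 : OrdGe (h * (U - polyOf k' (tr k' U))) (a + k') := hh.mul (ordGe_sub_polyOf k' U)
  have h2 := ordGe_iff_tr.mp (h1.mono hk)
  rw [mul_sub, map_sub, sub_eq_zero] at h2
  exact h2.symm

section Local

variable (f g : A2) (k₁ k₂ k : ℕ)

/-- The truncated multiplication map `(u,v) ↦ f u + g v`. -/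
noncomputable def PsiL : ((TT k₁ → ℂ) × (TT k₂ → ℂ)) →ₗ[ℂ] (TT k → ℂ) :=
  (tr k) ∘ₗ (LinearMap.coprod ((LinearMap.mulLeft ℂ f) ∘ₗ polyOf k₁) ((LinearMap.mulLeft ℂ g) ∘ₗ polyOf k₂))

lemma PsiL_apply (u : TT k₁ → ℂ) (v : TT k₂ → ℂ) :
    PsiL f g k₁ k₂ k (u, v) = tr k (f * polyOf k₁ u + g * polyOf k₂ v) := by
  simp [PsiL]

/-- The syzygy map `w ↦ (g w, - f w)`. -/
noncomputable def SyzL (e : ℕ) : (TT e → ℂ) →ₗ[ℂ] ((TT k₁ → ℂ) × (TT k₂ → ℂ)) :=
  LinearMap.prod ((tr k₁) ∘ₗ (LinearMap.mulLeft ℂ g) ∘ₗ polyOf e)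
    (-((tr k₂) ∘ₗ (LinearMap.mulLeft ℂ f) ∘ₗ polyOf e))

lemma tri_identity (a n ε : ℕ) : tri (a + n + ε) + tri ε = tri (n + ε) + tri (a + ε) + a * n := by
  have h1 := two_tri (a + n + ε)
  have h2 := two_tri ε
  have h3 := two_tri (n + ε)
  have h4 := two_tri (a + ε)
  nlinarith

/-- The local intersection number is at least the product of the multiplicities. -/
lemma local_count {f g : A2} {a n : ℕ} (ε : ℕ) (hf : ExactOrd f a) (hg : OrdGe g n) :
    finrank ℂ (LinearMap.range (PsiL f g (n + ε) (a + ε) (a + n + ε))) + a * n ≤ tri (a + n + ε) := by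
  classical
  set Ψ := PsiL f g (n + ε) (a + ε) (a + n + ε) with hΨ
  set L := SyzL f g (n + ε) (a + ε) ε with hL
  have hrn := LinearMap.finrank_range_add_finrank_ker Ψ
  rw [Module.finrank_prod, finrank_TT, finrank_TT] at hrn
  have hL0 : LinearMap.range L ≤ LinearMap.ker Ψ := by
    rintro _ ⟨w, rfl⟩
    rw [LinearMap.mem_ker]
    set P := polyOf ε w with hP
    have hLw : L w = (tr (n + ε) (g * P), -(tr (a + ε) (f * P))) := by
      simp [hL, SyzL, hP]
    rw [hLw, hΨ, PsiL_apply, map_neg, mul_neg, map_add, map_neg]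
    rw [tr_mul_polyOf hf.1 (g * P) (by omega), tr_mul_polyOf hg (f * P) (by omega)]
    rw [← mul_assoc, ← mul_assoc, mul_comm f g, add_neg_cancel]
  have hLinj : Function.Injective L := by
    rw [← LinearMap.ker_eq_bot, LinearMap.ker_eq_bot']
    intro w hw
    have h2 : tr (a + ε) (f * polyOf ε w) = 0 := by
      have := congrArg Prod.snd hw
      simpa [hL, SyzL] using this
    have h3 : OrdGe (f * polyOf ε w) (a + ε) := ordGe_iff_tr.mpr h2
    have h4 : OrdGe (polyOf ε w) ε := hf.cancel h3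
    have h5 := ordGe_iff_tr.mp h4
    rwa [tr_polyOf] at h5
  have h1 : tri ε ≤ finrank ℂ (LinearMap.ker Ψ) := by
    have h2 := Submodule.finrank_mono hL0
    rw [LinearMap.finrank_range_of_inj hLinj, finrank_TT] at h2
    exact h2
  have hid := tri_identity a n ε
  omega

lemma mem_range_PsiL {f g : A2} {a n : ℕ} (ε : ℕ) (hf : OrdGe f a) (hg : OrdGe g n) (U V : A2) :
    tr (a + n + ε) (f * U + g * V) ∈ LinearMap.range (PsiL f g (n + ε) (a + ε) (a + n + ε)) := by
  refine ⟨(tr (n + ε) U, tr (a + ε) V), ?_⟩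
  rw [PsiL_apply, map_add, map_add, tr_mul_polyOf hf U (by omega), tr_mul_polyOf hg V (by omega)]

end Local

end Vale.Agent.Lib.P279
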