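import Vale.Agent.Lib.P279.Strip
import Vale.Agent.Lib.P279.Defs

open MvPolynomial

namespace Vale.Agent.Lib.P279

lemma iter_pderiv_monomial (i : Fin 3) (n : ℕ) (e : Fin 3 →₀ ℕ) (r : ℂ) :
    (pderiv i)^[n] (monomial e r) =
      monomial (e - Finsupp.single i n) (r * ((e i).descFactorial n : ℂ)) := by
  induction n generalizing e r with
  | zero => simp
  | succ n ih =>
    rw [Function.iterate_succ_apply, pderiv_monomial, ih]
    have hexp : (e - Finsupp.single i 1) - Finsupp.single i n = e - Finsupp.single i (n + 1) := by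
      ext j
      by_cases hj : i = j
      · subst hj
        simp only [Finsupp.coe_tsub, Pi.sub_apply, Finsupp.single_eq_same]
        omega
      · simp [Finsupp.single_eq_of_ne' hj]
    have hval : r * ((e i : ℕ) : ℂ) * (((e - Finsupp.single i 1 : Fin 3 →₀ ℕ) i).descFactorial n : ℂ) =
        r * ((e i).descFactorial (n + 1) : ℂ) := by
      simp only [Finsupp.coe_tsub, Pi.sub_apply, Finsupp.single_eq_same]
      rcases e i with _ | k
      · simp
      · rw [Nat.succ_descFactorial_succ]
        push_cast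
        ring
    rw [hexp, hval]

/-- The exponent vector of the monomial `x^a y^b z^(d-a-b)`. -/
noncomputable def expo (d a b : ℕ) : Fin 3 →₀ ℕ :=
  Finsupp.equivFunOnFinite.symm ![a, b, d - a - b]

@[simp] lemma expo_zero (d a b : ℕ) : expo d a b 0 = a := rfl
@[simp] lemma expo_one (d a b : ℕ) : expo d a b 1 = b := rfl
@[simp] lemma expo_two (d a b : ℕ) : expo d a b 2 = d - a - b := rfl

/-- The value at `p` of `∂x^s ∂y^t` applied to the monomial with exponents `w, d-w.1-w.2`,
normalized coefficient one. -/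
noncomputable def ent (d s t : ℕ) (w : ℕ × ℕ) (p : Fin 3 → ℂ) : ℂ :=
  tst s t w * (p 0 ^ (w.1 - s) * p 1 ^ (w.2 - t) * p 2 ^ (d - w.1 - w.2))

lemma eval_iter_monomial (s t : ℕ) (e : Fin 3 →₀ ℕ) (r : ℂ) (p : Fin 3 → ℂ) :
    eval p ((pderiv (0 : Fin 3))^[s] ((pderiv (1 : Fin 3))^[t] (monomial e r))) =
      r * (((e 0).descFactorial s : ℂ) * ((e 1).descFactorial t : ℂ)) *
        (p 0 ^ (e 0 - s) * p 1 ^ (e 1 - t) * p 2 ^ (e 2)) := by
  rw [iter_pderiv_monomial, iter_pderiv_monomial, eval_monomial, Finsupp.prod_fintype _ _ (by simp)]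
  simp only [Fin.prod_univ_three, Finsupp.coe_tsub, Pi.sub_apply]
  have h01 : (Finsupp.single (1 : Fin 3) t : Fin 3 →₀ ℕ) 0 = 0 := by simp
  have h11 : (Finsupp.single (0 : Fin 3) s : Fin 3 →₀ ℕ) 1 = 0 := by simp
  have h21 : (Finsupp.single (1 : Fin 3) t : Fin 3 →₀ ℕ) 2 = 0 := by simp
  have h22 : (Finsupp.single (0 : Fin 3) s : Fin 3 →₀ ℕ) 2 = 0 := by simp
  simp only [Finsupp.single_eq_same, h01, h11, h21, h22, Nat.sub_zero]
  ring

/-- The iterated derivative as a linear map. -/
noncomputable def iterLin (s t : ℕ) : MvPolynomial (Fin 3) ℂ →ₗ[ℂ] MvPolynomial (Fin 3) ℂ :=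
  ((pderiv (0 : Fin 3)).toLinearMap ^ s) ∘ₗ ((pderiv (1 : Fin 3)).toLinearMap ^ t)

lemma iterLin_apply (s t : ℕ) (F : MvPolynomial (Fin 3) ℂ) :
    iterLin s t F = (pderiv (0 : Fin 3))^[s] ((pderiv (1 : Fin 3))^[t] F) := by
  simp [iterLin, Module.End.pow_apply]

/-- The expansion of a derivative of a form of degree `d` at a point. -/
lemma eval_deriv_eq {d : ℕ} {F : MvPolynomial (Fin 3) ℂ} (hF : F.IsHomogeneous d) (s t : ℕ)
    (p : Fin 3 → ℂ) :
    eval p (mixedDeriv s t 0 F) =
      ∑ w ∈ triSet 0 (d + 1), coeff (expo d w.1 w.2) F * ent d s t w p := by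
  classical
  have hmix : mixedDeriv s t 0 F = iterLin s t F := by
    simp [mixedDeriv, iterLin_apply]
  have hexp : ∀ w ∈ triSet 0 (d + 1), ((expo d w.1 w.2) 0 = w.1 ∧ (expo d w.1 w.2) 1 = w.2 ∧
      (expo d w.1 w.2) 2 = d - w.1 - w.2) := by
    intro w _
    simp
  have hinj : Set.InjOn (fun w : ℕ × ℕ => expo d w.1 w.2) (triSet 0 (d + 1) : Set (ℕ × ℕ)) := by
    intro w _ w' _ h
    have h0 := DFunLike.congr_fun h 0
    have h1 := DFunLike.congr_fun h 1
    simp at h0 h1
    exact Prod.ext h0 h1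
  have hsupp : F.support ⊆ (triSet 0 (d + 1)).image (fun w : ℕ × ℕ => expo d w.1 w.2) := by
    intro e he
    have hdeg := hF (mem_support_iff.mp he)
    have hsum : e 0 + e 1 + e 2 = d := by
      have : (Finsupp.degree e) = e 0 + e 1 + e 2 := by
        rw [Finsupp.degree_eq_sum]
        simp [Fin.sum_univ_three]
      rw [← this, Finsupp.degree_eq_weight_one]
      exact hdeg
    rw [Finset.mem_image]
    refine ⟨(e 0, e 1), ?_, ?_⟩
    · rw [mem_triSet]
      simp
      omega
    · ext j
      fin_cases j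
      · simp
      · simp
      · simp
        omega
  rw [hmix]
  conv_lhs => rw [← F.support_sum_monomial_coeff]
  rw [map_sum, map_sum]
  have hterm : ∀ e : Fin 3 →₀ ℕ, eval p (iterLin s t (monomial e (coeff e F))) =
      coeff e F * (((e 0).descFactorial s : ℂ) * ((e 1).descFactorial t : ℂ)) *
        (p 0 ^ (e 0 - s) * p 1 ^ (e 1 - t) * p 2 ^ (e 2)) := by
    intro e
    rw [iterLin_apply, eval_iter_monomial]
  simp_rw [hterm]
  rw [Finset.sum_subset hsupp (by
    intro e _ he
    have : coeff e F = 0 := by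
      by_contra h
      exact he (mem_support_iff.mpr h)
    simp [this])]
  rw [Finset.sum_image hinj]
  apply Finset.sum_congr rfl
  intro w _
  simp [ent, tst]
  ring

/-- If all coefficients in the triangle vanish then a form of degree `d` vanishes. -/
lemma eq_zero_of_coeff {d : ℕ} {F : MvPolynomial (Fin 3) ℂ} (hF : F.IsHomogeneous d)
    (h : ∀ w ∈ triSet 0 (d + 1), coeff (expo d w.1 w.2) F = 0) : F = 0 := by
  classical
  ext e
  rw [coeff_zero]
  by_contra hne
  have hdeg := hF hne
  have hsum : e 0 + e 1 + e 2 = d := by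
    have : (Finsupp.degree e) = e 0 + e 1 + e 2 := by
      rw [Finsupp.degree_eq_sum]
      simp [Fin.sum_univ_three]
    rw [← this, Finsupp.degree_eq_weight_one]
    exact hdeg
  have hmem : (e 0, e 1) ∈ triSet 0 (d + 1) := by
    rw [mem_triSet]
    simp
    omega
  have := h _ hmem
  have he : expo d (e 0) (e 1) = e := by
    ext j
    fin_cases j
    · simp
    · simp
    · simp
      omega
  simp only [he] at this
  exact hne this

/-- Extraction of a nonzero maximal minor. -/
lemma exists_minor {ι κ : Type} [Fintype ι] [Fintype κ] [DecidableEq κ] (A : Matrix ι κ ℂ)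
    (h : ∀ x, A.mulVec x = 0 → x = 0) : ∃ φ : κ → ι, (A.submatrix φ id).det ≠ 0 := by
  classical
  have hinj : Function.Injective A.mulVecLin := by
    rw [← LinearMap.ker_eq_bot, LinearMap.ker_eq_bot']
    intro x hx
    exact h x hx
  have hrank : A.rank = Fintype.card κ := by
    have := LinearMap.finrank_range_of_inj hinj
    rw [Matrix.rank]
    rw [this]
    simp
  obtain ⟨f, hf, _, hfind⟩ := Submodule.exists_fun_fin_finrank_span_eq ℂ (Set.range A.row)
  have hcard : Module.finrank ℂ (Submodule.span ℂ (Set.range A.row)) = Fintype.card κ := by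
    rw [← Matrix.rank_eq_finrank_span_row, hrank]
  let e : κ ≃ Fin (Module.finrank ℂ (Submodule.span ℂ (Set.range A.row))) :=
    (Fintype.equivFinOfCardEq hcard.symm)
  choose i hi using hf
  refine ⟨fun k => i (e k), ?_⟩
  have hrows : LinearIndependent ℂ (A.submatrix (fun k => i (e k)) id).row := by
    have : (A.submatrix (fun k => i (e k)) id).row = f ∘ e := by
      funext k
      exact hi (e k)
    rw [this]
    exact hfind.comp _ e.injective
  have hunit := Matrix.linearIndependent_rows_iff_isUnit.mp hrows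
  rw [Matrix.isUnit_iff_isUnit_det] at hunit
  exact hunit.ne_zero

end Vale.Agent.Lib.P279
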