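import Vale.Agent.Lib.P279.Orbit

open MvPolynomial

namespace Vale.Agent.Lib.P279

/-- In the non-square case the integer inequality is automatically strict. -/
lemma sq_lt_of_le_of_not_square {r S d : ℕ} (hr : ¬ IsSquare r) (hd : 1 ≤ d)
    (h : S ^ 2 ≤ r * d ^ 2) : S ^ 2 < r * d ^ 2 := by
  refine lt_of_le_of_ne h ?_
  intro heq
  have hdvd : d ^ 2 ∣ S ^ 2 := ⟨r, by rw [heq]; ring⟩
  have hdS : d ∣ S := (Nat.pow_dvd_pow_iff (by norm_num)).mp hdvd
  obtain ⟨k, rfl⟩ := hdS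
  apply hr
  refine ⟨k, ?_⟩
  have hd2 : 0 < d ^ 2 := by positivity
  have h2 : d ^ 2 * (k * k) = d ^ 2 * r := by
    calc d ^ 2 * (k * k) = (d * k) ^ 2 := by ring
      _ = r * d ^ 2 := heq
      _ = d ^ 2 * r := by ring
  exact (Nat.eq_of_mul_eq_mul_left hd2 h2).symm

/-- Passing from the squared inequality to the square root. -/
lemma lt_mul_sqrt_of_sq_lt {S d r : ℝ} (hd : 0 ≤ d) (hr : 0 ≤ r) (h : S ^ 2 < r * d ^ 2) :
    S < d * Real.sqrt r := by
  have h1 : 0 ≤ d * Real.sqrt r := mul_nonneg hd (Real.sqrt_nonneg r)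
  have h2 : (d * Real.sqrt r) ^ 2 = r * d ^ 2 := by
    rw [mul_pow, Real.sq_sqrt hr]
    ring
  rw [← h2] at h
  exact lt_of_pow_lt_pow_left₀ 2 h1 h

/-- Nagata's inequality for all curves of degree at most `r^(3/2) / 200`, and for all
multiplicity vectors with `∑ m i ≤ r^2 / 200`. -/
theorem lowdeg_theorem (r : ℕ) (hsq : ¬ IsSquare r) :
    HoldsVeryGenerally r (fun v =>
      ∀ (d : ℕ) (F : MvPolynomial (Fin 3) ℂ) (m : Fin r → ℕ), 1 ≤ d → F ≠ 0 → F.IsHomogeneous d →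
        (∀ i, HasMultAtLeast F (v i) (m i)) →
        (200 ^ 2 * (d : ℝ) ^ 2 ≤ (r : ℝ) ^ 3 ∨ 200 * (∑ i, (m i : ℝ)) ≤ (r : ℝ) ^ 2) →
          (∑ i, (m i : ℝ)) < (d : ℝ) * Real.sqrt (r : ℝ)) := by
  classical
  refine ⟨minorSet r ∪ extraSet r, (minorSet_countable r).union (extraSet_countable r), ?_, ?_⟩
  · rintro G (hG | hG)
    · obtain ⟨hne, b, x, n, φ, ψ, rfl⟩ := hG
      exact ⟨hne, minorP_multiHomogeneous b x n φ ψ⟩
    · rcases hG with ⟨i, rfl⟩ | ⟨⟨⟨i, j⟩, hij⟩, rfl⟩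
      · exact ⟨X_ne_zero _, X_multiHomogeneous i 2⟩
      · exact ⟨sep_ne_zero hij, sep_multiHomogeneous⟩
  · intro v hv d F m hd hF0 hF hmult hrange
    have hgood : Good v := fun G hG => hv G (Or.inl hG)
    have hp : ∀ i, v i 2 ≠ 0 := by
      intro i
      have := hv (X (i, 2)) (Or.inr (Or.inl ⟨i, rfl⟩))
      simpa using this
    have hsep : ∀ i j, i ≠ j → v i 0 * v j 2 ≠ v j 0 * v i 2 := by
      intro i j hij h
      have := hv (X (i, 0) * X (j, 2) - X (j, 0) * X (i, 2))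
        (Or.inr (Or.inr ⟨⟨(i, j), hij⟩, rfl⟩))
      apply this
      simp [h]
    have hord : ∀ i, OrdGe (psi (v i) F) (m i) := by
      intro i
      rw [ordGe_psi_iff]
      intro s t hst
      exact hmult i s t 0 (by omega)
    have hr1 : 1 ≤ r := by
      rcases Nat.eq_zero_or_pos r with h0 | h0
      · exact absurd ⟨0, by simpa using h0⟩ hsq
      · exact h0
    have hrR : (1 : ℝ) ≤ r := by exact_mod_cast hr1
    have hdR : (1 : ℝ) ≤ d := by exact_mod_cast hd
    set S : ℕ := ∑ i, m i with hS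
    have hSR : (∑ i, (m i : ℝ)) = (S : ℝ) := by
      rw [hS]
      push_cast
      rfl
    have hSZ : (∑ i, (m i : ℤ)) = (S : ℤ) := by
      rw [hS]
      push_cast
      rfl
    rw [hSR] at hrange ⊢
    have hkey : ((S : ℝ)) ^ 2 < (r : ℝ) * (d : ℝ) ^ 2 := by
      by_cases hlow : 200 ^ 2 * (d : ℝ) ^ 2 ≤ (r : ℝ) ^ 3
      · have hZ : 200 ^ 2 * (d : ℤ) ^ 2 ≤ (r : ℤ) ^ 3 := by
          have : ((200 ^ 2 * (d : ℤ) ^ 2 : ℤ) : ℝ) ≤ (((r : ℤ) ^ 3 : ℤ) : ℝ) := by
            push_cast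
            linarith
          exact_mod_cast this
        have hr4 : 4 ≤ r := by
          by_contra hlt
          have hr3 : r ≤ 3 := by omega
          have h3 : (r : ℤ) ≤ 3 := by exact_mod_cast hr3
          have h4 : (r : ℤ) ^ 3 ≤ 27 := by
            have : (r : ℤ) ^ 3 ≤ 3 ^ 3 := pow_le_pow_left₀ (by positivity) h3 3
            linarith
          have h5 : (1 : ℤ) ≤ (d : ℤ) ^ 2 := by
            have : (1 : ℤ) ≤ d := by exact_mod_cast hd
            nlinarith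
          linarith
        have hall := all_nagata hgood hp hsep hr4 F hF0 d m hF hZ hord
        rw [hSZ] at hall
        have hN : S ^ 2 ≤ r * d ^ 2 := by exact_mod_cast hall
        have hlt := sq_lt_of_le_of_not_square hsq hd hN
        exact_mod_cast hlt
      · rw [not_le] at hlow
        have hSle : 200 * (S : ℝ) ≤ (r : ℝ) ^ 2 := by
          rcases hrange with h | h
          · exact absurd h (not_le.mpr hlow)
          · exact h
        have hS0 : (0 : ℝ) ≤ S := by positivity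
        have h1 : (200 * (S : ℝ)) ^ 2 ≤ ((r : ℝ) ^ 2) ^ 2 := pow_le_pow_left₀ (by positivity) hSle 2
        have h2 : (r : ℝ) * (r : ℝ) ^ 3 < (r : ℝ) * (200 ^ 2 * (d : ℝ) ^ 2) :=
          mul_lt_mul_of_pos_left hlow (by linarith)
        nlinarith
    exact lt_mul_sqrt_of_sq_lt (by linarith) (by linarith) hkey

end Vale.Agent.Lib.P279
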