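import Vale.Agent.Lib.P279.Arith
import Vale.Agent.Lib.P279.Generic

open MvPolynomial

namespace Vale.Agent.Lib.P279

lemma bounds_E (m τ k : ℝ) (hm : 10 ≤ m) (hτ : 1 ≤ τ) (h2τ : 2 * τ ≤ k) (hkm : k ≤ 3 * m + 1)
    (h100 : 100 * m ≤ k ^ 2 + 2 * k) (hk : 31 ≤ k) (hτint : τ = 1 ∨ 2 ≤ τ) :
    (2 * m + τ + τ ^ 2 / 4 ≤ k ^ 2 / 9) ∧
    (τ * (4 * (m - 1) - τ) / 4 < k ^ 2 / 16 →
      16 * (2 * m + τ + τ ^ 2 / 4) ^ 2 ≤ 9 * (τ * (4 * (m - 1) - τ) / 4) * k ^ 2) := by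
  have hτ2 : τ ^ 2 ≤ k ^ 2 / 4 := by nlinarith
  constructor
  · nlinarith
  · intro hX
    have hτm : τ ≤ 2 * m - 4 := by linarith
    have hmpos : 0 < m := by linarith
    have hτpos : 0 < τ := by linarith
    -- (a)
    have ha : τ * m ≤ 2 * (τ * (4 * (m - 1) - τ) / 4) := by nlinarith
    -- (b)
    have hb : 2 * m + τ + τ ^ 2 / 4 ≤ m * (4 + τ) / 2 := by nlinarith
    -- (c)
    have hc : 8 * (τ * m) ≤ k ^ 2 := by linarith
    have hE0 : 0 ≤ 2 * m + τ + τ ^ 2 / 4 := by positivity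
    have hd : 16 * (2 * m + τ + τ ^ 2 / 4) ^ 2 ≤ 4 * m ^ 2 * (4 + τ) ^ 2 := by
      have := pow_le_pow_left₀ hE0 hb 2
      nlinarith
    have he : 8 * m * (4 + τ) ^ 2 ≤ 9 * τ * k ^ 2 := by
      rcases hτint with h1 | h2
      · rw [h1]
        nlinarith
      · have h3 : (4 + τ) ^ 2 ≤ 9 * τ ^ 2 := by nlinarith
        have h4 : 8 * m * (4 + τ) ^ 2 ≤ 8 * m * (9 * τ ^ 2) :=
          mul_le_mul_of_nonneg_left h3 (by positivity)
        have h5 : 9 * τ * (8 * (τ * m)) ≤ 9 * τ * k ^ 2 :=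
          mul_le_mul_of_nonneg_left hc (by positivity)
        nlinarith
    have hf : 4 * m ^ 2 * (4 + τ) ^ 2 ≤ 9 * (τ * m / 2) * k ^ 2 := by
      have := mul_le_mul_of_nonneg_left he (show 0 ≤ m / 2 by positivity)
      nlinarith
    have hg : 9 * (τ * m / 2) * k ^ 2 ≤ 9 * (τ * (4 * (m - 1) - τ) / 4) * k ^ 2 := by
      apply mul_le_mul_of_nonneg_right _ (by positivity)
      linarith
    linarith

/-- The combinatorial core: for `100 m ≤ r`, `r` not a square, a chain of strips of at most `r`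
pieces covers a triangle of bottom width `W` with `W² > r m²`. -/
theorem exists_cov {r m : ℕ} (hr : ¬ IsSquare r) (hm : 1 ≤ m) (h100 : 100 * m ≤ r) :
    ∃ W K, Cov m W K ∧ K ≤ r ∧ r * m ^ 2 < W ^ 2 := by
  set k := Nat.sqrt r with hk
  have hk1 : k ^ 2 ≤ r := Nat.sqrt_le' r
  have hk2 : r < (k + 1) ^ 2 := Nat.lt_succ_sqrt' r
  have hk3 : k ^ 2 ≠ r := by
    intro h
    exact hr ⟨k, by rw [← h]; ring⟩
  have hr1 : k ^ 2 + 1 ≤ r := by omega
  have hr2 : r ≤ k ^ 2 + 2 * k := by nlinarith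
  have h100' : 100 * m ≤ k ^ 2 + 2 * k := by omega
  by_cases hS : 3 * m + 2 ≤ k
  · obtain ⟨K, hc, hK⟩ := case_S hS
    refine ⟨(k + 1) * m, K, hc, by omega, ?_⟩
    have : r * m ^ 2 < (k + 1) ^ 2 * m ^ 2 := Nat.mul_lt_mul_of_pos_right hk2 (by positivity)
    calc r * m ^ 2 < (k + 1) ^ 2 * m ^ 2 := this
      _ = ((k + 1) * m) ^ 2 := by ring
  · have hkm : k ≤ 3 * m + 1 := by omega
    have hk10 : 10 ≤ k := by
      by_contra hlt
      have : k + 1 ≤ 10 := by omega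
      have : (k + 1) ^ 2 ≤ 10 ^ 2 := Nat.pow_le_pow_left this 2
      omega
    have hm10 : 10 ≤ m := by
      by_contra hlt
      have hm9 : m ≤ 9 := by omega
      have hk28 : k ≤ 28 := by omega
      have h3 : 100 * (k - 1) ≤ 3 * (k ^ 2 + 2 * k) := by omega
      interval_cases k <;> omega
    have hk31 : 31 ≤ k := by
      by_contra hlt
      have : k ≤ 30 := by omega
      nlinarith
    obtain ⟨s, hs⟩ : ∃ s, r = k ^ 2 + s := ⟨r - k ^ 2, by omega⟩
    have hs1 : 1 ≤ s := by omega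
    have hs2 : s ≤ 2 * k := by omega
    obtain ⟨Z, hZ1, hZ2, hZ3⟩ := exists_Z h100' hm10
    by_cases hs4 : s ≤ 4
    · obtain ⟨k', hk'⟩ : ∃ k', k = k' + 1 := ⟨k - 1, by omega⟩
      have hZ3' : 5 * m ≤ k' * Z := by
        rw [hk'] at hZ3
        simpa using hZ3
      by_cases hs2' : s ≤ 2
      · obtain ⟨a, ha⟩ : ∃ a, k' = a + 1 := ⟨k' - 1, by omega⟩
        apply case_A (a := a) (j := 1) (by omega) hm hZ1 hZ2
        · rw [hs, hk', ha]; nlinarith
        · rw [hs, hk', ha]; nlinarith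
        · have : k' * Z ≤ 2 * a * Z := Nat.mul_le_mul_right _ (by omega)
          omega
      · apply case_A (a := k') (j := 0) (by omega) hm hZ1 hZ2
        · rw [hs, hk']; nlinarith
        · rw [hs, hk']; nlinarith
        · have : k' * Z ≤ 2 * k' * Z := Nat.mul_le_mul_right _ (by omega)
          omega
    · obtain ⟨v₀, hv₀1, hv₀2⟩ : ∃ v₀, 2 * v₀ + 1 ≤ s ∧ s ≤ 2 * v₀ + 2 :=
        ⟨(s - 1) / 2, by omega, by omega⟩
      obtain ⟨τ, hτ⟩ : ∃ τ, v₀ = τ + 1 := ⟨v₀ - 1, by omega⟩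
      subst hτ
      by_cases hcase : 2 * τ ≤ k
      · obtain ⟨j, hj⟩ : ∃ j, k = τ + 1 + j := ⟨k - (τ + 1), by omega⟩
        have hτ1 : 1 ≤ τ := by omega
        have hbd := bounds_E (m : ℝ) (τ : ℝ) (k : ℝ) (by exact_mod_cast hm10)
          (by exact_mod_cast hτ1) (by exact_mod_cast hcase) (by exact_mod_cast hkm)
          (by exact_mod_cast h100') (by exact_mod_cast hk31)
          (by
            rcases Nat.lt_or_ge τ 2 with h | h
            · left
              have : τ = 1 := by omega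
              rw [this]; norm_num
            · right
              exact_mod_cast h)
        rw [hj] at hbd
        apply case_L hm10 hτ1 (by omega)
        · rw [hs, ← hj]; omega
        · rw [hs, ← hj]; omega
        · omega
        · exact hbd.1
        · exact hbd.2
      · obtain ⟨u, hu1, hu2⟩ : ∃ u, 2 * u + 2 ≤ s ∧ s ≤ 2 * u + 3 :=
          ⟨(s - 2) / 2, by omega, by omega⟩
        obtain ⟨a, ha⟩ : ∃ a, u = a + 1 := ⟨u - 1, by omega⟩
        subst ha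
        obtain ⟨j, hj⟩ : ∃ j, k = a + j := ⟨k - a, by omega⟩
        apply case_A (a := a) (j := j) (by omega) hm hZ1 hZ2
        · rw [hs, ← hj]; omega
        · rw [hs, ← hj]; omega
        · have h1 : k - 1 ≤ 2 * a := by omega
          have : (k - 1) * Z ≤ 2 * a * Z := Nat.mul_le_mul_right _ h1
          omega

/-- The final form of the emptiness statement. -/
theorem EE_of_range {r m : ℕ} (hr : ¬ IsSquare r) (hm : 1 ≤ m) (h100 : 100 * m ≤ r) {d : ℕ}
    (hd : d ^ 2 ≤ r * m ^ 2) : EE m (triSet 0 (d + 1)) r := by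
  obtain ⟨W, K, hc, hK, hW⟩ := exists_cov hr hm h100
  have hdW : d + 1 ≤ W := by
    by_contra hlt
    have : W ≤ d := by omega
    have : W ^ 2 ≤ d ^ 2 := Nat.pow_le_pow_left this 2
    omega
  have h1 := EE_of_Cov hc 0
  have hsub : triSet 0 (d + 1) ⊆ triSet 0 W := by
    intro w hw
    rw [mem_triSet] at hw ⊢
    omega
  exact (h1.mono_set hsub).mono_n hK

/-- The main theorem of this development. -/
theorem main_theorem (r : ℕ) (hr : ¬ IsSquare r) :
    HoldsVeryGenerally r (fun v =>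
      ∀ (d m : ℕ) (F : MvPolynomial (Fin 3) ℂ), 1 ≤ m → 100 * m ≤ r → F ≠ 0 →
        F.IsHomogeneous d → (∀ i, HasMultAtLeast F (v i) m) →
          (∑ _i : Fin r, (m : ℝ)) < d * Real.sqrt r) := by
  classical
  let A : Set (ℕ × ℕ) := {p | 1 ≤ p.2 ∧ 100 * p.2 ≤ r ∧ p.1 ^ 2 ≤ r * p.2 ^ 2}
  have hE : ∀ p : A, EE p.1.2 (triSet 0 (p.1.1 + 1)) r := fun p =>
    EE_of_range hr p.2.1 p.2.2.1 p.2.2.2
  let g : A → MvPolynomial (Fin r × Fin 3) ℂ := fun p =>
    Classical.choose (exists_G r p.1.1 p.1.2 (hE p))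
  have hg : ∀ p : A, g p ≠ 0 ∧ IsMultiHomogeneous (g p) ∧
      ∀ v : Fin r → Fin 3 → ℂ, eval (fun q : Fin r × Fin 3 => v q.1 q.2) (g p) ≠ 0 →
        ∀ F : MvPolynomial (Fin 3) ℂ, F.IsHomogeneous p.1.1 →
          (∀ i, HasMultAtLeast F (v i) p.1.2) → F = 0 := fun p =>
    Classical.choose_spec (exists_G r p.1.1 p.1.2 (hE p))
  refine ⟨Set.range g, Set.countable_range g, ?_, ?_⟩
  · rintro G ⟨p, rfl⟩
    exact ⟨(hg p).1, (hg p).2.1⟩
  · intro v hv d m F hm h100 hF hhom hmult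
    have hlt : r * m ^ 2 < d ^ 2 := by
      by_contra hle
      rw [not_lt] at hle
      let p : A := ⟨(d, m), hm, h100, hle⟩
      exact hF ((hg p).2.2 v (hv _ ⟨p, rfl⟩) F hhom hmult)
    have hrpos : 0 < r := by omega
    have hsum : (∑ _i : Fin r, (m : ℝ)) = r * m := by simp
    rw [hsum]
    have hltR : (r : ℝ) * (m : ℝ) ^ 2 < (d : ℝ) ^ 2 := by exact_mod_cast hlt
    have hrR : (0 : ℝ) < r := by exact_mod_cast hrpos
    have hsq : Real.sqrt r ^ 2 = r := Real.sq_sqrt hrR.le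
    have hs0 : 0 < Real.sqrt r := Real.sqrt_pos.mpr hrR
    -- compare squares
    have h2 : ((r : ℝ) * m) ^ 2 < (d * Real.sqrt r) ^ 2 := by
      rw [mul_pow, mul_pow, hsq]
      nlinarith
    exact lt_of_pow_lt_pow_left₀ 2 (by positivity) h2

end Vale.Agent.Lib.P279
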