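import Vale.Agent.Lib.P279.Arith

namespace Vale.Agent.Lib.P279

/-- Small multiplicities: many pieces are saved. -/
lemma case_S' {k m : ℕ} (hk : 3 * m + 3 ≤ k) : ∃ K, Cov m ((k + 1) * m) K ∧ K + 3 ≤ k ^ 2 := by
  obtain ⟨L, rfl⟩ : ∃ L, k = 3 * m + 2 + L := ⟨k - (3 * m + 2), by omega⟩
  have hL : 1 ≤ L := by omega
  have h0 : Cov m ((m + 1) * m) ((m + 1) ^ 2) := Cov_levels m (m + 1)
  have h1 := block_path (a := m) (δ := 1) (K := (m + 1) ^ 2) h0 (by omega) (m + 1)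
  have e1 : (m + 1 + (m + 1)) * m = (2 * m + 2) * m := by ring
  rw [e1] at h1
  have h2 := block_path (a := 2 * m) (δ := 2) (K := (m + 1) ^ 2 + (m + 1) * (2 * m + (m + 1)))
    (by simpa using h1) (by omega) (m + 1)
  have h3 := block_path (a := 3 * m) (δ := 3)
    (K := (m + 1) ^ 2 + (m + 1) * (2 * m + (m + 1)) + (m + 1) * (2 * (2 * m) + (m + 1)))
    (by
      have e : (3 * m + 3) * m = (2 * m + 2 + (m + 1)) * m := by ring
      rw [e]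
      exact h2) (by omega) L
  refine ⟨(m + 1) ^ 2 + (m + 1) * (2 * m + (m + 1)) + (m + 1) * (2 * (2 * m) + (m + 1)) +
    L * (2 * (3 * m) + L), ?_, ?_⟩
  · have e : (3 * m + 2 + L + 1) * m = (3 * m + 3 + L) * m := by ring
    rw [e]
    exact h3
  · nlinarith

/-- The crude two-jump pattern, saving three pieces. -/
lemma case_A' {m a j n Z : ℕ} (ha : 1 ≤ a) (hm : 1 ≤ m) (hZ : Z * (Z + 1) ≤ m) (hZm : Z ≤ m)
    (hr1 : (a + j) ^ 2 + 2 * a + 7 ≤ n) (hr2 : n ≤ (a + j) ^ 2 + 2 * a + 8)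
    (hmain : 8 * m ≤ 2 * a * Z) :
    ∃ W K, Cov m W K ∧ K + 3 ≤ n ∧ n * m ^ 2 < W ^ 2 := by
  have h0 : Cov m (1 * m + m) 4 := by
    have := Cov_levels m 2
    have e : 2 * m = 1 * m + m := by ring
    rw [e] at this
    simpa using this
  obtain ⟨z, hz1, hz2, hz3⟩ := crude_path (v₀ := 1) (z₀ := m) (Z := Z) (le_refl 1) h0 hZm
    (by simpa using hZ) a
  have h1 : Cov m (a * m + (m + z)) (4 + a * (2 * 1 + a)) := by
    have e : (1 + a) * m + z = a * m + (m + z) := by ring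
    rw [e] at hz1
    exact hz1
  obtain ⟨z', hz'1, _, hz'3⟩ := crude_path (v₀ := a) (z₀ := m + z) (Z := 0) ha h1 (Nat.zero_le _)
    (by simp) j
  refine ⟨(a + j) * m + z', _, hz'1, ?_, ?_⟩
  · nlinarith
  · -- the final inequality
    have hz'pos : 1 ≤ z' := by
      by_contra hlt
      have : z' = 0 := by omega
      rw [this] at hz'3
      simp at hz'3
      omega
    have hzZ : a * m * 2 * Z ≤ a * m * 2 * z := Nat.mul_le_mul_left _ hz2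
    have h5 : 8 * m * m ≤ 2 * a * Z * m := Nat.mul_le_mul_right _ hmain
    have hrm : n * m ^ 2 ≤ ((a + j) ^ 2 + 2 * a + 8) * m ^ 2 := Nat.mul_le_mul_right _ hr2
    have h6 : a * (m + z) * (2 * m) ≤ (a + j) * z' * (2 * m) := Nat.mul_le_mul_right _ hz'3
    have hz'2 : 1 ≤ z' ^ 2 := Nat.one_le_pow _ _ hz'pos
    nlinarith

/-- The choice of `Z` in the crude pattern. -/
lemma exists_Z' {k m : ℕ} (h200 : 200 * m ≤ k ^ 2 + 2 * k) (hm : 16 ≤ m) :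
    ∃ Z, Z * (Z + 1) ≤ m ∧ Z ≤ m ∧ 8 * m ≤ (k - 1) * Z := by
  set q := Nat.sqrt m with hq
  have hq1 : q ^ 2 ≤ m := Nat.sqrt_le' m
  have hq2 : m < (q + 1) ^ 2 := Nat.lt_succ_sqrt' m
  have hq3 : 4 ≤ q := by
    by_contra hlt
    have : q ≤ 3 := by omega
    have : (q + 1) ^ 2 ≤ 4 ^ 2 := Nat.pow_le_pow_left (by omega) 2
    omega
  have hkq : 14 * q ≤ k := by
    by_contra hlt
    have h1 : k + 1 ≤ 14 * q := by omega
    have h2 : (k + 1) ^ 2 ≤ (14 * q) ^ 2 := Nat.pow_le_pow_left h1 2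
    nlinarith
  obtain ⟨k', rfl⟩ : ∃ k', k = k' + 1 := ⟨k - 1, by omega⟩
  simp only [Nat.add_sub_cancel]
  by_cases hcase : q * (q + 1) ≤ m
  · refine ⟨q, hcase, by nlinarith, ?_⟩
    nlinarith
  · rw [not_le] at hcase
    obtain ⟨q', hq'⟩ : ∃ q', q = q' + 1 := ⟨q - 1, by omega⟩
    rw [hq'] at hcase hq1 hq3 hkq
    refine ⟨q', by nlinarith, by nlinarith, ?_⟩
    nlinarith

lemma bounds_E' (m τ k : ℝ) (hm : 21 ≤ m) (hτ : 1 ≤ τ) (h2τ : 2 * τ ≤ k) (hkm : k ≤ 3 * m + 2)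
    (h200 : 200 * m ≤ k ^ 2 + 2 * k) (hk : 64 ≤ k) :
    (4 * m + τ + τ ^ 2 / 4 ≤ k ^ 2 / 9) ∧
    (τ * (4 * (m - 1) - τ) / 4 < k ^ 2 / 16 →
      16 * (4 * m + τ + τ ^ 2 / 4) ^ 2 ≤ 9 * (τ * (4 * (m - 1) - τ) / 4) * k ^ 2) := by
  have hτ2 : τ ^ 2 ≤ k ^ 2 / 4 := by nlinarith
  constructor
  · nlinarith
  · intro hX
    have hτm : τ ≤ 2 * m - 4 := by linarith
    have hmpos : 0 < m := by linarith
    have hτpos : 0 < τ := by linarith
    -- (a)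
    have ha : τ * m ≤ 2 * (τ * (4 * (m - 1) - τ) / 4) := by nlinarith
    -- (b)
    have hb : 4 * m + τ + τ ^ 2 / 4 ≤ m * (8 + τ) / 2 := by nlinarith
    -- (c)
    have hc : 8 * (τ * m) ≤ k ^ 2 := by linarith
    have hc2 : 190 * m ≤ k ^ 2 := by nlinarith
    have hE0 : 0 ≤ 4 * m + τ + τ ^ 2 / 4 := by positivity
    have hd : 16 * (4 * m + τ + τ ^ 2 / 4) ^ 2 ≤ 4 * m ^ 2 * (8 + τ) ^ 2 := by
      have := pow_le_pow_left₀ hE0 hb 2
      nlinarith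
    have he : 8 * m * (8 + τ) ^ 2 ≤ 9 * τ * k ^ 2 := by
      have h1 : (9 * τ / 2) * (190 * m) ≤ (9 * τ / 2) * k ^ 2 :=
        mul_le_mul_of_nonneg_left hc2 (by positivity)
      have h2 : (9 * τ / 2) * (8 * (τ * m)) ≤ (9 * τ / 2) * k ^ 2 :=
        mul_le_mul_of_nonneg_left hc (by positivity)
      have h3 : 512 * m ≤ 727 * (τ * m) := by nlinarith
      have h4 : 0 ≤ τ * τ * m := by positivity
      nlinarith
    have hf : 4 * m ^ 2 * (8 + τ) ^ 2 ≤ 9 * (τ * m / 2) * k ^ 2 := by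
      have := mul_le_mul_of_nonneg_left he (show 0 ≤ m / 2 by positivity)
      nlinarith
    have hg : 9 * (τ * m / 2) * k ^ 2 ≤ 9 * (τ * (4 * (m - 1) - τ) / 4) * k ^ 2 := by
      apply mul_le_mul_of_nonneg_right _ (by positivity)
      linarith
    linarith

/-- The line pattern, saving three pieces. -/
lemma case_L' {m τ j n : ℕ} (hm : 10 ≤ m) (hτ : 1 ≤ τ) (hτm : τ + 4 ≤ 2 * m)
    (hr1 : (τ + 1 + j) ^ 2 + 2 * τ + 6 ≤ n) (hr2 : n ≤ (τ + 1 + j) ^ 2 + 2 * τ + 8)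
    (ht3 : 3 ≤ τ + 1 + j)
    (hE1 : (4 * m + τ + (τ : ℝ) ^ 2 / 4) ≤ ((τ + 1 + j : ℕ) : ℝ) ^ 2 / 9)
    (hE2 : ((τ : ℝ) * (4 * (m - 1) - τ) / 4) < ((τ + 1 + j : ℕ) : ℝ) ^ 2 / 16 →
      16 * (4 * m + τ + (τ : ℝ) ^ 2 / 4) ^ 2 ≤
        9 * ((τ : ℝ) * (4 * (m - 1) - τ) / 4) * ((τ + 1 + j : ℕ) : ℝ) ^ 2) :
    ∃ W K, Cov m W K ∧ K + 3 ≤ n ∧ n * m ^ 2 < W ^ 2 := by
  obtain ⟨ζ, rfl⟩ : ∃ ζ, m = ζ + 1 := ⟨m - 1, by omega⟩
  obtain ⟨κ, hκ⟩ : ∃ κ, τ + κ = 4 * ζ := ⟨4 * ζ - τ, by omega⟩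
  set t := τ + 1 + j with htdef
  have htR : (3 : ℝ) ≤ (t : ℝ) := by exact_mod_cast ht3
  have hκR : (κ : ℝ) = 4 * ζ - τ := by
    have : ((τ + κ : ℕ) : ℝ) = ((4 * ζ : ℕ) : ℝ) := by rw [hκ]
    push_cast at this
    linarith
  let X : ℝ := (τ : ℝ) * κ / 4
  let E : ℝ := 4 * ((ζ + 1 : ℕ) : ℝ) + τ + (τ : ℝ) ^ 2 / 4
  have hX0 : 0 ≤ X := by positivity
  have hE0 : 0 ≤ E := by positivity
  have hXE : X + E = ((τ : ℝ) + 4) * ((ζ + 1 : ℕ) : ℝ) := by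
    simp only [X, E]
    rw [hκR]
    push_cast
    ring
  have hXdef : (τ : ℝ) * (4 * (((ζ + 1 : ℕ) : ℝ) - 1) - τ) / 4 = X := by
    simp only [X]
    rw [hκR]
    push_cast
    ring
  rw [hXdef] at hE2
  obtain ⟨n', hn⟩ := choose_line (t : ℝ) X E htR hX0 hE0 hE1 hE2
  -- the intercept
  set Nn := ((4 * n' + 1) * (τ * κ)) / 4 with hNn
  set B₀ := Nat.sqrt Nn with hB₀
  have hB1 : B₀ ^ 2 ≤ Nn := Nat.sqrt_le' Nn
  have hB2 : Nn < (B₀ + 1) ^ 2 := Nat.lt_succ_sqrt' Nn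
  have hB3 : 4 * Nn ≤ (4 * n' + 1) * (τ * κ) := Nat.mul_div_le _ _
  have hB4 : (4 * n' + 1) * (τ * κ) < 4 * (Nn + 1) := by
    have := Nat.lt_mul_div_succ ((4 * n' + 1) * (τ * κ)) (show 0 < 4 by norm_num)
    simpa [Nat.mul_add, hNn] using this
  have hB : 4 * B₀ ^ 2 ≤ (4 * n' + 1) * (τ * κ) := by nlinarith
  have hlt : (4 * n' + 1) * (τ * κ) < 4 * (B₀ + 1) ^ 2 := by nlinarith
  -- real form
  have hltR : (4 * (n' : ℝ) + 1) * X < ((B₀ : ℝ) + 1) ^ 2 := by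
    have : (((4 * n' + 1) * (τ * κ) : ℕ) : ℝ) < ((4 * (B₀ + 1) ^ 2 : ℕ) : ℝ) := by
      exact_mod_cast hlt
    push_cast at this
    simp only [X]
    linarith
  have hsq : ((n' : ℝ) * ((t : ℝ) - 1) + (X + E) / t) ^ 2 < ((B₀ : ℝ) + 1) ^ 2 := lt_of_le_of_lt hn hltR
  have hroot : (n' : ℝ) * ((t : ℝ) - 1) + (X + E) / t < (B₀ : ℝ) + 1 :=
    lt_of_pow_lt_pow_left₀ 2 (by positivity) hsq
  have htpos : (0 : ℝ) < t := by linarith
  have hXEt : 0 ≤ (X + E) / t := by positivity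
  have hntle : n' * t ≤ B₀ + n' + 1 := by
    have h1 : (n' : ℝ) * ((t : ℝ) - 1) < (B₀ : ℝ) + 1 := by linarith
    have h2 : ((n' * t : ℕ) : ℝ) < ((B₀ + n' + 1 : ℕ) : ℝ) := by
      push_cast
      linarith
    exact (by exact_mod_cast h2 : n' * t < B₀ + n' + 1).le
  have hC0 : Cov (ζ + 1) ((τ + 1) * (ζ + 1) + (ζ + 1)) ((τ + 2) ^ 2) := by
    have := Cov_levels (ζ + 1) (τ + 2)
    have e : (τ + 2) * (ζ + 1) = (τ + 1) * (ζ + 1) + (ζ + 1) := by ring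
    rwa [e] at this
  have hC := lines_main (n₀ := n') hκ hB hC0 j (by rw [← htdef]; exact hntle)
  rw [← htdef] at hC
  refine ⟨t * (ζ + 1) + (B₀ + n' + 1 - n' * t), _, hC, ?_, ?_⟩
  · have : (τ + 2) ^ 2 + j * (2 * (τ + 1) + j) = t ^ 2 + 2 * τ + 3 := by
      rw [htdef]; ring
    omega
  · -- the final inequality
    set z := B₀ + n' + 1 - n' * t with hz
    have hzR : (z : ℝ) = (B₀ : ℝ) + n' + 1 - n' * t := by
      rw [hz, Nat.cast_sub hntle]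
      push_cast
      ring
    have hzt : ((τ : ℝ) + 4) * ((ζ + 1 : ℕ) : ℝ) < t * z := by
      have h1 : (X + E) / t < z := by
        rw [hzR]
        nlinarith
      rw [div_lt_iff₀ htpos] at h1
      rw [← hXE]
      linarith
    have hmpos : (0 : ℝ) < ((ζ + 1 : ℕ) : ℝ) := by positivity
    have hfinal : ((n * (ζ + 1) ^ 2 : ℕ) : ℝ) < (((t * (ζ + 1) + z) ^ 2 : ℕ) : ℝ) := by
      have hrR : (n : ℝ) ≤ (t : ℝ) ^ 2 + 2 * τ + 8 := by
        have : ((n : ℕ) : ℝ) ≤ (((t ^ 2 + 2 * τ + 8 : ℕ)) : ℝ) := by exact_mod_cast hr2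
        push_cast at this
        linarith
      have hm2 : (0 : ℝ) < (((ζ + 1 : ℕ) : ℝ)) ^ 2 := by positivity
      have h1 : (n : ℝ) * ((ζ + 1 : ℕ) : ℝ) ^ 2 ≤ ((t : ℝ) ^ 2 + 2 * τ + 8) * ((ζ + 1 : ℕ) : ℝ) ^ 2 :=
        mul_le_mul_of_nonneg_right hrR hm2.le
      have h2 : 2 * ((ζ + 1 : ℕ) : ℝ) * (((τ : ℝ) + 4) * ((ζ + 1 : ℕ) : ℝ)) <
          2 * ((ζ + 1 : ℕ) : ℝ) * (t * z) := mul_lt_mul_of_pos_left hzt (by positivity)
      have h3 : (0 : ℝ) ≤ (z : ℝ) ^ 2 := by positivity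
      push_cast at h1 h2 ⊢
      nlinarith
    exact_mod_cast hfinal

/-- The combinatorial core with a margin of three pieces: for `200 m ≤ n`, a chain of strips of
at most `n - 3` pieces covers a triangle of bottom width `W` with `W² > n m²`. -/
theorem exists_cov_margin {n m : ℕ} (hm : 1 ≤ m) (h200 : 200 * m ≤ n) :
    ∃ W K, Cov m W K ∧ K + 3 ≤ n ∧ n * m ^ 2 < W ^ 2 := by
  set k := Nat.sqrt n with hk
  have hk1 : k ^ 2 ≤ n := Nat.sqrt_le' n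
  have hk2 : n < (k + 1) ^ 2 := Nat.lt_succ_sqrt' n
  have hr2 : n ≤ k ^ 2 + 2 * k := by nlinarith
  have h200' : 200 * m ≤ k ^ 2 + 2 * k := by omega
  by_cases hS : 3 * m + 3 ≤ k
  · obtain ⟨K, hc, hK⟩ := case_S' hS
    refine ⟨(k + 1) * m, K, hc, by omega, ?_⟩
    have : n * m ^ 2 < (k + 1) ^ 2 * m ^ 2 := Nat.mul_lt_mul_of_pos_right hk2 (by positivity)
    calc n * m ^ 2 < (k + 1) ^ 2 * m ^ 2 := this
      _ = ((k + 1) * m) ^ 2 := by ring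
  · have hkm : k ≤ 3 * m + 2 := by omega
    have hk13 : 13 ≤ k := by
      by_contra hlt
      have : k ≤ 12 := by omega
      nlinarith
    have hk65 : 64 ≤ k := by
      by_contra hlt
      have : k ≤ 63 := by omega
      have h3 : 200 * (k - 2) ≤ 3 * (k ^ 2 + 2 * k) := by omega
      interval_cases k <;> omega
    have hm21 : 21 ≤ m := by omega
    obtain ⟨s, hs⟩ : ∃ s, n = k ^ 2 + s := ⟨n - k ^ 2, by omega⟩
    have hs2 : s ≤ 2 * k := by omega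
    obtain ⟨Z, hZ1, hZ2, hZ3⟩ := exists_Z' h200' (by omega)
    by_cases hs7 : s ≤ 7
    · -- one level below
      obtain ⟨k', hk'⟩ : ∃ k', k = k' + 1 := ⟨k - 1, by omega⟩
      obtain ⟨a, j, haj, ha1, ha2⟩ : ∃ a j, a + j = k' ∧ 2 * a + 7 ≤ s + 2 * k' + 1 ∧
          s + 2 * k' + 1 ≤ 2 * a + 8 := by
        refine ⟨(s + 2 * k' - 6) / 2, k' - (s + 2 * k' - 6) / 2, ?_, ?_, ?_⟩
        · omega
        · omega
        · omega
      apply case_A' (a := a) (j := j) (by omega) hm hZ1 hZ2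
      · rw [haj, hs, hk']; nlinarith
      · rw [haj, hs, hk']; nlinarith
      · have h1 : (k - 1) ≤ 2 * a := by omega
        have : (k - 1) * Z ≤ 2 * a * Z := Nat.mul_le_mul_right _ h1
        omega
    · obtain ⟨τ, hτ1, hτ2⟩ : ∃ τ, 2 * τ + 6 ≤ s ∧ s ≤ 2 * τ + 7 := ⟨(s - 6) / 2, by omega, by omega⟩
      by_cases hcase : 2 * τ ≤ k
      · obtain ⟨j, hj⟩ : ∃ j, k = τ + 1 + j := ⟨k - (τ + 1), by omega⟩
        have hτ1' : 1 ≤ τ := by omega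
        have hbd := bounds_E' (m : ℝ) (τ : ℝ) (k : ℝ) (by exact_mod_cast hm21)
          (by exact_mod_cast hτ1') (by exact_mod_cast hcase) (by exact_mod_cast hkm)
          (by exact_mod_cast h200') (by exact_mod_cast hk65)
        rw [hj] at hbd
        apply case_L' (by omega) hτ1' (by omega)
        · rw [hs, ← hj]; omega
        · rw [hs, ← hj]; omega
        · omega
        · exact hbd.1
        · exact hbd.2
      · obtain ⟨a, hu1, hu2⟩ : ∃ a, 2 * a + 7 ≤ s ∧ s ≤ 2 * a + 8 := ⟨(s - 7) / 2, by omega, by omega⟩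
        obtain ⟨j, hj⟩ : ∃ j, k = a + j := ⟨k - a, by omega⟩
        apply case_A' (a := a) (j := j) (by omega) hm hZ1 hZ2
        · rw [hs, ← hj]; omega
        · rw [hs, ← hj]; omega
        · have h1 : k - 1 ≤ 2 * a := by omega
          have : (k - 1) * Z ≤ 2 * a * Z := Nat.mul_le_mul_right _ h1
          omega

end Vale.Agent.Lib.P279
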