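import Mathlib

open Equiv

namespace Vale.Agent.Lib.P279

variable {r : ℕ}

/-- The average over the symmetric group. -/
lemma perm_sum (x : Fin r → ℕ) {a : Fin r} :
    (r : ℤ) * ∑ σ : Perm (Fin r), ∑ i, ((x i : ℤ) * (x (σ i) : ℤ)) =
      (r.factorial : ℤ) * (∑ i, (x i : ℤ)) ^ 2 := by
  classical
  let f : Fin r → ℤ := fun i => ∑ σ : Perm (Fin r), (x (σ i) : ℤ)
  have hf : ∀ i, f i = f a := by
    intro i
    simp only [f]
    rw [← Equiv.sum_comp (Equiv.mulRight (Equiv.swap i a))]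
    apply Finset.sum_congr rfl
    intro σ _
    simp
  have hsum : ∑ i, f i = (r.factorial : ℤ) * ∑ i, (x i : ℤ) := by
    simp only [f]
    rw [Finset.sum_comm]
    have : ∀ σ : Perm (Fin r), ∑ i, (x (σ i) : ℤ) = ∑ i, (x i : ℤ) := fun σ =>
      Equiv.sum_comp σ (fun i => (x i : ℤ))
    simp only [this]
    rw [Finset.sum_const, Finset.card_univ, Fintype.card_perm, Fintype.card_fin]
    simp
  have hsum2 : ∑ i, f i = (r : ℤ) * f a := by
    rw [Finset.sum_congr rfl (fun i _ => hf i)]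
    simp
  have hg : ∑ σ : Perm (Fin r), ∑ i, ((x i : ℤ) * (x (σ i) : ℤ)) = f a * ∑ i, (x i : ℤ) := by
    rw [Finset.sum_comm]
    have : ∀ i, ∑ σ : Perm (Fin r), ((x i : ℤ) * (x (σ i) : ℤ)) = (x i : ℤ) * f a := by
      intro i
      rw [← Finset.mul_sum, ← hf i]
    simp only [this]
    rw [← Finset.sum_mul, mul_comm]
  rw [hg, ← mul_assoc, ← hsum2, hsum]
  ring

/-- Averaging over the symmetric group: when two disjoint pairs of unequal multiplicities exist
the mean vector is a convex combination of the rearrangements different from `x`. -/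
theorem pairs_arith (x : Fin r → ℕ) (B : ℕ)
    (h : ∀ σ : Perm (Fin r), (fun i => x (σ i)) ≠ x → ∑ i, x i * x (σ i) ≤ B)
    {a b c d : Fin r} (hab : x a ≠ x b) (hcd : x c ≠ x d) (hac : a ≠ c) (had : a ≠ d)
    (hbc : b ≠ c) (hbd : b ≠ d) :
    (∑ i, x i) ^ 2 ≤ r * B := by
  classical
  have hane : a ≠ b := fun h' => hab (by rw [h'])
  have hcne : c ≠ d := fun h' => hcd (by rw [h'])
  let τ : Perm (Fin r) := Equiv.swap a b
  let τ' : Perm (Fin r) := Equiv.swap c d
  let ρ : Perm (Fin r) := τ * τ'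
  let g : Perm (Fin r) → ℤ := fun σ => ∑ i, ((x i : ℤ) * (x (σ i) : ℤ))
  have hgle : ∀ σ : Perm (Fin r), (fun i => x (σ i)) ≠ x → g σ ≤ B := by
    intro σ hσ
    have := h σ hσ
    have h2 : ((∑ i, x i * x (σ i) : ℕ) : ℤ) ≤ (B : ℤ) := by exact_mod_cast this
    rw [Nat.cast_sum] at h2
    simpa using h2
  have hτa : τ a = b := Equiv.swap_apply_left a b
  have hτb : τ b = a := Equiv.swap_apply_right a b
  have hτc : τ c = c := Equiv.swap_apply_of_ne_of_ne (Ne.symm hac) (Ne.symm hbc)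
  have hτd : τ d = d := Equiv.swap_apply_of_ne_of_ne (Ne.symm had) (Ne.symm hbd)
  have hτ'a : τ' a = a := Equiv.swap_apply_of_ne_of_ne hac had
  have hτ'b : τ' b = b := Equiv.swap_apply_of_ne_of_ne hbc hbd
  have hτ'c : τ' c = d := Equiv.swap_apply_left c d
  have hτ'd : τ' d = c := Equiv.swap_apply_right c d
  have hρa : ρ a = b := by simp only [ρ, Perm.mul_apply, hτ'a, hτa]
  have hne_τ : (fun i => x (τ i)) ≠ x := fun h' => hab (by
    have := congrFun h' a
    simp only [hτa] at this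
    exact this.symm)
  have hne_τ' : (fun i => x (τ' i)) ≠ x := fun h' => hcd (by
    have := congrFun h' c
    simp only [hτ'c] at this
    exact this.symm)
  have hne_ρ : (fun i => x (ρ i)) ≠ x := fun h' => hab (by
    have := congrFun h' a
    simp only [hρa] at this
    exact this.symm)
  -- the parallelogram identity
  have hpar : ∀ i, x i + x (ρ i) = x (τ i) + x (τ' i) := by
    intro i
    by_cases h1 : i = a
    · subst h1; simp only [hρa, hτa, hτ'a]; omega
    by_cases h2 : i = b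
    · subst h2; simp only [ρ, Perm.mul_apply, hτ'b, hτb]; omega
    by_cases h3 : i = c
    · subst h3; simp only [ρ, Perm.mul_apply, hτ'c, hτd, hτc]; try omega
    by_cases h4 : i = d
    · subst h4; simp only [ρ, Perm.mul_apply, hτ'd, hτc, hτd]; try omega
    have e1 : τ i = i := Equiv.swap_apply_of_ne_of_ne h1 h2
    have e2 : τ' i = i := Equiv.swap_apply_of_ne_of_ne h3 h4
    simp only [ρ, Perm.mul_apply, e1, e2]
  have hgpar : g 1 + g ρ = g τ + g τ' := by
    simp only [g, ← Finset.sum_add_distrib]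
    apply Finset.sum_congr rfl
    intro i _
    have : (x i : ℤ) + x (ρ i) = x (τ i) + x (τ' i) := by exact_mod_cast hpar i
    simp only [Perm.one_apply]
    linear_combination (x i : ℤ) * this
  -- the set of stabilizers
  let A : Finset (Perm (Fin r)) := Finset.univ.filter fun σ => (fun i => x (σ i)) = x
  have hAg : ∀ σ ∈ A, g σ = g 1 := by
    intro σ hσ
    have hσ' : (fun i => x (σ i)) = x := (Finset.mem_filter.mp hσ).2
    simp only [g, Perm.one_apply]
    apply Finset.sum_congr rfl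
    intro i _
    have := congrFun hσ' i
    rw [this]
  have hAρ : ∀ σ ∈ A, g (σ * ρ) = g ρ := by
    intro σ hσ
    have hσ' : (fun i => x (σ i)) = x := (Finset.mem_filter.mp hσ).2
    simp only [g, Perm.mul_apply]
    apply Finset.sum_congr rfl
    intro i _
    have := congrFun hσ' (ρ i)
    rw [this]
  let A' : Finset (Perm (Fin r)) := A.image fun σ => σ * ρ
  have hdisj : Disjoint A A' := by
    rw [Finset.disjoint_left]
    intro σ hσ hσ'
    obtain ⟨σ₀, hσ₀, rfl⟩ := Finset.mem_image.mp hσ'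
    have h0 : (fun i => x (σ₀ i)) = x := (Finset.mem_filter.mp hσ₀).2
    have h1 : (fun i => x ((σ₀ * ρ) i)) = x := (Finset.mem_filter.mp hσ).2
    apply hne_ρ
    funext i
    have e1 := congrFun h1 i
    have e2 := congrFun h0 (ρ i)
    simp only [Perm.mul_apply] at e1
    rw [← e2, e1]
  have hB : ((∑ σ : Perm (Fin r), ((B : ℤ) - g σ))) ≥ 0 := by
    have hsplit : ∑ σ : Perm (Fin r), ((B : ℤ) - g σ) =
        ∑ σ ∈ A ∪ A', ((B : ℤ) - g σ) + ∑ σ ∈ (Finset.univ \ (A ∪ A')), ((B : ℤ) - g σ) := by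
      rw [add_comm, Finset.sum_sdiff (Finset.subset_univ _)]
    rw [hsplit, Finset.sum_union hdisj, Finset.sum_image (fun σ _ σ' _ h' => mul_right_cancel h')]
    have h1 : 0 ≤ ∑ σ ∈ (Finset.univ \ (A ∪ A')), ((B : ℤ) - g σ) := by
      apply Finset.sum_nonneg
      intro σ hσ
      have hnot : σ ∉ A := by
        intro h'
        exact (Finset.mem_sdiff.mp hσ).2 (Finset.mem_union_left _ h')
      have hne : (fun i => x (σ i)) ≠ x := by
        intro h'
        exact hnot (Finset.mem_filter.mpr ⟨Finset.mem_univ _, h'⟩)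
      linarith [hgle σ hne]
    have h2 : 0 ≤ ∑ σ ∈ A, ((B : ℤ) - g σ) + ∑ σ ∈ A, ((B : ℤ) - g (σ * ρ)) := by
      rw [← Finset.sum_add_distrib]
      apply Finset.sum_nonneg
      intro σ hσ
      rw [hAg σ hσ, hAρ σ hσ]
      linarith [hgle τ hne_τ, hgle τ' hne_τ']
    linarith
  have hmean := perm_sum x (a := a)
  have hfact : (0 : ℤ) < (r.factorial : ℤ) := by exact_mod_cast Nat.factorial_pos r
  have hsumB : ∑ σ : Perm (Fin r), ((B : ℤ) - g σ) =
      (r.factorial : ℤ) * B - ∑ σ : Perm (Fin r), g σ := by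
    rw [Finset.sum_sub_distrib, Finset.sum_const, Finset.card_univ, Fintype.card_perm,
      Fintype.card_fin]
    simp
  have hr0 : (0 : ℤ) ≤ r := by positivity
  have hfinal : (r.factorial : ℤ) * (∑ i, (x i : ℤ)) ^ 2 ≤ (r.factorial : ℤ) * ((r : ℤ) * B) := by
    rw [← hmean]
    have h3 : (r : ℤ) * (∑ σ : Perm (Fin r), g σ) ≤ (r : ℤ) * ((r.factorial : ℤ) * B) :=
      mul_le_mul_of_nonneg_left (by linarith) hr0
    calc (r : ℤ) * (∑ σ : Perm (Fin r), g σ) ≤ (r : ℤ) * ((r.factorial : ℤ) * B) := h3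
      _ = (r.factorial : ℤ) * ((r : ℤ) * B) := by ring
  have hfinal2 := le_of_mul_le_mul_left hfinal hfact
  have : (((∑ i, x i) ^ 2 : ℕ) : ℤ) ≤ ((r * B : ℕ) : ℤ) := by
    push_cast
    exact hfinal2
  exact_mod_cast this

/-- A vector without two disjoint unequal pairs has all entries equal except perhaps one. -/
theorem pairs_or_almost_constant (hr : 4 ≤ r) (x : Fin r → ℕ) :
    (∃ a b c d, x a ≠ x b ∧ x c ≠ x d ∧ a ≠ c ∧ a ≠ d ∧ b ≠ c ∧ b ≠ d) ∨
      ∃ j β, ∀ i, i ≠ j → x i = β := by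
  classical
  by_contra hcon
  push Not at hcon
  obtain ⟨h1, h2⟩ := hcon
  have h1' : ∀ a b c d, x a ≠ x b → a ≠ c → a ≠ d → b ≠ c → b ≠ d → x c = x d := by
    intro a b c d hab hac had hbc hbd
    by_contra hcd
    exact hbd (h1 a b c d hab hcd hac had hbc)
  -- some unequal pair
  have hex : ∃ a b, x a ≠ x b := by
    by_contra hno
    push Not at hno
    obtain ⟨i, hi, hi'⟩ := h2 ⟨0, by omega⟩ (x ⟨0, by omega⟩)
    exact hi' (hno _ _)
  obtain ⟨a, b, hab⟩ := hex
  have hane : a ≠ b := fun h' => hab (by rw [h'])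
  -- other indices
  have hex2 : ∀ s : Finset (Fin r), s.card < r → ∃ c, c ∉ s := by
    intro s hs
    by_contra hno
    push Not at hno
    have : s = Finset.univ := Finset.eq_univ_iff_forall.mpr hno
    rw [this, Finset.card_univ, Fintype.card_fin] at hs
    omega
  obtain ⟨c₀, hc₀⟩ := hex2 {a, b} (by
    have := Finset.card_le_two (a := a) (b := b)
    omega)
  have hc₀a : c₀ ≠ a := fun h' => hc₀ (by simp [h'])
  have hc₀b : c₀ ≠ b := fun h' => hc₀ (by simp [h'])
  obtain ⟨d₀, hd₀⟩ := hex2 {a, b, c₀} (by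
    have := Finset.card_le_three (a := a) (b := b) (c := c₀)
    omega)
  have hd₀a : d₀ ≠ a := fun h' => hd₀ (by simp [h'])
  have hd₀b : d₀ ≠ b := fun h' => hd₀ (by simp [h'])
  have hd₀c : d₀ ≠ c₀ := fun h' => hd₀ (by simp [h'])
  have hrest : ∀ i, i ≠ a → i ≠ b → x i = x c₀ := by
    intro i hia hib
    by_cases hic : i = c₀
    · rw [hic]
    · exact h1' a b i c₀ hab (Ne.symm hia) (Ne.symm hc₀a) (Ne.symm hib) (Ne.symm hc₀b)
  by_cases hxa : x a = x c₀
  · obtain ⟨i, hi, hi'⟩ := h2 b (x c₀)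
    apply hi'
    by_cases hia : i = a
    · rw [hia, hxa]
    · exact hrest i hia hi
  · by_cases hxb : x b = x c₀
    · obtain ⟨i, hi, hi'⟩ := h2 a (x c₀)
      apply hi'
      by_cases hib : i = b
      · rw [hib, hxb]
      · exact hrest i hi hib
    · have h3 := h1' a c₀ b d₀ hxa hane (Ne.symm hd₀a) hc₀b (Ne.symm hd₀c)
      have h4 := hrest d₀ hd₀a hd₀b
      exact hxb (by rw [h3, h4])

end Vale.Agent.Lib.P279
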