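import Vale.Agent.Lib.P279.Uniform
import Vale.Agent.Lib.P279.PermArith
import Vale.Agent.Lib.P279.Margin

open MvPolynomial Module Equiv

namespace Vale.Agent.Lib.P279

variable {r : ℕ}

section Ineq

variable {v : Fin r → Fin 3 → ℂ} {F : A3} {b : ℕ} {x : Fin r → ℕ}

/-- Any rearrangement of the multiplicities produces another curve, which meets the irreducible
curve properly. -/
theorem perm_ineq (hv : Good v) (hp : ∀ i, v i 2 ≠ 0)
    (hsep : ∀ i j, i ≠ j → v i 0 * v j 2 ≠ v j 0 * v i 2)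
    (hFi : Irreducible F) (hF : F.IsHomogeneous b) (hx : ∀ i, ExactOrd (psi (v i) F) (x i))
    (σ : Perm (Fin r)) (hσ : (fun i => x (σ i)) ≠ x) : ∑ i, x i * x (σ i) ≤ b * b := by
  classical
  have hF0 : F ≠ 0 := hFi.ne_zero
  have hcoef0 : coeffsOf b F ≠ 0 := by
    intro h0
    apply hF0
    rw [← formOf_coeffsOf hF, h0, map_zero]
  have hker : (matV b x v).mulVec (coeffsOf b F) = 0 :=
    (mulVec_eq_zero_iff hF x v).mpr (fun i => (hx i).1)
  have hlt := rank_lt_of_ker hcoef0 hker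
  have hle := rank_le_of_good hv b x (fun i => v (σ⁻¹ i))
  obtain ⟨c₀, hc₀, hc₀'⟩ := exists_ker_of_rank_lt (lt_of_le_of_lt hle hlt)
  set G := formOf b c₀ with hGdef
  have hG : G.IsHomogeneous b := formOf_isHomogeneous b c₀
  have hcoef : coeffsOf b G = c₀ := coeffsOf_formOf b c₀
  have hG0 : G ≠ 0 := by
    intro h0
    apply hc₀
    rw [← hcoef, h0, map_zero]
  have hGord : ∀ i, OrdGe (psi (v i) G) (x (σ i)) := by
    have h1 := (mulVec_eq_zero_iff hG x (fun i => v (σ⁻¹ i))).mp (by rw [hcoef]; exact hc₀')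
    intro i
    have h2 := h1 (σ i)
    simpa using h2
  -- a coordinate where the rearranged vector is larger
  have hbig : ∃ i, x i < x (σ i) := by
    by_contra hno
    push Not at hno
    apply hσ
    have hsum : ∑ i, x (σ i) = ∑ i, x i := Equiv.sum_comp σ x
    funext i
    exact (Finset.sum_eq_sum_iff_of_le (fun i _ => hno i)).mp hsum i (Finset.mem_univ i)
  obtain ⟨i₀, hi₀⟩ := hbig
  have hFG : ¬ F ∣ G := by
    intro hdvd
    obtain ⟨c₁, hc₁⟩ := eq_C_of_dvd hF hF0 hG hdvd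
    have hc₁0 : c₁ ≠ 0 := by
      rintro rfl
      apply hG0
      rw [hc₁]
      simp
    have h1 := hGord i₀
    rw [hc₁, map_mul (psi (v i₀)), psi_C] at h1
    apply (hx i₀).2
    have h2 : OrdGe (C c₁⁻¹ * (C c₁ * psi (v i₀) F)) (x (σ i₀)) := h1.mul_left _
    rw [← mul_assoc, ← C_mul, inv_mul_cancel₀ hc₁0, C_1, one_mul] at h2
    exact h2.mono (by omega)
  exact bezout hFi hF hG hFG v hp hsep x (fun i => x (σ i)) hx hGord

end Ineq

/-- A special tuple: points where the chain of strips gives injectivity; the points of the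
configuration are placed at indices of `I`, where the multiplicities are large enough. -/
lemma EE_kernel_trivial' {m d : ℕ} {n : ℕ} (hE : EE m (triSet 0 (d + 1)) n) (x : Fin r → ℕ)
    (I : Finset (Fin r)) (hI : n ≤ I.card) (hxI : ∀ i ∈ I, m ≤ x i) :
    ∃ v₀ : Fin r → Fin 3 → ℂ, ∀ c : TT (d + 1) → ℂ, (matV d x v₀).mulVec c = 0 → c = 0 := by
  classical
  obtain ⟨L, hcard, _, hIn⟩ := hE
  have hLI : L.card ≤ I.card := le_trans hcard hI
  -- place the points of `L` at the indices of `I`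
  have hf : ∃ f : Fin r → ℂ × ℂ, ∀ p ∈ L, ∃ i ∈ I, f i = p := by
    let e := L.equivFin
    let e' := I.equivFin
    refine ⟨fun i => if h : i ∈ I then
      (if h' : ((e' ⟨i, h⟩ : Fin I.card) : ℕ) < L.card then ((e.symm ⟨_, h'⟩ : L) : ℂ × ℂ) else (1, 1))
      else (1, 1), ?_⟩
    intro p hp
    let k := e ⟨p, hp⟩
    let i : I := e'.symm ⟨k, lt_of_lt_of_le k.2 hLI⟩
    refine ⟨i.1, i.2, ?_⟩
    have h1 : e' ⟨i.1, i.2⟩ = ⟨k, lt_of_lt_of_le k.2 hLI⟩ := by
      simp [i]
    simp only [dif_pos i.2, h1]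
    simp [k]
  obtain ⟨f, hf⟩ := hf
  let T := triSet 0 (d + 1)
  refine ⟨fun i => ![(f i).1, (f i).2, 1], ?_⟩
  intro y hy
  let c : ℕ × ℕ → ℂ := fun w => if h : w ∈ T then y ⟨w, h⟩ else 0
  have hc := hIn c (by
    intro p hp s t hst
    obtain ⟨i, hiI, rfl⟩ := hf p hp
    have hm := hxI i hiI
    have hrow := congrFun hy ⟨i, ⟨(⟨s, by omega⟩, ⟨t, by omega⟩), by simpa using (by omega : s + t < x i)⟩⟩
    simp only [Matrix.mulVec, dotProduct, Pi.zero_apply, matV, Matrix.of_apply] at hrow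
    have hsum : ∑ w ∈ T, c w * (chi (f i) w * tst s t w) =
        (f i).1 ^ s * (f i).2 ^ t * ∑ w : TT (d + 1), ent d s t w.1 ![(f i).1, (f i).2, 1] * y w := by
      rw [← Finset.sum_coe_sort T, Finset.mul_sum]
      apply Finset.sum_congr rfl
      intro w _
      have := chi_eq_ent d s t w.1 w.2 (f i)
      simp only [c, dif_pos w.2]
      rw [this]
      ring
    rw [hsum]
    rw [show (∑ w : TT (d + 1), ent d s t w.1 ![(f i).1, (f i).2, 1] * y w) = 0 from hrow, mul_zero])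
  funext w
  have := hc w.1 w.2
  simpa [c] using this

/-- A chain of strips bounds the degree of any form with the multiplicities. -/
lemma bound_of_cov {v : Fin r → Fin 3 → ℂ} (hv : Good v) {F : A3} {b m W K : ℕ}
    (hF : F.IsHomogeneous b) (hF0 : F ≠ 0) {x : Fin r → ℕ} (hord : ∀ i, OrdGe (psi (v i) F) (x i))
    (hc : Cov m W K) (I : Finset (Fin r)) (hI : K ≤ I.card) (hxI : ∀ i ∈ I, m ≤ x i) : W ≤ b := by
  classical
  by_contra hlt
  rw [not_le] at hlt
  have hE : EE m (triSet 0 (b + 1)) K := by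
    have h1 := EE_of_Cov hc 0
    refine h1.mono_set ?_
    intro w hw
    rw [mem_triSet] at hw ⊢
    omega
  obtain ⟨v₀, hv₀⟩ := EE_kernel_trivial' hE x I hI hxI
  have hcoef0 : coeffsOf b F ≠ 0 := by
    intro h0
    apply hF0
    rw [← formOf_coeffsOf hF, h0, map_zero]
  have hker : (matV b x v).mulVec (coeffsOf b F) = 0 := (mulVec_eq_zero_iff hF _ v).mpr hord
  have h1 := rank_lt_of_ker hcoef0 hker
  have h2 := rank_le_of_good hv b x v₀
  obtain ⟨c, hc', hc''⟩ := exists_ker_of_rank_lt (lt_of_le_of_lt h2 h1)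
  exact hc' (hv₀ c hc'')

section Arith

lemma aux_exc (R β b : ℤ) (hR : 4 ≤ R) (hβ : 1 ≤ β) (h1 : (R - 1) * β ^ 2 ≤ b ^ 2 + β)
    (h2 : 200 ^ 2 * b ^ 2 ≤ R ^ 3) : 200 * β ≤ R + 2 := by
  by_contra hlt
  rw [not_le] at hlt
  have h3 : R + 3 ≤ 200 * β := by omega
  have h4 : (R + 3) ^ 2 ≤ (200 * β) ^ 2 := pow_le_pow_left₀ (by linarith) h3 2
  have h5 : β ≤ β ^ 2 := by nlinarith
  have h6 : (R - 2) * β ^ 2 ≤ b ^ 2 := by nlinarith
  have h7 : (R - 2) * (R + 3) ^ 2 ≤ (R - 2) * (200 * β) ^ 2 :=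
    mul_le_mul_of_nonneg_left h4 (by linarith)
  have h8 : 200 ^ 2 * ((R - 2) * β ^ 2) ≤ 200 ^ 2 * b ^ 2 :=
    mul_le_mul_of_nonneg_left h6 (by norm_num)
  nlinarith [mul_pos (show (0:ℤ) < R by linarith) (show (0:ℤ) < R by linarith)]

lemma aux_big (R β g b : ℤ) (hR : 4 ≤ R) (hβ : 1 ≤ β) (hg : 1 ≤ g)
    (hX : R * β ^ 2 + 2 * β * g + g ^ 2 ≤ b ^ 2 + β) (hb : (R + 3) * β ^ 2 ≤ b ^ 2) :
    (R * β + g) ^ 2 ≤ R * b ^ 2 := by
  have hR0 : 0 ≤ R := by linarith
  by_cases h : R * β ≤ (R - 1) * g ^ 2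
  · have h1 : R * (R * β ^ 2 + 2 * β * g + g ^ 2) ≤ R * (b ^ 2 + β) :=
      mul_le_mul_of_nonneg_left hX hR0
    nlinarith
  · rw [not_le] at h
    have hgβ : g ≤ β := by
      by_contra hlt
      have h1 : β + 1 ≤ g := by omega
      have h2 : (β + 1) ^ 2 ≤ g ^ 2 := pow_le_pow_left₀ (by linarith) h1 2
      have h3 : (R - 1) * (β + 1) ^ 2 ≤ (R - 1) * g ^ 2 :=
        mul_le_mul_of_nonneg_left h2 (by linarith)
      nlinarith
    have h1 : R * ((R + 3) * β ^ 2) ≤ R * b ^ 2 := mul_le_mul_of_nonneg_left hb hR0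
    have h2 : g ^ 2 ≤ β ^ 2 := pow_le_pow_left₀ (by linarith) hgβ 2
    have h3 : R * β * g ≤ R * β * β := mul_le_mul_of_nonneg_left hgβ (by positivity)
    nlinarith [sq_nonneg β]

lemma aux_small (R S β b : ℤ) (hR : 4 ≤ R) (hS0 : 0 ≤ S) (hS : S ≤ R * β) (hb : R * β ^ 2 ≤ b ^ 2) :
    S ^ 2 ≤ R * b ^ 2 := by
  have h1 : S ^ 2 ≤ (R * β) ^ 2 := pow_le_pow_left₀ hS0 hS 2
  have h2 : R * (R * β ^ 2) ≤ R * b ^ 2 := mul_le_mul_of_nonneg_left hb (by linarith)
  nlinarith

end Arith

section Main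

variable {v : Fin r → Fin 3 → ℂ}

/-- Nagata's inequality (not strict) for irreducible forms of low degree. -/
theorem irr_nagata (hv : Good v) (hp : ∀ i, v i 2 ≠ 0)
    (hsep : ∀ i j, i ≠ j → v i 0 * v j 2 ≠ v j 0 * v i 2) (hr : 4 ≤ r) {F : A3} {b : ℕ}
    (hFi : Irreducible F) (hF : F.IsHomogeneous b) {x : Fin r → ℕ}
    (hx : ∀ i, ExactOrd (psi (v i) F) (x i)) (hb : 200 ^ 2 * (b : ℤ) ^ 2 ≤ (r : ℤ) ^ 3) :
    (∑ i, (x i : ℤ)) ^ 2 ≤ (r : ℤ) * (b : ℤ) ^ 2 := by
  classical
  have hord : ∀ i, OrdGe (psi (v i) F) (x i) := fun i => (hx i).1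
  have hF0 := hFi.ne_zero
  have hRZ : (4 : ℤ) ≤ r := by exact_mod_cast hr
  have hxu := xu_ineq hv hp hsep hFi hF hx
  rcases pairs_or_almost_constant hr x with ⟨a, b', c, d, hab, hcd, hac, had, hbc, hbd⟩ | ⟨j, β, hall⟩
  · have h1 := pairs_arith x (b * b) (perm_ineq hv hp hsep hFi hF hx) hab hcd hac had hbc hbd
    have h2 : (((∑ i, x i) ^ 2 : ℕ) : ℤ) ≤ ((r * (b * b) : ℕ) : ℤ) := by exact_mod_cast h1
    push_cast at h2
    rw [sq (b : ℤ)]
    exact h2
  · -- almost constant multiplicities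
    set α := x j with hα
    have hcard : ((Finset.univ.erase j).card : ℤ) = (r : ℤ) - 1 := by
      rw [Finset.card_erase_of_mem (Finset.mem_univ _), Finset.card_univ, Fintype.card_fin]
      omega
    have hsum : ∀ f : ℕ → ℤ, ∑ i, f (x i) = f α + ((r : ℤ) - 1) * f β := by
      intro f
      rw [← Finset.add_sum_erase Finset.univ _ (Finset.mem_univ j)]
      have : ∀ i ∈ Finset.univ.erase j, f (x i) = f β := by
        intro i hi
        rw [hall i (Finset.mem_erase.mp hi).1]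
      rw [Finset.sum_congr rfl this, Finset.sum_const, nsmul_eq_mul, hcard]
    have hS : ∑ i, (x i : ℤ) = α + ((r : ℤ) - 1) * β := hsum (fun n => (n : ℤ))
    have hX : ∑ i, (x i : ℤ) ^ 2 = (α : ℤ) ^ 2 + ((r : ℤ) - 1) * (β : ℤ) ^ 2 :=
      hsum (fun n => (n : ℤ) ^ 2)
    have hxuZ : ∀ i, 1 ≤ x i → (α : ℤ) ^ 2 + ((r : ℤ) - 1) * (β : ℤ) ^ 2 ≤ (b : ℤ) ^ 2 + x i := by
      intro i hi
      rw [← hX, ← cast_sum_sq]
      have : ((∑ i, x i * x i : ℕ) : ℤ) ≤ ((b * b + x i : ℕ) : ℤ) := by exact_mod_cast hxu i hi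
      rw [Nat.cast_add, Nat.cast_mul] at this
      rw [sq (b : ℤ)]
      exact this
    rcases Nat.eq_zero_or_pos β with hβ0 | hβpos
    · -- only one point has positive multiplicity
      rw [hS, hβ0]
      simp only [Nat.cast_zero, mul_zero, add_zero]
      rcases Nat.eq_zero_or_pos α with hα0 | hαpos
      · rw [hα0]
        simp
        positivity
      · have h1 := hxuZ j hαpos
        rw [hβ0, ← hα] at h1
        simp only [Nat.cast_zero, ne_eq, OfNat.ofNat_ne_zero, not_false_eq_true, zero_pow, mul_zero,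
          add_zero] at h1
        have hαb : (α : ℤ) ≤ b := by
          by_contra hlt
          rw [not_le] at hlt
          have hb0 : 1 ≤ (b : ℤ) := by exact_mod_cast degree_pos_of_irreducible hFi hF
          nlinarith
        have h2 : (α : ℤ) ^ 2 ≤ (b : ℤ) ^ 2 := pow_le_pow_left₀ (by positivity) hαb 2
        nlinarith [sq_nonneg (b : ℤ)]
    · have hβZ : (1 : ℤ) ≤ β := by exact_mod_cast hβpos
      -- some other index
      obtain ⟨i₀, hi₀⟩ : ∃ i₀ : Fin r, i₀ ≠ j := by
        by_contra hno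
        push Not at hno
        have h0 : (⟨0, by omega⟩ : Fin r) = j := hno _
        have h1 : (⟨1, by omega⟩ : Fin r) = j := hno _
        have := h0.trans h1.symm
        simp [Fin.ext_iff] at this
      have hxi₀ : x i₀ = β := hall i₀ hi₀
      have hX1 := hxuZ i₀ (by omega)
      rw [hxi₀] at hX1
      have h200Z : 200 * (β : ℤ) ≤ (r : ℤ) + 2 := by
        apply aux_exc _ _ (b : ℤ) hRZ hβZ _ hb
        nlinarith [sq_nonneg (α : ℤ)]
      have h200 : 200 * β ≤ r + 2 := by exact_mod_cast h200Z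
      by_cases hαβ : β ≤ α
      · -- all multiplicities at least `β`
        obtain ⟨W, K, hc, hK, hW⟩ := exists_cov_margin (n := r + 3) (m := β) hβpos (by omega)
        have hWb := bound_of_cov hv hF hF0 hord hc Finset.univ
          (by rw [Finset.card_univ, Fintype.card_fin]; omega)
          (by
            intro i _
            by_cases hi : i = j
            · rw [hi]; exact hαβ
            · rw [hall i hi])
        have hb2 : ((r : ℤ) + 3) * (β : ℤ) ^ 2 ≤ (b : ℤ) ^ 2 := by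
          have h1 : (r + 3) * β ^ 2 ≤ W ^ 2 := hW.le
          have h2 : W ^ 2 ≤ b ^ 2 := Nat.pow_le_pow_left hWb 2
          have h3 : (r + 3) * β ^ 2 ≤ b ^ 2 := le_trans h1 h2
          exact_mod_cast h3
        obtain ⟨g, hg⟩ : ∃ g, α = β + g := ⟨α - β, by omega⟩
        have hgZ : (α : ℤ) = β + g := by rw [hg]; push_cast; ring
        rw [hS, hgZ]
        have e : ((β : ℤ) + g + ((r : ℤ) - 1) * β) = (r : ℤ) * β + g := by ring
        rw [e]
        rcases Nat.eq_zero_or_pos g with hg0 | hgpos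
        · rw [hg0]
          simp only [Nat.cast_zero, add_zero]
          exact aux_small _ _ _ _ hRZ (by positivity) (le_refl _) (by nlinarith [sq_nonneg (β : ℤ)])
        · apply aux_big _ _ _ _ hRZ hβZ (by exact_mod_cast hgpos) _ hb2
          rw [hgZ] at hX1
          nlinarith
      · -- one multiplicity below `β`
        rw [not_le] at hαβ
        obtain ⟨W, K, hc, hK, hW⟩ := exists_cov_margin (n := r + 2) (m := β) hβpos h200
        have hWb := bound_of_cov hv hF hF0 hord hc (Finset.univ.erase j)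
          (by
            rw [Finset.card_erase_of_mem (Finset.mem_univ _), Finset.card_univ, Fintype.card_fin]
            omega)
          (by
            intro i hi
            rw [hall i (Finset.mem_erase.mp hi).1])
        have hb2 : ((r : ℤ) + 2) * (β : ℤ) ^ 2 ≤ (b : ℤ) ^ 2 := by
          have h1 : (r + 2) * β ^ 2 ≤ W ^ 2 := hW.le
          have h2 : W ^ 2 ≤ b ^ 2 := Nat.pow_le_pow_left hWb 2
          have h3 : (r + 2) * β ^ 2 ≤ b ^ 2 := le_trans h1 h2
          exact_mod_cast h3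
        apply aux_small _ _ (β : ℤ) _ hRZ (Finset.sum_nonneg (fun i _ => by positivity))
        · rw [hS]
          have : (α : ℤ) ≤ β := by exact_mod_cast hαβ.le
          linarith
        · nlinarith [sq_nonneg (β : ℤ)]

/-- Nagata's inequality (not strict) for all forms of low degree. -/
theorem all_nagata (hv : Good v) (hp : ∀ i, v i 2 ≠ 0)
    (hsep : ∀ i j, i ≠ j → v i 0 * v j 2 ≠ v j 0 * v i 2) (hr : 4 ≤ r) (F : A3) (hF0 : F ≠ 0) :
    ∀ (d : ℕ) (m : Fin r → ℕ), F.IsHomogeneous d → 200 ^ 2 * (d : ℤ) ^ 2 ≤ (r : ℤ) ^ 3 →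
      (∀ i, OrdGe (psi (v i) F) (m i)) → (∑ i, (m i : ℤ)) ^ 2 ≤ (r : ℤ) * (d : ℤ) ^ 2 := by
  classical
  induction F using WfDvdMonoid.induction_on_irreducible with
  | zero => exact absurd rfl hF0
  | unit u hu =>
    intro d m hd _ hm
    have hall : ∀ i, m i = 0 := by
      intro i
      by_contra hne
      obtain ⟨w, hw⟩ := hu.exists_right_inv
      have h1 : OrdGe (psi (v i) (u * w)) (m i) := by
        rw [map_mul (psi (v i))]
        exact (hm i).mul_right _
      rw [hw, map_one] at h1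
      have := h1 0 (by simp; omega)
      simp at this
    simp only [hall, Nat.cast_zero, Finset.sum_const_zero]
    have : (0 : ℤ) ≤ (r : ℤ) * (d : ℤ) ^ 2 := by positivity
    simpa using this
  | mul a f ha hf ih =>
    intro d m hd hdeg hm
    have hf0 := hf.ne_zero
    obtain ⟨b, d', hfb, had, hsum⟩ := isHomogeneous_of_mul hd hf0 ha
    have hbd : (b : ℤ) ≤ d := by
      rw [← hsum]
      push_cast
      linarith [Int.natCast_nonneg d']
    have hd'd : (d' : ℤ) ≤ d := by
      rw [← hsum]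
      push_cast
      linarith [Int.natCast_nonneg b]
    have hb2 : 200 ^ 2 * (b : ℤ) ^ 2 ≤ (r : ℤ) ^ 3 := by
      have : (b : ℤ) ^ 2 ≤ (d : ℤ) ^ 2 := pow_le_pow_left₀ (by positivity) hbd 2
      linarith
    have hd'2 : 200 ^ 2 * (d' : ℤ) ^ 2 ≤ (r : ℤ) ^ 3 := by
      have : (d' : ℤ) ^ 2 ≤ (d : ℤ) ^ 2 := pow_le_pow_left₀ (by positivity) hd'd 2
      linarith
    have hex : ∀ i, ∃ x, ExactOrd (psi (v i) f) x := fun i =>
      exists_exactOrd (psi_ne_zero hfb hf0 (hp i))
    choose x hx using hex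
    have hirr := irr_nagata hv hp hsep hr hf hfb hx hb2
    have hcancel : ∀ i, OrdGe (psi (v i) a) (m i - x i) := by
      intro i
      apply (hx i).cancel
      rw [← map_mul (psi (v i))]
      by_cases hle : m i ≤ x i
      · have : x i + (m i - x i) = x i := by omega
        rw [this, map_mul (psi (v i))]
        exact (hx i).1.mul_right _
      · have : x i + (m i - x i) = m i := by omega
        rw [this]
        exact hm i
    have hrest := ih ha d' (fun i => m i - x i) had hd'2 hcancel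
    have hirr' : (1 : ℤ) * (∑ i, (x i : ℤ)) ^ 2 ≤ (r : ℤ) * (b : ℤ) ^ 2 := by linarith
    have hrest' : (1 : ℤ) * (∑ i, ((m i - x i : ℕ) : ℤ)) ^ 2 ≤ (r : ℤ) * (d' : ℤ) ^ 2 := by linarith
    have hadd := quad_add (by positivity)
      (Finset.sum_nonneg (fun i _ => by positivity)) (Finset.sum_nonneg (fun i _ => by positivity))
      (by positivity) (by positivity) hirr' hrest'
    have hST : ∑ i, (m i : ℤ) ≤ ∑ i, (x i : ℤ) + ∑ i, ((m i - x i : ℕ) : ℤ) := by
      rw [← Finset.sum_add_distrib]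
      apply Finset.sum_le_sum
      intro i _
      have : m i ≤ x i + (m i - x i) := by omega
      exact_mod_cast this
    have hfinal := quad_mono (by positivity) (Finset.sum_nonneg (fun i _ => by positivity)) hST hadd
    have hdcast : (b : ℤ) + d' = d := by
      rw [← hsum]
      push_cast
      ring
    rw [hdcast] at hfinal
    linarith

end Main

end Vale.Agent.Lib.P279
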