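import Vale.Agent.Lib.P279.Strip

namespace Vale.Agent.Lib.P279

lemma Cov.mono_W {m W K : ℕ} (h : Cov m W K) : ∀ {W' : ℕ}, W' ≤ W → Cov m W' K := by
  induction h with
  | base =>
    intro W' hW'
    have : W' = 0 := by omega
    subst this
    exact Cov.base
  | step n h' hh hW _ ih =>
    intro W' hW'
    exact Cov.step n h' hh (le_trans hW' hW) (ih (by omega))

lemma Cov.mono_K {m W K : ℕ} (h : Cov m W K) (j : ℕ) : Cov m W (K + j) := by
  induction h with
  | base =>
    exact Cov.step j 0 (Nat.zero_le _) (Nat.zero_le _) Cov.base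
  | @step W K n h' hh hW _ ih =>
    have : K + n + j = (K + j) + n := by ring
    rw [this]
    exact Cov.step n h' hh hW ih

lemma Cov.fwd {m W K : ℕ} (hc : Cov m W K) (n h : ℕ) (hh : h ≤ m) (hW : W + h ≤ cap m h n) :
    Cov m (W + h) (K + n) :=
  Cov.step n h hh hW (by simpa using hc)

lemma cap_odd (m h v : ℕ) : cap m h (2 * v + 1) = (v + 1) * m + v * (m + 1 - h) := by
  unfold cap
  have h1 : (2 * v + 1 + 1) / 2 = v + 1 := by omega
  have h2 : (2 * v + 1) / 2 = v := by omega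
  rw [h1, h2]

/-- The basic move: from level `v` with excess `z` to level `v+1` with excess `z'`. -/
lemma Cov.stepZ {m v z z' K : ℕ} (h : Cov m (v * m + z) K) (h1 : z' ≤ z)
    (h2 : (v + 1) * z' ≤ v * (z + 1)) : Cov m ((v + 1) * m + z') (K + (2 * v + 1)) := by
  by_cases hδ : z - z' ≤ m
  · obtain ⟨δ, rfl⟩ : ∃ δ, z = z' + δ := ⟨z - z', by omega⟩
    have hδ' : δ ≤ m := by omega
    have hh : m - δ ≤ m := Nat.sub_le _ _
    have hW : (v * m + (z' + δ)) + (m - δ) ≤ cap m (m - δ) (2 * v + 1) := by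
      rw [cap_odd]
      have e1 : m + 1 - (m - δ) = δ + 1 := by omega
      rw [e1]
      have e2 : z' ≤ v * (δ + 1) := by nlinarith
      have e3 : (v * m + (z' + δ)) + (m - δ) = (v + 1) * m + z' := by
        have : δ + (m - δ) = m := by omega
        calc (v * m + (z' + δ)) + (m - δ) = v * m + z' + (δ + (m - δ)) := by ring
          _ = v * m + z' + m := by rw [this]
          _ = (v + 1) * m + z' := by ring
      omega
    have := Cov.fwd h (2 * v + 1) (m - δ) hh hW
    have e3 : (v * m + (z' + δ)) + (m - δ) = (v + 1) * m + z' := by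
      have : δ + (m - δ) = m := by omega
      calc (v * m + (z' + δ)) + (m - δ) = v * m + z' + (δ + (m - δ)) := by ring
        _ = v * m + z' + m := by rw [this]
        _ = (v + 1) * m + z' := by ring
    rwa [e3] at this
  · have hle : (v + 1) * m + z' ≤ v * m + z := by
      have : (v + 1) * m = v * m + m := by ring
      omega
    exact (h.mono_K _).mono_W hle

/-- The sequence of full levels: `j²` pieces give width `j m`. -/
lemma Cov_levels (m j : ℕ) : Cov m (j * m) (j ^ 2) := by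
  induction j with
  | zero => simpa using Cov.base
  | succ j ih =>
    have h0 : Cov m (j * m + 0) (j ^ 2) := by simpa using ih
    have := Cov.stepZ h0 (le_refl 0) (by simp)
    have e : (j + 1) ^ 2 = j ^ 2 + (2 * j + 1) := by ring
    rw [e]
    simpa using this

/-- The crude path: after a jump to excess `z₀` at level `v₀`, the invariants `Z ≤ z` and
`v₀ z₀ ≤ v z` can be kept at all later levels, provided `Z (Z+1) ≤ v₀ z₀`. -/
lemma crude_path {m v₀ z₀ K₀ Z : ℕ} (hv : 1 ≤ v₀) (h : Cov m (v₀ * m + z₀) K₀) (hZ1 : Z ≤ z₀)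
    (hZ2 : Z * (Z + 1) ≤ v₀ * z₀) :
    ∀ j, ∃ z, Cov m ((v₀ + j) * m + z) (K₀ + j * (2 * v₀ + j)) ∧ Z ≤ z ∧ v₀ * z₀ ≤ (v₀ + j) * z := by
  intro j
  induction j with
  | zero => exact ⟨z₀, by simpa using h, hZ1, by simp⟩
  | succ j ih =>
    obtain ⟨z, hc, hz1, hz2⟩ := ih
    set v := v₀ + j with hvdef
    set I := v₀ * z₀ with hI
    have hv1 : 1 ≤ v := by omega
    let c := (I + v) / (v + 1)
    have hc1 : (v + 1) * c ≤ I + v := Nat.mul_div_le _ _
    have hc2 : I ≤ (v + 1) * c := by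
      have := Nat.lt_mul_div_succ (I + v) (Nat.succ_pos v)
      have e : (v + 1) * ((I + v) / (v + 1) + 1) = (v + 1) * c + (v + 1) := by
        simp only [c]; ring
      simp only [Nat.succ_eq_add_one] at this
      omega
    have hcz : c ≤ z := by
      by_contra hlt
      have hlt' : z + 1 ≤ c := by omega
      have : (v + 1) * (z + 1) ≤ (v + 1) * c := Nat.mul_le_mul_left _ hlt'
      nlinarith
    refine ⟨max c Z, ?_, le_max_right _ _, ?_⟩
    · have hstep : Cov m ((v + 1) * m + max c Z) ((K₀ + j * (2 * v₀ + j)) + (2 * v + 1)) := by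
        apply Cov.stepZ hc (max_le hcz hz1)
        rcases le_total c Z with hcZ | hcZ
        · rw [max_eq_right hcZ]
          -- here `Z ≤ v`
          have hZv : Z ≤ v := by
            by_contra hlt
            have hlt' : v + 1 ≤ Z := by omega
            have h3 : Z * (v + 1 + 1) ≤ Z * (Z + 1) := Nat.mul_le_mul_left _ (by omega)
            have h4 : (v + 1) * c ≤ (v + 1) * Z := Nat.mul_le_mul_left _ hcZ
            rcases Nat.eq_zero_or_pos Z with h0 | hpos
            · omega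
            · nlinarith
          nlinarith
        · rw [max_eq_left hcZ]
          nlinarith
      have e1 : v₀ + (j + 1) = v + 1 := by omega
      have e2 : K₀ + (j + 1) * (2 * v₀ + (j + 1)) = (K₀ + j * (2 * v₀ + j)) + (2 * v + 1) := by
        rw [hvdef]; ring
      rw [e1, e2]
      exact hstep
    · have e1 : v₀ + (j + 1) = v + 1 := by omega
      rw [e1]
      calc I ≤ (v + 1) * c := hc2
        _ ≤ (v + 1) * max c Z := Nat.mul_le_mul_left _ (le_max_left _ _)

/-- The line path: the excess can follow the upper envelope of the lines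
`v ↦ B n + n + 1 - n v`. -/
lemma lines_path {m v₀ z₀ K₀ N n₀ : ℕ} (B : ℕ → ℕ)
    (hB : ∀ n, n₀ ≤ n → n < N → B n + B n / (2 * n + 1) ≤ B (n + 1))
    (htop : B N < (2 * N + 1) * v₀)
    (hstart : ∀ n, n₀ ≤ n → n ≤ N → B n + n + 1 ≤ z₀ + n * v₀)
    (h : Cov m (v₀ * m + z₀) K₀) :
    ∀ j n, n₀ ≤ n → n ≤ N → ∀ z, z + n * (v₀ + j) = B n + n + 1 →
      Cov m ((v₀ + j) * m + z) (K₀ + j * (2 * v₀ + j)) := by
  intro j
  induction j with
  | zero =>
    intro n hn hnN z hz
    have hz' : z ≤ z₀ := by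
      have := hstart n hn hnN
      simp only [add_zero] at hz
      omega
    have : v₀ * m + z ≤ v₀ * m + z₀ := by omega
    simpa using h.mono_W this
  | succ j ih =>
    -- downward induction on `n`
    have key : ∀ d n, N - n = d → n₀ ≤ n → n ≤ N → ∀ z, z + n * (v₀ + (j + 1)) = B n + n + 1 →
        Cov m ((v₀ + (j + 1)) * m + z) (K₀ + (j + 1) * (2 * v₀ + (j + 1))) := by
      intro d
      induction d with
      | zero =>
        intro n hd hn hnN z hz
        have hnN' : n = N := by omega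
        subst hnN'
        set v := v₀ + j with hvdef
        have hvv : v₀ + (j + 1) = v + 1 := by omega
        rw [hvv] at hz ⊢
        have hC : B n + 1 ≤ (2 * n + 1) * v := by
          have : (2 * n + 1) * v₀ ≤ (2 * n + 1) * v := Nat.mul_le_mul_left _ (by omega)
          omega
        have hprev := ih n hn (le_refl _) (z + n) (by nlinarith)
        have hs := Cov.stepZ (z' := z) hprev (by omega) (by nlinarith)
        have e2 : K₀ + (j + 1) * (2 * v₀ + (j + 1)) = (K₀ + j * (2 * v₀ + j)) + (2 * v + 1) := by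
          rw [hvdef]; ring
        rw [e2]
        exact hs
      | succ d ihd =>
        intro n hd hn hnN z hz
        set v := v₀ + j with hvdef
        have hvv : v₀ + (j + 1) = v + 1 := by omega
        by_cases hC : B n + 1 ≤ (2 * n + 1) * v
        · rw [hvv] at hz ⊢
          have hprev := ih n hn hnN (z + n) (by nlinarith)
          have hs := Cov.stepZ (z' := z) hprev (by omega) (by nlinarith)
          have e2 : K₀ + (j + 1) * (2 * v₀ + (j + 1)) = (K₀ + j * (2 * v₀ + j)) + (2 * v + 1) := by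
            rw [hvdef]; ring
          rw [e2]
          exact hs
        · have hnN' : n < N := by omega
          have hdiv : v ≤ B n / (2 * n + 1) := by
            rw [Nat.le_div_iff_mul_le (by omega)]
            have : (2 * n + 1) * v ≤ B n := by omega
            nlinarith
          have hBn := hB n hn hnN'
          rw [hvv] at hz ⊢
          have hbig : (n + 1) * (v + 1) ≤ B (n + 1) + (n + 1) + 1 := by nlinarith
          have hz2 : (B (n + 1) + (n + 1) + 1 - (n + 1) * (v + 1)) + (n + 1) * (v₀ + (j + 1)) =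
              B (n + 1) + (n + 1) + 1 := by
            rw [hvv]; omega
          have hnext := ihd (n + 1) (by omega) (by omega) (by omega) _ hz2
          rw [hvv] at hnext
          refine hnext.mono_W ?_
          have : z ≤ B (n + 1) + (n + 1) + 1 - (n + 1) * (v + 1) := by
            have : z + (n + 1) * (v + 1) ≤ B (n + 1) + (n + 1) + 1 := by nlinarith
            omega
          omega
    intro n hn hnN z hz
    exact key (N - n) n rfl hn hnN z hz

/-- The recursion of the intercepts. -/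
def lineSeq (n₀ B₀ : ℕ) : ℕ → ℕ
  | 0 => B₀
  | i + 1 => lineSeq n₀ B₀ i + lineSeq n₀ B₀ i / (2 * (n₀ + i) + 1)

lemma lineSeq_bound (n₀ B₀ i : ℕ) :
    (4 * n₀ + 1) * (lineSeq n₀ B₀ i) ^ 2 ≤ (4 * (n₀ + i) + 1) * B₀ ^ 2 := by
  induction i with
  | zero => simp [lineSeq]
  | succ i ih =>
    set s := lineSeq n₀ B₀ i with hs
    set n := n₀ + i with hn
    have hs' : lineSeq n₀ B₀ (i + 1) = s + s / (2 * n + 1) := rfl
    rw [hs']
    set s' := s + s / (2 * n + 1) with hs'def
    have h1 : (2 * n + 1) * s' ≤ (2 * n + 2) * s := by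
      have : (2 * n + 1) * (s / (2 * n + 1)) ≤ s := Nat.mul_div_le _ _
      rw [hs'def]
      nlinarith
    have h2 : ((2 * n + 1) * s') ^ 2 ≤ ((2 * n + 2) * s) ^ 2 := Nat.pow_le_pow_left h1 2
    have e : 4 * (n₀ + (i + 1)) + 1 = 4 * n + 5 := by rw [hn]; ring
    rw [e]
    have hpos : 0 < (2 * n + 1) ^ 2 := by positivity
    apply Nat.le_of_mul_le_mul_left _ hpos
    calc (2 * n + 1) ^ 2 * ((4 * n₀ + 1) * s' ^ 2)
        = (4 * n₀ + 1) * ((2 * n + 1) * s') ^ 2 := by ring
      _ ≤ (4 * n₀ + 1) * ((2 * n + 2) * s) ^ 2 := Nat.mul_le_mul_left _ h2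
      _ = (2 * n + 2) ^ 2 * ((4 * n₀ + 1) * s ^ 2) := by ring
      _ ≤ (2 * n + 2) ^ 2 * ((4 * n + 1) * B₀ ^ 2) := Nat.mul_le_mul_left _ ih
      _ ≤ (2 * n + 1) ^ 2 * ((4 * n + 5) * B₀ ^ 2) := by
          have : (2 * n + 2) ^ 2 * (4 * n + 1) ≤ (2 * n + 1) ^ 2 * (4 * n + 5) := by nlinarith
          calc (2 * n + 2) ^ 2 * ((4 * n + 1) * B₀ ^ 2)
              = ((2 * n + 2) ^ 2 * (4 * n + 1)) * B₀ ^ 2 := by ring
            _ ≤ ((2 * n + 1) ^ 2 * (4 * n + 5)) * B₀ ^ 2 := Nat.mul_le_mul_right _ this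
            _ = (2 * n + 1) ^ 2 * ((4 * n + 5) * B₀ ^ 2) := by ring

/-- The envelope bound: `B n ≤ ζ + n τ`. -/
lemma lineSeq_le (τ κ ζ n₀ B₀ : ℕ) (hκ : τ + κ = 4 * ζ)
    (hB : 4 * B₀ ^ 2 ≤ (4 * n₀ + 1) * (τ * κ)) (i : ℕ) :
    lineSeq n₀ B₀ i ≤ ζ + (n₀ + i) * τ := by
  set s := lineSeq n₀ B₀ i with hs
  set n := n₀ + i with hn
  have h1 : (4 * n₀ + 1) * s ^ 2 ≤ (4 * n + 1) * B₀ ^ 2 := lineSeq_bound n₀ B₀ i
  have h2 : 4 * s ^ 2 ≤ (4 * n + 1) * (τ * κ) := by
    have hpos : 0 < 4 * n₀ + 1 := by omega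
    apply Nat.le_of_mul_le_mul_left _ hpos
    calc (4 * n₀ + 1) * (4 * s ^ 2) = 4 * ((4 * n₀ + 1) * s ^ 2) := by ring
      _ ≤ 4 * ((4 * n + 1) * B₀ ^ 2) := Nat.mul_le_mul_left _ h1
      _ = (4 * n + 1) * (4 * B₀ ^ 2) := by ring
      _ ≤ (4 * n + 1) * ((4 * n₀ + 1) * (τ * κ)) := Nat.mul_le_mul_left _ hB
      _ = (4 * n₀ + 1) * ((4 * n + 1) * (τ * κ)) := by ring
  -- AM-GM
  by_contra hlt
  have hlt' : ζ + n * τ + 1 ≤ s := by omega
  have h3 : (ζ + n * τ + 1) ^ 2 ≤ s ^ 2 := Nat.pow_le_pow_left hlt' 2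
  have h4 : (4 * n + 1) * (τ * κ) * 4 ≤ (4 * (ζ + n * τ)) ^ 2 := by
    have e : 4 * (ζ + n * τ) = (4 * n + 1) * τ + κ := by
      have : 4 * (ζ + n * τ) = 4 * ζ + 4 * n * τ := by ring
      rw [this, ← hκ]; ring
    rw [e]
    have : (((4 * n + 1) * τ : ℕ) : ℤ) = (4 * n + 1) * τ := by push_cast; ring
    zify
    nlinarith [sq_nonneg (((4 * n + 1) * τ : ℤ) - κ)]
  nlinarith

/-- Summary of the line path, in terms of `τ = v₀ - 1`, `ζ = z₀ - 1`. -/
theorem lines_main {m τ κ ζ K₀ n₀ B₀ : ℕ} (hκ : τ + κ = 4 * ζ)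
    (hB : 4 * B₀ ^ 2 ≤ (4 * n₀ + 1) * (τ * κ))
    (h : Cov m ((τ + 1) * m + (ζ + 1)) K₀) (j : ℕ) (hpos : n₀ * (τ + 1 + j) ≤ B₀ + n₀ + 1) :
    Cov m ((τ + 1 + j) * m + (B₀ + n₀ + 1 - n₀ * (τ + 1 + j)))
      (K₀ + j * (2 * (τ + 1) + j)) := by
  classical
  let N := n₀ + ζ
  let B : ℕ → ℕ := fun n => lineSeq n₀ B₀ (n - n₀)
  have hBle : ∀ n, n₀ ≤ n → B n ≤ ζ + n * τ := by
    intro n hn
    have := lineSeq_le τ κ ζ n₀ B₀ hκ hB (n - n₀)
    have e : n₀ + (n - n₀) = n := by omega
    rwa [e] at this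
  refine lines_path (z₀ := ζ + 1) (v₀ := τ + 1) (N := N) (n₀ := n₀) B ?_ ?_ ?_ h j n₀ (le_refl _)
    (by simp only [N]; omega) _ ?_
  · intro n hn _
    have e : n + 1 - n₀ = (n - n₀) + 1 := by omega
    have e2 : n₀ + (n - n₀) = n := by omega
    simp only [B, e, lineSeq, e2]
    exact le_refl _
  · have := hBle N (by simp only [N]; omega)
    have hN : ζ ≤ N := by simp only [N]; omega
    nlinarith
  · intro n hn _
    have := hBle n hn
    nlinarith
  · have : B n₀ = B₀ := by simp [B, lineSeq]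
    rw [this]
    omega

end Vale.Agent.Lib.P279
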