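import Vale.Agent.Lib.P279.Bezout

open Module

namespace Vale.Agent.Lib.P279

section RankLemmas

variable {ι κ : Type} [Fintype ι] [Fintype κ]

lemma exists_minor_of_rank (A : Matrix ι κ ℂ) :
    ∃ (φ : Fin A.rank → ι) (ψ : Fin A.rank → κ), (A.submatrix φ ψ).det ≠ 0 := by
  classical
  obtain ⟨f, hf, _, hfind⟩ := Submodule.exists_fun_fin_finrank_span_eq ℂ (Set.range A.col)
  have hcard : finrank ℂ (Submodule.span ℂ (Set.range A.col)) = A.rank :=
    (Matrix.rank_eq_finrank_span_cols A).symm
  let e : Fin A.rank ≃ Fin (finrank ℂ (Submodule.span ℂ (Set.range A.col))) := finCongr hcard.symm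
  choose ψ' hψ' using hf
  let ψ : Fin A.rank → κ := fun l => ψ' (e l)
  have hind : LinearIndependent ℂ (fun l : Fin A.rank => A.col (ψ l)) := by
    have : (fun l : Fin A.rank => A.col (ψ l)) = f ∘ e := by
      funext l
      exact hψ' (e l)
    rw [this]
    exact hfind.comp _ e.injective
  have hker : ∀ x, (A.submatrix id ψ).mulVec x = 0 → x = 0 := by
    intro x hx
    have h1 := Fintype.linearIndependent_iff.mp hind x (by
      funext i
      have := congrFun hx i
      simp only [Matrix.mulVec, dotProduct, Matrix.submatrix_apply, id, Pi.zero_apply] at this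
      simp only [Finset.sum_apply, Pi.smul_apply, smul_eq_mul, Matrix.col_apply, Pi.zero_apply]
      rw [← this]
      apply Finset.sum_congr rfl
      intro l _
      ring)
    funext l
    exact h1 l
  obtain ⟨φ, hφ⟩ := exists_minor _ hker
  exact ⟨φ, ψ, by simpa using hφ⟩

lemma le_rank_of_minor {n : ℕ} (A : Matrix ι κ ℂ) (φ : Fin n → ι) (ψ : Fin n → κ)
    (h : (A.submatrix φ ψ).det ≠ 0) : n ≤ A.rank := by
  classical
  have hind : LinearIndependent ℂ (fun l : Fin n => A.col (ψ l)) := by
    rw [Fintype.linearIndependent_iff]
    intro x hx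
    have h1 : (A.submatrix φ ψ).mulVec x = 0 := by
      funext l
      have := congrFun hx (φ l)
      simp only [Finset.sum_apply, Pi.smul_apply, smul_eq_mul, Matrix.col_apply, Pi.zero_apply] at this
      simp only [Matrix.mulVec, dotProduct, Matrix.submatrix_apply, Pi.zero_apply]
      rw [← this]
      apply Finset.sum_congr rfl
      intro l' _
      ring
    have h2 := Matrix.eq_zero_of_mulVec_eq_zero h h1
    intro l
    exact congrFun h2 l
  have h3 := finrank_span_eq_card hind
  rw [Fintype.card_fin] at h3
  rw [Matrix.rank_eq_finrank_span_cols, ← h3]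
  apply Submodule.finrank_mono
  apply Submodule.span_mono
  rintro _ ⟨l, rfl⟩
  exact ⟨ψ l, rfl⟩

omit [Fintype ι] in
lemma exists_ker_of_rank_lt [DecidableEq κ] {A : Matrix ι κ ℂ} (h : A.rank < Fintype.card κ) :
    ∃ c : κ → ℂ, c ≠ 0 ∧ A.mulVec c = 0 := by
  by_contra hcon
  push Not at hcon
  have hinj : Function.Injective A.mulVecLin := by
    rw [← LinearMap.ker_eq_bot, LinearMap.ker_eq_bot']
    intro x hx
    by_contra hne
    exact hcon x hne hx
  have := LinearMap.finrank_range_of_inj hinj
  rw [Module.finrank_fintype_fun_eq_card] at this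
  have h2 : A.rank = Fintype.card κ := this
  omega

omit [Fintype ι] in
lemma rank_lt_of_ker [DecidableEq κ] {A : Matrix ι κ ℂ} {c : κ → ℂ} (hc : c ≠ 0) (h : A.mulVec c = 0) :
    A.rank < Fintype.card κ := by
  have hrn := LinearMap.finrank_range_add_finrank_ker A.mulVecLin
  rw [Module.finrank_fintype_fun_eq_card] at hrn
  have hker : 0 < finrank ℂ (LinearMap.ker A.mulVecLin) := by
    rw [Module.finrank_pos_iff_exists_ne_zero]
    refine ⟨⟨c, by simpa using h⟩, ?_⟩
    intro h0
    exact hc (congrArg Subtype.val h0)
  have h2 : A.rank = finrank ℂ (LinearMap.range A.mulVecLin) := rfl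
  omega

open Polynomial in
/-- The first order deformation lemma. If the rank of a polynomial family of matrices is maximal
at parameter zero then every kernel vector at zero lifts to first order. -/
lemma first_order (A : Matrix ι κ ℂ[X])
    (hrank : ∀ t : ℂ, (A.map (Polynomial.eval t)).rank ≤ (A.map (Polynomial.eval 0)).rank)
    (c : κ → ℂ) (hc : (A.map (Polynomial.eval 0)).mulVec c = 0) :
    ∃ c' : κ → ℂ, (A.map (Polynomial.eval 0)).mulVec c' + (A.map (fun P => P.coeff 1)).mulVec c = 0 := by
  classical
  set A₀ := A.map (Polynomial.eval 0) with hA₀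
  set u := (A.map (fun P => P.coeff 1)).mulVec c with hu
  by_contra hcon
  push Not at hcon
  have hnot : u ∉ LinearMap.range A₀.mulVecLin := by
    rintro ⟨y, hy⟩
    apply hcon (-y)
    rw [Matrix.mulVec_neg]
    have : A₀.mulVec y = u := hy
    rw [this]
    simp
  -- a basis of the range
  set ρ := finrank ℂ (LinearMap.range A₀.mulVecLin) with hρ
  let bas := Module.finBasis ℂ (LinearMap.range A₀.mulVecLin)
  have hpre : ∀ l : Fin ρ, ∃ y : κ → ℂ, A₀.mulVec y = (bas l : ι → ℂ) := by
    intro l
    obtain ⟨y, hy⟩ := (bas l).2
    exact ⟨y, hy⟩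
  choose y hy using hpre
  -- the polynomial columns
  let P : ι → ℂ[X] := fun i => ∑ k, A i k * C (c k)
  let B : ι → Option (Fin ρ) → ℂ[X] := fun i o =>
    match o with
    | none => (P i).divX
    | some l => ∑ k, A i k * C (y l k)
  have hP0 : ∀ i, (P i).coeff 0 = 0 := by
    intro i
    have := congrFun hc i
    simp only [Matrix.mulVec, dotProduct, hA₀, Matrix.map_apply, Pi.zero_apply] at this
    rw [Polynomial.coeff_zero_eq_eval_zero]
    simp only [P, Polynomial.eval_finsetSum, Polynomial.eval_mul, Polynomial.eval_C]
    exact this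
  have hB0none : ∀ i, (B i none).eval 0 = u i := by
    intro i
    simp only [B]
    rw [← Polynomial.coeff_zero_eq_eval_zero, Polynomial.coeff_divX]
    simp only [P, hu, Matrix.mulVec, dotProduct, Matrix.map_apply, Polynomial.finsetSum_coeff,
      Polynomial.coeff_mul_C]
  have hB0some : ∀ i l, (B i (some l)).eval 0 = A₀.mulVec (y l) i := by
    intro i l
    simp only [B, Matrix.mulVec, dotProduct, hA₀, Matrix.map_apply, Polynomial.eval_finsetSum,
      Polynomial.eval_mul, Polynomial.eval_C]
  have h0 : ∀ d : Option (Fin ρ) → ℂ, (∀ i, ∑ w ∈ Finset.univ, d w * (B i w).eval 0 = 0) →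
      ∀ w ∈ Finset.univ, d w = 0 := by
    intro d hd
    have hsum : ∀ i, d none * u i + ∑ l, d (some l) * (bas l : ι → ℂ) i = 0 := by
      intro i
      have := hd i
      rw [Fintype.sum_option] at this
      rw [hB0none] at this
      simp only [hB0some, hy] at this
      exact this
    have hnone : d none = 0 := by
      by_contra hne
      apply hnot
      have heq : u = ∑ l, (-(d (some l)) / d none) • ((bas l : ι → ℂ)) := by
        funext i
        have := hsum i
        simp only [Finset.sum_apply, Pi.smul_apply, smul_eq_mul]
        have h2 : ∑ l, (-(d (some l)) / d none) * (bas l : ι → ℂ) i =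
            -(∑ l, d (some l) * (bas l : ι → ℂ) i) / d none := by
          rw [neg_div, Finset.sum_div, ← Finset.sum_neg_distrib]
          apply Finset.sum_congr rfl
          intro l _
          field_simp
        rw [h2]
        field_simp
        linear_combination this
      rw [heq]
      apply Submodule.sum_mem
      intro l _
      exact Submodule.smul_mem _ _ (bas l).2
    have hsome : ∀ l, d (some l) = 0 := by
      have hind := bas.linearIndependent
      rw [Fintype.linearIndependent_iff] at hind
      apply hind
      apply Subtype.ext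
      funext i
      have := hsum i
      rw [hnone, zero_mul, zero_add] at this
      simp only [Submodule.coe_sum, Submodule.coe_smul, Finset.sum_apply, Pi.smul_apply, smul_eq_mul,
        Submodule.coe_zero, Pi.zero_apply]
      exact this
    intro w _
    cases w with
    | none => exact hnone
    | some l => exact hsome l
  obtain ⟨t, ht0, ht⟩ := exists_eval_indep Finset.univ B h0
  -- the columns at `t` lie in the range of `A` at `t`
  set At := A.map (Polynomial.eval t) with hAt
  let col : Option (Fin ρ) → (ι → ℂ) := fun o i => (B i o).eval t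
  have hcolnone : col none = At.mulVec (t⁻¹ • c) := by
    funext i
    simp only [col, B]
    have hexp := Polynomial.divX_mul_X_add (P i)
    have hev := congrArg (Polynomial.eval t) hexp
    simp only [Polynomial.eval_add, Polynomial.eval_mul, Polynomial.eval_X, Polynomial.eval_C, hP0 i,
      add_zero] at hev
    have hPt : (P i).eval t = At.mulVec c i := by
      simp only [P, hAt, Matrix.mulVec, dotProduct, Matrix.map_apply, Polynomial.eval_finsetSum,
        Polynomial.eval_mul, Polynomial.eval_C]
    rw [Matrix.mulVec_smul, Pi.smul_apply, smul_eq_mul, ← hPt, ← hev]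
    field_simp
  have hcolsome : ∀ l, col (some l) = At.mulVec (y l) := by
    intro l
    funext i
    simp only [col, B, hAt, Matrix.mulVec, dotProduct, Matrix.map_apply, Polynomial.eval_finsetSum,
      Polynomial.eval_mul, Polynomial.eval_C]
  have hcolind : LinearIndependent ℂ col := by
    rw [Fintype.linearIndependent_iff]
    intro d hd w
    apply ht d _ w (Finset.mem_univ _)
    intro i
    have := congrFun hd i
    simpa [col] using this
  have hlow := finrank_span_eq_card hcolind
  rw [Fintype.card_option, Fintype.card_fin] at hlow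
  have hsub : Submodule.span ℂ (Set.range col) ≤ LinearMap.range At.mulVecLin := by
    rw [Submodule.span_le]
    rintro _ ⟨o, rfl⟩
    cases o with
    | none => exact ⟨t⁻¹ • c, hcolnone.symm⟩
    | some l => exact ⟨y l, (hcolsome l).symm⟩
  have h1 := Submodule.finrank_mono hsub
  rw [hlow] at h1
  have h2 : At.rank ≤ A₀.rank := hrank t
  have h3 : At.rank = finrank ℂ (LinearMap.range At.mulVecLin) := rfl
  have h4 : A₀.rank = ρ := rfl
  omega

end RankLemmas

end Vale.Agent.Lib.P279
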