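import Vale.Agent.Lib.P279.Base

open Polynomial

namespace Vale.Agent.Lib.P279

/-- The character `(u,v) ↦ α^u β^v` of a point of the torus. -/
noncomputable def chi (p : ℂ × ℂ) (w : ℕ × ℕ) : ℂ := p.1 ^ w.1 * p.2 ^ w.2

/-- Functions on `S` are determined by the order `m` conditions at the points of `L`. -/
def IndepAt (m : ℕ) (S : Finset (ℕ × ℕ)) (L : Finset (ℂ × ℂ)) : Prop :=
  ∀ c : ℕ × ℕ → ℂ, (∀ p ∈ L, ∀ s t, s + t < m → ∑ w ∈ S, c w * (chi p w * tst s t w) = 0) →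
    ∀ w ∈ S, c w = 0

/-- `S` is resolved by at most `n` torus points at order `m`. -/
def EE (m : ℕ) (S : Finset (ℕ × ℕ)) (n : ℕ) : Prop :=
  ∃ L : Finset (ℂ × ℂ), L.card ≤ n ∧ (∀ p ∈ L, p.1 ≠ 0 ∧ p.2 ≠ 0) ∧ IndepAt m S L

lemma EE.mono_n {m : ℕ} {S : Finset (ℕ × ℕ)} {n n' : ℕ} (h : EE m S n) (hn : n ≤ n') :
    EE m S n' := by
  obtain ⟨L, hL, hL0, hL1⟩ := h
  exact ⟨L, hL.trans hn, hL0, hL1⟩

lemma EE.mono_set {m : ℕ} {S S' : Finset (ℕ × ℕ)} {n : ℕ} (h : EE m S n) (hS : S' ⊆ S) :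
    EE m S' n := by
  classical
  obtain ⟨L, hL, hL0, hL1⟩ := h
  refine ⟨L, hL, hL0, ?_⟩
  intro c hc w hw
  have := hL1 (fun w => if w ∈ S' then c w else 0) (by
    intro p hp s t hst
    rw [← Finset.sum_subset hS]
    · rw [← hc p hp s t hst]
      apply Finset.sum_congr rfl
      intro w hw
      simp [hw]
    · intro w _ hw'
      simp [hw']) w (hS hw)
  simpa [hw] using this

lemma EE_empty (m n : ℕ) : EE m ∅ n :=
  ⟨∅, by simp, by simp, by
    intro c _ w hw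
    simp at hw⟩

/-- Any staircase set is resolved by one point. -/
lemma EE_of_staircase (m : ℕ) (η : ℕ → ℕ) (X : ℕ → Finset ℕ) (ℓ : ℕ)
    (hη : ∀ i < ℓ, ∀ j < ℓ, η i = η j → i = j) (hX : ∀ i < ℓ, (X i).card + i ≤ m)
    (S : Finset (ℕ × ℕ)) (hS : ∀ w ∈ S, ∃ i < ℓ, w.2 = η i ∧ w.1 ∈ X i) : EE m S 1 := by
  refine ⟨{(1, 1)}, by simp, by simp, ?_⟩
  intro c hc
  apply staircase m η X ℓ hη hX S hS c
  apply annihilates_span
  intro s t hst
  have := hc (1, 1) (by simp) s t hst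
  simpa [chi] using this

/-- Scaling a torus point by a one parameter subgroup. -/
noncomputable def scalePt (a b : ℕ) (t : ℂ) (p : ℂ × ℂ) : ℂ × ℂ :=
  (p.1 * t ^ (2 * a), p.2 * t ^ (2 * b))

lemma chi_scalePt (a b : ℕ) (t : ℂ) (p : ℂ × ℂ) (w : ℕ × ℕ) :
    chi (scalePt a b t p) w = chi p w * t ^ (2 * (a * w.1 + b * w.2)) := by
  simp only [chi, scalePt, mul_pow, ← pow_mul]
  rw [show 2 * (a * w.1 + b * w.2) = 2 * a * w.1 + 2 * b * w.2 by ring, pow_add]
  ring

/-- The degeneration step.  If `S₁`, `S₂` are separated by the linear functional `a u + b v`, and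
are resolved by `n₁`, `n₂` points, then the union is resolved by `n₁ + n₂` points. -/
lemma EE.split {m : ℕ} {S₁ S₂ : Finset (ℕ × ℕ)} {n₁ n₂ : ℕ} (a b c : ℕ)
    (h₁ : ∀ w ∈ S₁, a * w.1 + b * w.2 < c) (h₂ : ∀ w ∈ S₂, c ≤ a * w.1 + b * w.2)
    (H₁ : EE m S₁ n₁) (H₂ : EE m S₂ n₂) : EE m (S₁ ∪ S₂) (n₁ + n₂) := by
  classical
  obtain ⟨L₁, hL₁, hL₁0, hI₁⟩ := H₁
  obtain ⟨L₂, hL₂, hL₂0, hI₂⟩ := H₂
  have hdisj : Disjoint S₁ S₂ := by
    rw [Finset.disjoint_left]
    intro w hw hw'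
    have := h₁ w hw
    have := h₂ w hw'
    omega
  let τ : Type := {x : Fin m × Fin m // (x.1 : ℕ) + (x.2 : ℕ) < m}
  let ℓ : ℕ × ℕ → ℕ := fun w => a * w.1 + b * w.2
  let R : ℂ × ℂ → τ → ℕ × ℕ → ℂ := fun p x w => chi p w * tst (x.1.1 : ℕ) (x.1.2 : ℕ) w
  let A : ((L₁ × τ) ⊕ (L₂ × τ)) → ℕ × ℕ → ℂ[X] := fun i w =>
    match i with
    | Sum.inl (p, x) =>
        if w ∈ S₁ then C (R p.1 x w) else X ^ (2 * ℓ w + 1 - 2 * c) * C (R p.1 x w)
    | Sum.inr (p, x) =>
        if w ∈ S₁ then X ^ (2 * c - 2 * ℓ w - 1) * C (R p.1 x w) else C (R p.1 x w)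
  have h0 : ∀ c' : ℕ × ℕ → ℂ, (∀ i, ∑ w ∈ S₁ ∪ S₂, c' w * (A i w).eval 0 = 0) →
      ∀ w ∈ S₁ ∪ S₂, c' w = 0 := by
    intro c' hc'
    have hS1 : ∀ w ∈ S₁, c' w = 0 := by
      apply hI₁ c'
      intro p hp s t hst
      have hs : s < m := by omega
      have ht : t < m := by omega
      have := hc' (Sum.inl (⟨p, hp⟩, ⟨(⟨s, hs⟩, ⟨t, ht⟩), hst⟩))
      rw [Finset.sum_union hdisj] at this
      have hzero : ∑ w ∈ S₂, c' w * (A (Sum.inl (⟨p, hp⟩, ⟨(⟨s, hs⟩, ⟨t, ht⟩), hst⟩)) w).eval 0 = 0 := by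
        apply Finset.sum_eq_zero
        intro w hw
        have hw1 : w ∉ S₁ := Finset.disjoint_right.mp hdisj hw
        have hc2 := h₂ w hw
        have hpos : 2 * ℓ w + 1 - 2 * c ≠ 0 := by
          simp only [ℓ]; omega
        simp [A, hw1, hpos]
      rw [hzero, add_zero] at this
      rw [← this]
      apply Finset.sum_congr rfl
      intro w hw
      simp [A, hw, R]
    have hS2 : ∀ w ∈ S₂, c' w = 0 := by
      apply hI₂ c'
      intro p hp s t hst
      have hs : s < m := by omega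
      have ht : t < m := by omega
      have := hc' (Sum.inr (⟨p, hp⟩, ⟨(⟨s, hs⟩, ⟨t, ht⟩), hst⟩))
      rw [Finset.sum_union hdisj] at this
      have hzero : ∑ w ∈ S₁, c' w * (A (Sum.inr (⟨p, hp⟩, ⟨(⟨s, hs⟩, ⟨t, ht⟩), hst⟩)) w).eval 0 = 0 := by
        apply Finset.sum_eq_zero
        intro w hw
        have hc2 := h₁ w hw
        have hpos : 2 * c - 2 * ℓ w - 1 ≠ 0 := by
          simp only [ℓ]; omega
        simp [A, hw, hpos]
      rw [hzero, zero_add] at this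
      rw [← this]
      apply Finset.sum_congr rfl
      intro w hw
      have hw1 : w ∉ S₁ := Finset.disjoint_right.mp hdisj hw
      simp [A, hw1, R]
    intro w hw
    rcases Finset.mem_union.mp hw with h | h
    · exact hS1 w h
    · exact hS2 w h
  obtain ⟨t, ht0, ht⟩ := exists_eval_indep (S₁ ∪ S₂) A h0
  refine ⟨L₁.image (scalePt a b t) ∪ L₂, ?_, ?_, ?_⟩
  · calc (L₁.image (scalePt a b t) ∪ L₂).card ≤ (L₁.image (scalePt a b t)).card + L₂.card :=
          Finset.card_union_le _ _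
      _ ≤ L₁.card + L₂.card := by
          have := Finset.card_image_le (s := L₁) (f := scalePt a b t)
          omega
      _ ≤ n₁ + n₂ := by omega
  · intro p hp
    rcases Finset.mem_union.mp hp with h | h
    · obtain ⟨q, hq, rfl⟩ := Finset.mem_image.mp h
      have := hL₁0 q hq
      simp only [scalePt]
      exact ⟨mul_ne_zero this.1 (pow_ne_zero _ ht0), mul_ne_zero this.2 (pow_ne_zero _ ht0)⟩
    · exact hL₂0 p h
  · intro c0 hc0
    let ct : ℕ × ℕ → ℂ := fun w =>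
      if w ∈ S₁ then c0 w * (t ^ (2 * ℓ w + 1) / t ^ (2 * c)) else c0 w
    have hct : ∀ w ∈ S₁ ∪ S₂, ct w = 0 := by
      apply ht ct
      rintro (⟨⟨p, hp⟩, ⟨⟨s, t'⟩, hst⟩⟩ | ⟨⟨p, hp⟩, ⟨⟨s, t'⟩, hst⟩⟩)
      · have hcond := hc0 (scalePt a b t p)
          (Finset.mem_union_left _ (Finset.mem_image_of_mem _ hp)) s t' hst
        have hmul := congrArg (fun z => z * (t / t ^ (2 * c))) hcond
        simp only [zero_mul, Finset.sum_mul] at hmul
        rw [← hmul]
        apply Finset.sum_congr rfl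
        intro w hw
        rw [chi_scalePt]
        by_cases hw1 : w ∈ S₁
        · simp only [ct, A, hw1, if_true, eval_C, R, ℓ]
          rw [pow_succ]
          ring
        · have hw2 : w ∈ S₂ := (Finset.mem_union.mp hw).resolve_left hw1
          have hc2 := h₂ w hw2
          have hle : 2 * c ≤ 2 * ℓ w + 1 := by simp only [ℓ]; omega
          simp only [ct, A, hw1, if_false, eval_mul, eval_pow, eval_X, eval_C, R]
          rw [pow_sub₀ _ ht0 hle, pow_succ]
          simp only [ℓ]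
          field_simp
      · have hcond := hc0 p (Finset.mem_union_right _ hp) s t' hst
        rw [← hcond]
        apply Finset.sum_congr rfl
        intro w hw
        by_cases hw1 : w ∈ S₁
        · have hc1 := h₁ w hw1
          have hle : 2 * ℓ w + 1 ≤ 2 * c := by simp only [ℓ]; omega
          have hexp : 2 * c - 2 * ℓ w - 1 = 2 * c - (2 * ℓ w + 1) := by omega
          simp only [ct, A, hw1, if_true, eval_mul, eval_pow, eval_X, eval_C, R]
          rw [hexp, pow_sub₀ _ ht0 hle]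
          field_simp
        · simp only [ct, A, hw1, if_false, eval_C, R]
    intro w hw
    have := hct w hw
    by_cases hw1 : w ∈ S₁
    · simp only [ct, hw1, if_true] at this
      rcases mul_eq_zero.mp this with h | h
      · exact h
      · exfalso
        have : t ^ (2 * ℓ w + 1) / t ^ (2 * c) ≠ 0 :=
          div_ne_zero (pow_ne_zero _ ht0) (pow_ne_zero _ ht0)
        exact this h
    · simpa [ct, hw1] using this

end Vale.Agent.Lib.P279
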