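import Vale.Agent.Lib.P279.Split

namespace Vale.Agent.Lib.P279

/-- Points of a horizontal strip of height `h` starting at row `y₀`, from column `x₀`, left of the
diagonal `x + y = R`. -/
def stripSet (y₀ h x₀ R : ℕ) : Finset (ℕ × ℕ) :=
  (Finset.range R ×ˢ Finset.Ico y₀ (y₀ + h)).filter fun w => x₀ ≤ w.1 ∧ w.1 + w.2 < R

lemma mem_stripSet {y₀ h x₀ R : ℕ} {w : ℕ × ℕ} :
    w ∈ stripSet y₀ h x₀ R ↔ y₀ ≤ w.2 ∧ w.2 < y₀ + h ∧ x₀ ≤ w.1 ∧ w.1 + w.2 < R := by
  simp only [stripSet, Finset.mem_filter, Finset.mem_product, Finset.mem_range, Finset.mem_Ico]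
  constructor
  · rintro ⟨⟨_, h1, h2⟩, h3, h4⟩
    exact ⟨h1, h2, h3, h4⟩
  · rintro ⟨h1, h2, h3, h4⟩
    exact ⟨⟨by omega, h1, h2⟩, h3, h4⟩

/-- The upward piece. -/
def upSet (m y₀ h x₀ : ℕ) : Finset (ℕ × ℕ) := stripSet y₀ h x₀ (x₀ + y₀ + m)

/-- The downward piece. -/
def downSet (m y₀ h x₀ : ℕ) : Finset (ℕ × ℕ) :=
  (Finset.range (x₀ + (2 * m + 1 - h)) ×ˢ Finset.Ico y₀ (y₀ + h)).filter
    fun w => x₀ + y₀ + m ≤ w.1 + w.2

lemma mem_downSet {m y₀ h x₀ : ℕ} {w : ℕ × ℕ} :
    w ∈ downSet m y₀ h x₀ ↔ w.1 < x₀ + (2 * m + 1 - h) ∧ y₀ ≤ w.2 ∧ w.2 < y₀ + h ∧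
      x₀ + y₀ + m ≤ w.1 + w.2 := by
  simp only [downSet, Finset.mem_filter, Finset.mem_product, Finset.mem_range, Finset.mem_Ico]
  tauto

lemma EE_up {m y₀ h x₀ : ℕ} (hh : h ≤ m) : EE m (upSet m y₀ h x₀) 1 := by
  apply EE_of_staircase m (fun i => y₀ + i) (fun i => Finset.Ico x₀ (x₀ + (m - i))) h
  · intro i _ j _ hij
    simpa using hij
  · intro i hi
    simp
    omega
  · intro w hw
    rw [upSet, mem_stripSet] at hw
    refine ⟨w.2 - y₀, by omega, by show w.2 = y₀ + (w.2 - y₀); omega, ?_⟩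
    simp only [Finset.mem_Ico]
    omega

lemma EE_down {m y₀ h x₀ : ℕ} (hh : h ≤ m) : EE m (downSet m y₀ h x₀) 1 := by
  apply EE_of_staircase m (fun i => y₀ + (h - 1 - i))
    (fun i => Finset.Ico (x₀ + (2 * m + 1 - h) - (m - i)) (x₀ + (2 * m + 1 - h))) h
  · intro i hi j hj hij
    simp at hij
    omega
  · intro i hi
    simp
    omega
  · intro w hw
    rw [mem_downSet] at hw
    refine ⟨h - 1 - (w.2 - y₀), by omega, by show w.2 = y₀ + (h - 1 - (h - 1 - (w.2 - y₀))); omega, ?_⟩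
    simp only [Finset.mem_Ico]
    omega

/-- The capacity of a strip of height `h` with `n` pieces. -/
def cap (m h n : ℕ) : ℕ := (n + 1) / 2 * m + n / 2 * (m + 1 - h)

lemma cap_add_two (m h n : ℕ) (hh : h ≤ m) : cap m h (n + 2) = cap m h n + (2 * m + 1 - h) := by
  unfold cap
  have h1 : (n + 2 + 1) / 2 = (n + 1) / 2 + 1 := by omega
  have h2 : (n + 2) / 2 = n / 2 + 1 := by omega
  rw [h1, h2]
  have : 2 * m + 1 - h = m + (m + 1 - h) := by omega
  rw [this]
  ring

lemma EE_strip {m y₀ h : ℕ} (hh : h ≤ m) (n : ℕ) :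
    ∀ x₀ R : ℕ, R ≤ x₀ + y₀ + cap m h n → EE m (stripSet y₀ h x₀ R) n := by
  induction n using Nat.twoStepInduction with
  | zero =>
    intro x₀ R hR
    have : stripSet y₀ h x₀ R = ∅ := by
      rw [Finset.eq_empty_iff_forall_notMem]
      intro w hw
      rw [mem_stripSet] at hw
      simp [cap] at hR
      omega
    rw [this]
    exact EE_empty m 0
  | one =>
    intro x₀ R hR
    have hsub : stripSet y₀ h x₀ R ⊆ upSet m y₀ h x₀ := by
      intro w hw
      rw [mem_stripSet] at hw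
      rw [upSet, mem_stripSet]
      simp [cap] at hR
      omega
    exact (EE_up hh).mono_set hsub
  | more n ih _ =>
    intro x₀ R hR
    rw [cap_add_two m h n hh] at hR
    have hrest := ih (x₀ + (2 * m + 1 - h)) R (by omega)
    have hD : EE m (downSet m y₀ h x₀ ∪ stripSet y₀ h (x₀ + (2 * m + 1 - h)) R) (1 + n) := by
      apply EE.split 1 0 (x₀ + (2 * m + 1 - h)) ?_ ?_ (EE_down hh) hrest
      · intro w hw
        rw [mem_downSet] at hw
        omega
      · intro w hw
        rw [mem_stripSet] at hw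
        omega
    have hU : EE m (upSet m y₀ h x₀ ∪
        (downSet m y₀ h x₀ ∪ stripSet y₀ h (x₀ + (2 * m + 1 - h)) R)) (1 + (1 + n)) := by
      apply EE.split 1 1 (x₀ + y₀ + m) ?_ ?_ (EE_up hh) hD
      · intro w hw
        rw [upSet, mem_stripSet] at hw
        omega
      · intro w hw
        rcases Finset.mem_union.mp hw with hw | hw
        · rw [mem_downSet] at hw
          omega
        · rw [mem_stripSet] at hw
          omega
    refine (hU.mono_set ?_).mono_n (by omega)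
    intro w hw
    rw [mem_stripSet] at hw
    by_cases h1 : w.1 + w.2 < x₀ + y₀ + m
    · apply Finset.mem_union_left
      rw [upSet, mem_stripSet]
      omega
    · apply Finset.mem_union_right
      by_cases h2 : w.1 < x₀ + (2 * m + 1 - h)
      · apply Finset.mem_union_left
        rw [mem_downSet]
        omega
      · apply Finset.mem_union_right
        rw [mem_stripSet]
        omega

/-- The triangle of lattice points with bottom row `y₀` of width `W`. -/
def triSet (y₀ W : ℕ) : Finset (ℕ × ℕ) :=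
  (Finset.range (y₀ + W) ×ˢ Finset.range (y₀ + W)).filter fun w => y₀ ≤ w.2 ∧ w.1 + w.2 < y₀ + W

lemma mem_triSet {y₀ W : ℕ} {w : ℕ × ℕ} :
    w ∈ triSet y₀ W ↔ y₀ ≤ w.2 ∧ w.1 + w.2 < y₀ + W := by
  simp only [triSet, Finset.mem_filter, Finset.mem_product, Finset.mem_range]
  constructor
  · rintro ⟨_, h1, h2⟩
    exact ⟨h1, h2⟩
  · rintro ⟨h1, h2⟩
    exact ⟨⟨by omega, by omega⟩, h1, h2⟩

/-- Chains of strips covering a triangle of bottom width `W` with `K` pieces. -/
inductive Cov (m : ℕ) : ℕ → ℕ → Prop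
  | base : Cov m 0 0
  | step {W K : ℕ} (n h : ℕ) (hh : h ≤ m) (hW : W ≤ cap m h n) (hrest : Cov m (W - h) K) :
      Cov m W (K + n)

lemma EE_of_Cov {m W K : ℕ} (hc : Cov m W K) : ∀ y₀, EE m (triSet y₀ W) K := by
  induction hc with
  | base =>
    intro y₀
    have : triSet y₀ 0 = ∅ := by
      rw [Finset.eq_empty_iff_forall_notMem]
      intro w hw
      rw [mem_triSet] at hw
      omega
    rw [this]
    exact EE_empty m 0
  | @step W K n h hh hW _ ih =>
    intro y₀
    have hS := EE_strip (y₀ := y₀) hh n 0 (y₀ + W) (by omega)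
    have hT := ih (y₀ + h)
    have hU : EE m (stripSet y₀ h 0 (y₀ + W) ∪ triSet (y₀ + h) (W - h)) (n + K) := by
      apply EE.split 0 1 (y₀ + h) ?_ ?_ hS hT
      · intro w hw
        rw [mem_stripSet] at hw
        omega
      · intro w hw
        rw [mem_triSet] at hw
        omega
    refine (hU.mono_set ?_).mono_n (by omega)
    intro w hw
    rw [mem_triSet] at hw
    by_cases h1 : w.2 < y₀ + h
    · apply Finset.mem_union_left
      rw [mem_stripSet]
      omega
    · apply Finset.mem_union_right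
      rw [mem_triSet]
      omega

end Vale.Agent.Lib.P279
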