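import Vale.Agent.Lib.P279.Generic

open MvPolynomial

namespace Vale.Agent.Lib.P279

section Ord

variable {σ : Type}

/-- All monomials of degree `< a` have zero coefficient in `f`. -/
def OrdGe (f : MvPolynomial σ ℂ) (a : ℕ) : Prop :=
  ∀ d : σ →₀ ℕ, d.degree < a → coeff d f = 0

/-- `f` vanishes to order exactly `a` at the origin. -/
def ExactOrd (f : MvPolynomial σ ℂ) (a : ℕ) : Prop :=
  OrdGe f a ∧ ¬ OrdGe f (a + 1)

lemma OrdGe.mono {f : MvPolynomial σ ℂ} {a b : ℕ} (h : OrdGe f a) (hb : b ≤ a) : OrdGe f b :=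
  fun d hd => h d (lt_of_lt_of_le hd hb)

lemma OrdGe.zero_right (f : MvPolynomial σ ℂ) : OrdGe f 0 := fun _ hd => absurd hd (Nat.not_lt_zero _)

lemma OrdGe.zero_left (a : ℕ) : OrdGe (0 : MvPolynomial σ ℂ) a := fun _ _ => by simp

lemma OrdGe.add {f g : MvPolynomial σ ℂ} {a : ℕ} (hf : OrdGe f a) (hg : OrdGe g a) :
    OrdGe (f + g) a := fun d hd => by rw [coeff_add, hf d hd, hg d hd, add_zero]

lemma OrdGe.neg {f : MvPolynomial σ ℂ} {a : ℕ} (hf : OrdGe f a) : OrdGe (-f) a :=
  fun d hd => by rw [coeff_neg, hf d hd, neg_zero]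

lemma OrdGe.sub {f g : MvPolynomial σ ℂ} {a : ℕ} (hf : OrdGe f a) (hg : OrdGe g a) :
    OrdGe (f - g) a := fun d hd => by rw [coeff_sub, hf d hd, hg d hd, sub_zero]

lemma OrdGe.mul {f g : MvPolynomial σ ℂ} {a b : ℕ} (hf : OrdGe f a) (hg : OrdGe g b) :
    OrdGe (f * g) (a + b) := by
  classical
  intro d hd
  rw [coeff_mul]
  apply Finset.sum_eq_zero
  rintro ⟨u, w⟩ huw
  have hsum : u + w = d := by simpa using huw
  have hdeg : u.degree + w.degree = d.degree := by rw [← hsum, map_add]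
  by_cases hu : u.degree < a
  · simp [hf u hu]
  · have hw : w.degree < b := by omega
    simp [hg w hw]

lemma OrdGe.mul_right {f : MvPolynomial σ ℂ} {a : ℕ} (hf : OrdGe f a) (g : MvPolynomial σ ℂ) :
    OrdGe (f * g) a := by
  simpa using hf.mul (OrdGe.zero_right g)

lemma OrdGe.mul_left {f : MvPolynomial σ ℂ} {a : ℕ} (hf : OrdGe f a) (g : MvPolynomial σ ℂ) :
    OrdGe (g * f) a := by
  rw [mul_comm]; exact hf.mul_right g

lemma OrdGe.pow {f : MvPolynomial σ ℂ} {a : ℕ} (hf : OrdGe f a) (k : ℕ) :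
    OrdGe (f ^ k) (a * k) := by
  induction k with
  | zero => simpa using OrdGe.zero_right _
  | succ k ih =>
    rw [pow_succ, Nat.mul_succ]
    exact ih.mul hf

/-- Existence of the exact order. -/
lemma exists_exactOrd {f : MvPolynomial σ ℂ} (hf : f ≠ 0) : ∃ a, ExactOrd f a := by
  classical
  have hex : ∃ a, ¬ OrdGe f (a + 1) := by
    obtain ⟨d, hd⟩ := exists_coeff_ne_zero hf
    refine ⟨d.degree, fun h => hd (h d (Nat.lt_succ_self _))⟩
  refine ⟨Nat.find hex, ?_, Nat.find_spec hex⟩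
  have hmin := @Nat.find_min _ _ hex
  rcases Nat.eq_zero_or_pos (Nat.find hex) with h0 | hpos
  · rw [h0]; exact OrdGe.zero_right f
  · have := hmin (m := Nat.find hex - 1) (by omega)
    rw [not_not, Nat.sub_add_cancel hpos] at this
    exact this

lemma ExactOrd.exists_coeff {f : MvPolynomial σ ℂ} {a : ℕ} (h : ExactOrd f a) :
    ∃ d : σ →₀ ℕ, d.degree = a ∧ coeff d f ≠ 0 := by
  have h2 := h.2
  unfold OrdGe at h2
  push Not at h2
  obtain ⟨d, hd, hne⟩ := h2
  refine ⟨d, ?_, hne⟩
  by_contra hne'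
  exact hne (h.1 d (by omega))

lemma ExactOrd.ne_zero {f : MvPolynomial σ ℂ} {a : ℕ} (h : ExactOrd f a) : f ≠ 0 := by
  obtain ⟨d, _, hd⟩ := h.exists_coeff
  intro h0
  apply hd
  simp [h0]

/-- The order is additive in products. -/
lemma ExactOrd.mul {f g : MvPolynomial σ ℂ} {a b : ℕ} (hf : ExactOrd f a) (hg : ExactOrd g b) :
    ExactOrd (f * g) (a + b) := by
  classical
  refine ⟨hf.1.mul hg.1, ?_⟩
  intro hge
  let fa := homogeneousComponent a f
  let gb := homogeneousComponent b g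
  have hfa : fa ≠ 0 := by
    obtain ⟨d, hd, hc⟩ := hf.exists_coeff
    intro h0
    have := congrArg (coeff d) h0
    simp only [fa, coeff_homogeneousComponent, hd, if_true, coeff_zero] at this
    exact hc this
  have hgb : gb ≠ 0 := by
    obtain ⟨d, hd, hc⟩ := hg.exists_coeff
    intro h0
    have := congrArg (coeff d) h0
    simp only [gb, coeff_homogeneousComponent, hd, if_true, coeff_zero] at this
    exact hc this
  have hprod : fa * gb ≠ 0 := mul_ne_zero hfa hgb
  obtain ⟨e, he⟩ := exists_coeff_ne_zero hprod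
  have hhom : (fa * gb).IsHomogeneous (a + b) :=
    (homogeneousComponent_isHomogeneous a f).mul (homogeneousComponent_isHomogeneous b g)
  have hdeg : e.degree = a + b := by
    have := hhom he
    rw [Finsupp.degree_eq_weight_one]
    exact this
  apply he
  have hzero : coeff e (f * g) = 0 := hge e (by omega)
  rw [← hzero, coeff_mul, coeff_mul]
  apply Finset.sum_congr rfl
  rintro ⟨u, w⟩ huw
  have hsum : u + w = e := by simpa using huw
  have hd : u.degree + w.degree = a + b := by rw [← hdeg, ← hsum, map_add]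
  simp only [fa, gb, coeff_homogeneousComponent]
  by_cases hu : u.degree = a
  · have hw : w.degree = b := by omega
    simp [hu, hw]
  · by_cases hlt : u.degree < a
    · simp [hu, hf.1 u hlt]
    · have hw : w.degree < b := by omega
      simp [hu, hg.1 w hw]

/-- Cancellation of a factor of exact order. -/
lemma ExactOrd.cancel {f h : MvPolynomial σ ℂ} {a c : ℕ} (hf : ExactOrd f a)
    (hfh : OrdGe (f * h) (a + c)) : OrdGe h c := by
  by_cases h0 : h = 0
  · rw [h0]; exact OrdGe.zero_left c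
  obtain ⟨e, he⟩ := exists_exactOrd h0
  by_cases hec : c ≤ e
  · exact he.1.mono hec
  · exfalso
    exact (hf.mul he).2 (hfh.mono (by omega))

lemma degree_of_hom {F : MvPolynomial σ ℂ} {b : ℕ} (hF : F.IsHomogeneous b) {d : σ →₀ ℕ}
    (hd : coeff d F ≠ 0) : d.degree = b := by
  rw [Finsupp.degree_eq_weight_one]
  exact hF hd

/-- A nonzero form of degree `b` has exact order `b`. -/
lemma exactOrd_of_isHomogeneous {F : MvPolynomial σ ℂ} {b : ℕ} (hF : F.IsHomogeneous b)
    (h0 : F ≠ 0) : ExactOrd F b := by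
  constructor
  · intro d hd
    by_contra hne
    have := degree_of_hom hF hne
    omega
  · intro hge
    obtain ⟨d, hd⟩ := exists_coeff_ne_zero h0
    have := degree_of_hom hF hd
    exact hd (hge d (by omega))

lemma isHomogeneous_of_bounds {f : MvPolynomial σ ℂ} {a : ℕ} (h1 : OrdGe f a)
    (h2 : f.totalDegree ≤ a) : f.IsHomogeneous a := by
  intro d hd
  have hle : d.degree ≤ f.totalDegree := by
    exact le_totalDegree (mem_support_iff.mpr hd)
  have hge : a ≤ d.degree := by
    by_contra hlt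
    exact hd (h1 d (by omega))
  have : d.degree = a := by omega
  rw [Finsupp.degree_eq_weight_one] at this
  exact this

/-- Factors of forms are forms of complementary degree. -/
lemma isHomogeneous_of_mul [Finite σ] {f g : MvPolynomial σ ℂ} {n : ℕ} (hfg : (f * g).IsHomogeneous n)
    (hf : f ≠ 0) (hg : g ≠ 0) :
    ∃ a b, f.IsHomogeneous a ∧ g.IsHomogeneous b ∧ a + b = n := by
  obtain ⟨a, ha⟩ := exists_exactOrd hf
  obtain ⟨b, hb⟩ := exists_exactOrd hg
  have hprod := ha.mul hb
  obtain ⟨d, hd, hc⟩ := hprod.exists_coeff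
  have hn : a + b = n := by
    rw [← hd]; exact degree_of_hom hfg hc
  have hne : f * g ≠ 0 := mul_ne_zero hf hg
  have htot : f.totalDegree + g.totalDegree = n := by
    rw [← totalDegree_mul_of_isDomain hf hg]
    exact hfg.totalDegree hne
  have hfa : a ≤ f.totalDegree := by
    obtain ⟨d, hd, hc⟩ := ha.exists_coeff
    rw [← hd]
    exact le_totalDegree (mem_support_iff.mpr hc)
  have hgb : b ≤ g.totalDegree := by
    obtain ⟨d, hd, hc⟩ := hb.exists_coeff
    rw [← hd]
    exact le_totalDegree (mem_support_iff.mpr hc)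
  exact ⟨a, b, isHomogeneous_of_bounds ha.1 (by omega), isHomogeneous_of_bounds hb.1 (by omega), hn⟩

/-- The cofactor of a form inside a form is a form. -/
lemma isHomogeneous_of_mul_left [Finite σ] {F w : MvPolynomial σ ℂ} {b e : ℕ}
    (hF : F.IsHomogeneous b) (hF0 : F ≠ 0) (h : (F * w).IsHomogeneous (b + e)) :
    w.IsHomogeneous e := by
  by_cases hw : w = 0
  · rw [hw]; exact isHomogeneous_zero _ _ _
  obtain ⟨a, c, ha, hc, hac⟩ := isHomogeneous_of_mul h hF0 hw
  have hab : a = b := by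
    obtain ⟨d, hd⟩ := exists_coeff_ne_zero hF0
    rw [← degree_of_hom ha hd, degree_of_hom hF hd]
  have : c = e := by omega
  rwa [← this]

end Ord

section Psi

/-- Translate the point `p` to the origin and set `z` to its value at `p`. -/
noncomputable def psi (p : Fin 3 → ℂ) : MvPolynomial (Fin 3) ℂ →ₐ[ℂ] MvPolynomial (Fin 2) ℂ :=
  aeval ![C (p 0) + X 0, C (p 1) + X 1, C (p 2)]

@[simp] lemma psi_X0 (p : Fin 3 → ℂ) : psi p (X 0) = C (p 0) + X 0 := by simp [psi]
@[simp] lemma psi_X1 (p : Fin 3 → ℂ) : psi p (X 1) = C (p 1) + X 1 := by simp [psi]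
@[simp] lemma psi_X2 (p : Fin 3 → ℂ) : psi p (X 2) = C (p 2) := by simp [psi]
@[simp] lemma psi_C (p : Fin 3 → ℂ) (a : ℂ) : psi p (C a) = C a := by simp [psi]

lemma pderiv0_psi (p : Fin 3 → ℂ) (F : MvPolynomial (Fin 3) ℂ) :
    pderiv (0 : Fin 2) (psi p F) = psi p (pderiv (0 : Fin 3) F) := by
  induction F using MvPolynomial.induction_on with
  | C a => simp
  | add f g hf hg => simp [hf, hg]
  | mul_X f i hf =>
    rw [map_mul, Derivation.leibniz, Derivation.leibniz]
    simp only [smul_eq_mul, map_add, map_mul]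
    rw [hf]
    fin_cases i <;> simp [pderiv_X]

lemma pderiv1_psi (p : Fin 3 → ℂ) (F : MvPolynomial (Fin 3) ℂ) :
    pderiv (1 : Fin 2) (psi p F) = psi p (pderiv (1 : Fin 3) F) := by
  induction F using MvPolynomial.induction_on with
  | C a => simp
  | add f g hf hg => simp [hf, hg]
  | mul_X f i hf =>
    rw [map_mul, Derivation.leibniz, Derivation.leibniz]
    simp only [smul_eq_mul, map_add, map_mul]
    rw [hf]
    fin_cases i <;> simp [pderiv_X]

lemma iterate0_psi (p : Fin 3 → ℂ) (s : ℕ) (F : MvPolynomial (Fin 3) ℂ) :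
    (pderiv (0 : Fin 2))^[s] (psi p F) = psi p ((pderiv (0 : Fin 3))^[s] F) := by
  induction s generalizing F with
  | zero => rfl
  | succ s ih => rw [Function.iterate_succ_apply, Function.iterate_succ_apply, pderiv0_psi, ih]

lemma iterate1_psi (p : Fin 3 → ℂ) (s : ℕ) (F : MvPolynomial (Fin 3) ℂ) :
    (pderiv (1 : Fin 2))^[s] (psi p F) = psi p ((pderiv (1 : Fin 3))^[s] F) := by
  induction s generalizing F with
  | zero => rfl
  | succ s ih => rw [Function.iterate_succ_apply, Function.iterate_succ_apply, pderiv1_psi, ih]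

lemma coeff_zero_psi (p : Fin 3 → ℂ) (F : MvPolynomial (Fin 3) ℂ) :
    coeff 0 (psi p F) = eval p F := by
  induction F using MvPolynomial.induction_on with
  | C a => simp
  | add f g hf hg => simp [hf, hg]
  | mul_X f i hf =>
    have h0 : ∀ f : MvPolynomial (Fin 2) ℂ, coeff 0 f = constantCoeff f := fun f => rfl
    rw [h0] at hf ⊢
    rw [map_mul, map_mul, map_mul, hf]
    congr 1
    fin_cases i <;> simp

lemma coeff_iter_pderiv {σ : Type} [DecidableEq σ] (i : σ) (n : ℕ) (f : MvPolynomial σ ℂ)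
    (m : σ →₀ ℕ) :
    coeff m ((pderiv i)^[n] f) =
      coeff (m + Finsupp.single i n) f * (((m i + 1).ascFactorial n : ℕ) : ℂ) := by
  induction n generalizing f with
  | zero => simp
  | succ n ih =>
    rw [Function.iterate_succ_apply, ih, coeff_pderiv]
    have e1 : m + Finsupp.single i n + Finsupp.single i 1 = m + Finsupp.single i (n + 1) := by
      rw [add_assoc, ← Finsupp.single_add]
    rw [e1, Nat.ascFactorial_succ]
    simp only [Finsupp.coe_add, Pi.add_apply, Finsupp.single_eq_same]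
    push_cast
    ring

/-- The exponent vector of `x^s y^t`. -/
noncomputable def mon2 (s t : ℕ) : Fin 2 →₀ ℕ := Finsupp.single 0 s + Finsupp.single 1 t

@[simp] lemma mon2_zero (s t : ℕ) : mon2 s t 0 = s := by simp [mon2]
@[simp] lemma mon2_one (s t : ℕ) : mon2 s t 1 = t := by simp [mon2]

lemma degree_mon2 (s t : ℕ) : (mon2 s t).degree = s + t := by
  simp [mon2, map_add]

lemma eq_mon2 (d : Fin 2 →₀ ℕ) : mon2 (d 0) (d 1) = d := by
  ext j
  fin_cases j <;> simp

lemma degree_fin2 (d : Fin 2 →₀ ℕ) : d.degree = d 0 + d 1 := by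
  conv_lhs => rw [← eq_mon2 d]
  exact degree_mon2 _ _

/-- The Taylor coefficients of `psi p F` are the values at `p` of the partial derivatives. -/
lemma coeff_psi_mon2 (p : Fin 3 → ℂ) (s t : ℕ) (F : MvPolynomial (Fin 3) ℂ) :
    coeff (mon2 s t) (psi p F) * ((s.factorial : ℂ) * (t.factorial : ℂ)) =
      eval p (mixedDeriv s t 0 F) := by
  have h1 : eval p (mixedDeriv s t 0 F) =
      coeff 0 ((pderiv (0 : Fin 2))^[s] ((pderiv (1 : Fin 2))^[t] (psi p F))) := by
    rw [iterate1_psi, iterate0_psi, coeff_zero_psi]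
    rfl
  rw [h1, coeff_iter_pderiv, coeff_iter_pderiv]
  simp only [Finsupp.coe_zero, Pi.zero_apply, zero_add, Nat.one_ascFactorial]
  have h2 : (Finsupp.single (0 : Fin 2) s : Fin 2 →₀ ℕ) 1 = 0 := by simp
  rw [h2]
  simp only [zero_add, Nat.one_ascFactorial]
  rw [show Finsupp.single (0 : Fin 2) s + Finsupp.single (1 : Fin 2) t = mon2 s t from rfl]
  ring

lemma coeff_psi_eq_zero_iff (p : Fin 3 → ℂ) (s t : ℕ) (F : MvPolynomial (Fin 3) ℂ) :
    coeff (mon2 s t) (psi p F) = 0 ↔ eval p (mixedDeriv s t 0 F) = 0 := by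
  rw [← coeff_psi_mon2]
  have h1 : (s.factorial : ℂ) ≠ 0 := by exact_mod_cast Nat.factorial_ne_zero s
  have h2 : (t.factorial : ℂ) ≠ 0 := by exact_mod_cast Nat.factorial_ne_zero t
  simp [h1, h2]

lemma ordGe_iff_mon2 {f : MvPolynomial (Fin 2) ℂ} {m : ℕ} :
    OrdGe f m ↔ ∀ s t, s + t < m → coeff (mon2 s t) f = 0 := by
  constructor
  · intro h s t hst
    exact h _ (by rw [degree_mon2]; exact hst)
  · intro h d hd
    rw [← eq_mon2 d]
    apply h
    rwa [degree_fin2] at hd

lemma ordGe_psi_iff {p : Fin 3 → ℂ} {F : MvPolynomial (Fin 3) ℂ} {m : ℕ} :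
    OrdGe (psi p F) m ↔ ∀ s t, s + t < m → eval p (mixedDeriv s t 0 F) = 0 := by
  rw [ordGe_iff_mon2]
  simp only [coeff_psi_eq_zero_iff]

/-- The dehomogenization at `z = c`. -/
noncomputable def dehom (c : ℂ) : MvPolynomial (Fin 3) ℂ →ₐ[ℂ] MvPolynomial (Fin 2) ℂ :=
  aeval ![X 0, X 1, C c]

/-- Translation of the plane. -/
noncomputable def trl (p : Fin 3 → ℂ) : MvPolynomial (Fin 2) ℂ →ₐ[ℂ] MvPolynomial (Fin 2) ℂ :=
  aeval ![X 0 - C (p 0), X 1 - C (p 1)]

@[simp] lemma trl_C (p : Fin 3 → ℂ) (a : ℂ) : trl p (C a) = C a := by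
  simp only [trl, aeval_C, algebraMap_eq]
@[simp] lemma trl_X0 (p : Fin 3 → ℂ) : trl p (X 0) = X 0 - C (p 0) := by
  simp only [trl, aeval_X, Matrix.cons_val_zero]
@[simp] lemma trl_X1 (p : Fin 3 → ℂ) : trl p (X 1) = X 1 - C (p 1) := by
  simp only [trl, aeval_X, Matrix.cons_val_one, Matrix.cons_val_zero]
@[simp] lemma dehom_C (c a : ℂ) : dehom c (C a) = C a := by
  simp only [dehom, aeval_C, algebraMap_eq]
@[simp] lemma dehom_X0 (c : ℂ) : dehom c (X 0) = X 0 := by
  simp only [dehom, aeval_X, Matrix.cons_val_zero]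
@[simp] lemma dehom_X1 (c : ℂ) : dehom c (X 1) = X 1 := by
  simp only [dehom, aeval_X, Matrix.cons_val_one, Matrix.cons_val_zero]
@[simp] lemma dehom_X2 (c : ℂ) : dehom c (X 2) = C c := by
  simp only [dehom, aeval_X, Matrix.cons_val]

lemma trl_psi (p : Fin 3 → ℂ) (F : MvPolynomial (Fin 3) ℂ) : trl p (psi p F) = dehom (p 2) F := by
  induction F using MvPolynomial.induction_on with
  | C a => simp
  | add f g hf hg => simp only [map_add, hf, hg]
  | mul_X f i hf =>
    rw [map_mul (psi p), map_mul (trl p), map_mul (dehom (p 2)), hf]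
    have hX : trl p (psi p (X i)) = dehom (p 2) (X i) := by
      fin_cases i
      · show trl p (psi p (X 0)) = dehom (p 2) (X 0)
        simp
      · show trl p (psi p (X 1)) = dehom (p 2) (X 1)
        simp
      · show trl p (psi p (X 2)) = dehom (p 2) (X 2)
        simp
    rw [hX]

lemma dehom_monomial (c : ℂ) (e : Fin 3 →₀ ℕ) (a : ℂ) :
    dehom c (monomial e a) = monomial (mon2 (e 0) (e 1)) (a * c ^ e 2) := by
  rw [monomial_eq (s := mon2 (e 0) (e 1)), monomial_eq (s := e), Finsupp.prod_fintype _ _ (by simp),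
    Finsupp.prod_fintype _ _ (by simp)]
  simp only [Fin.prod_univ_three, Fin.prod_univ_two, map_mul, map_pow, dehom_C, dehom_X0, dehom_X1,
    dehom_X2, mon2_zero, mon2_one]
  ring

/-- Nonzero forms stay nonzero under `psi`. -/
lemma psi_ne_zero {F : MvPolynomial (Fin 3) ℂ} {b : ℕ} (hF : F.IsHomogeneous b) (h0 : F ≠ 0)
    {p : Fin 3 → ℂ} (hp : p 2 ≠ 0) : psi p F ≠ 0 := by
  classical
  intro hpsi
  have hd : dehom (p 2) F = 0 := by
    rw [← trl_psi, hpsi, map_zero]
  obtain ⟨e, he⟩ := exists_coeff_ne_zero h0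
  have hdeg := degree_of_hom hF he
  have hsum : ∀ e : Fin 3 →₀ ℕ, e.degree = e 0 + e 1 + e 2 := by
    intro e
    rw [Finsupp.degree_eq_sum]
    simp [Fin.sum_univ_three]
  apply he
  have hc := congrArg (coeff (mon2 (e 0) (e 1))) hd
  rw [coeff_zero] at hc
  conv at hc => lhs; rw [← F.support_sum_monomial_coeff]
  rw [map_sum, coeff_sum, Finset.sum_eq_single e] at hc
  · rw [dehom_monomial, coeff_monomial, if_pos rfl] at hc
    have : p 2 ^ e 2 ≠ 0 := pow_ne_zero _ hp
    exact (mul_eq_zero.mp hc).resolve_right this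
  · intro e' he' hne
    rw [dehom_monomial, coeff_monomial, if_neg]
    intro hmon
    apply hne
    have h0' := DFunLike.congr_fun hmon 0
    have h1' := DFunLike.congr_fun hmon 1
    simp only [mon2_zero, mon2_one] at h0' h1'
    have hdeg' := degree_of_hom hF (mem_support_iff.mp he')
    rw [hsum] at hdeg hdeg'
    ext j
    fin_cases j
    · exact h0'
    · exact h1'
    · simp only [Fin.reduceFinMk]
      omega
  · intro hn
    exact absurd (mem_support_iff.mpr he) hn

end Psi

end Vale.Agent.Lib.P279
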