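import Vale.Agent.Lib.P279.Irred
import Vale.Agent.Lib.P279.Arith2
import Vale.Agent.Lib.P279.Main

open MvPolynomial Module

namespace Vale.Agent.Lib.P279

variable {r : ℕ}

/-- Emptiness at the toric configuration gives a tuple with injective matrix of conditions. -/
lemma EE_kernel_trivial {m d : ℕ} (hE : EE m (triSet 0 (d + 1)) r) :
    ∃ v₀ : Fin r → Fin 3 → ℂ, ∀ c : TT (d + 1) → ℂ,
      (matV d (fun _ => m) v₀).mulVec c = 0 → c = 0 := by
  classical
  obtain ⟨L, hcard, _, hI⟩ := hE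
  obtain ⟨f, hf⟩ := exists_enum (r := r) L hcard
  let T := triSet 0 (d + 1)
  refine ⟨fun i => ![(f i).1, (f i).2, 1], ?_⟩
  intro x hx
  let c : ℕ × ℕ → ℂ := fun w => if h : w ∈ T then x ⟨w, h⟩ else 0
  have hc := hI c (by
    intro p hp s t hst
    obtain ⟨i, rfl⟩ := hf p hp
    have hs : s < m := by omega
    have ht : t < m := by omega
    have hrow := congrFun hx ⟨i, ⟨(⟨s, hs⟩, ⟨t, ht⟩), hst⟩⟩
    simp only [Matrix.mulVec, dotProduct, Pi.zero_apply, matV, Matrix.of_apply] at hrow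
    have hsum : ∑ w ∈ T, c w * (chi (f i) w * tst s t w) =
        (f i).1 ^ s * (f i).2 ^ t * ∑ w : TT (d + 1), ent d s t w.1 ![(f i).1, (f i).2, 1] * x w := by
      rw [← Finset.sum_coe_sort T, Finset.mul_sum]
      apply Finset.sum_congr rfl
      intro w _
      have := chi_eq_ent d s t w.1 w.2 (f i)
      simp only [c, dif_pos w.2]
      rw [this]
      ring
    rw [hsum]
    rw [show (∑ w : TT (d + 1), ent d s t w.1 ![(f i).1, (f i).2, 1] * x w) = 0 from hrow, mul_zero])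
  funext w
  have := hc w.1 w.2
  simpa [c] using this

/-- The range of the toric emptiness used for all `r`, squares included. -/
lemma EE_of_range' {m' : ℕ} (hm : 1 ≤ m') (h100 : 100 * m' ≤ r) {d : ℕ} (hd : d ^ 2 < r * m' ^ 2) :
    EE m' (triSet 0 (d + 1)) r := by
  by_cases hr : IsSquare r
  · obtain ⟨t, rfl⟩ := hr
    have hlt : d < t * m' := by
      by_contra hle
      have h2 : (t * m') ^ 2 ≤ d ^ 2 := Nat.pow_le_pow_left (by omega) 2
      have h3 : (t * t) * m' ^ 2 = (t * m') ^ 2 := by ring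
      omega
    have h1 := EE_of_Cov (Cov_levels m' t) 0
    have hsub : triSet 0 (d + 1) ⊆ triSet 0 (t * m') := by
      intro w hw
      rw [mem_triSet] at hw ⊢
      omega
    have e : t ^ 2 = t * t := by ring
    rw [e] at h1
    exact h1.mono_set hsub
  · exact EE_of_range hr hm h100 hd.le

/-- The bound for equal multiplicities in the range `100 μ ≤ r`. -/
lemma const_bound {v : Fin r → Fin 3 → ℂ} (hv : Good v) {F : A3} {b μ : ℕ}
    (hF : F.IsHomogeneous b) (hF0 : F ≠ 0) (hμ : 1 ≤ μ) (h100 : 100 * μ ≤ r)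
    (hord : ∀ i, OrdGe (psi (v i) F) μ) : r * μ ^ 2 ≤ b ^ 2 := by
  classical
  by_contra hlt
  rw [not_le] at hlt
  obtain ⟨v₀, hv₀⟩ := EE_kernel_trivial (EE_of_range' hμ h100 hlt)
  have hcoef0 : coeffsOf b F ≠ 0 := by
    intro h0
    apply hF0
    rw [← formOf_coeffsOf hF, h0, map_zero]
  have hker : (matV b (fun _ => μ) v).mulVec (coeffsOf b F) = 0 :=
    (mulVec_eq_zero_iff hF _ v).mpr hord
  have h1 := rank_lt_of_ker hcoef0 hker
  have h2 := rank_le_of_good hv b (fun _ => μ) v₀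
  obtain ⟨c, hc, hc'⟩ := exists_ker_of_rank_lt (lt_of_le_of_lt h2 h1)
  exact hc (hv₀ c hc')

/-- An irreducible form has positive degree. -/
lemma degree_pos_of_irreducible {F : A3} {b : ℕ} (hFi : Irreducible F) (hF : F.IsHomogeneous b) :
    1 ≤ b := by
  by_contra hlt
  have hb : b = 0 := by omega
  subst hb
  have h0 : F.totalDegree = 0 := Nat.le_zero.mp hF.totalDegree_le
  have h1 := totalDegree_eq_zero_iff_eq_C.mp h0
  apply hFi.not_isUnit
  rw [h1]
  apply IsUnit.map C
  rw [isUnit_iff_ne_zero]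
  intro h2
  apply hFi.ne_zero
  rw [h1, h2, map_zero]

section Main

variable {v : Fin r → Fin 3 → ℂ}

/-- The bound for irreducible forms with their exact multiplicities. -/
theorem irr_bound (hv : Good v) (hp : ∀ i, v i 2 ≠ 0)
    (hsep : ∀ i j, i ≠ j → v i 0 * v j 2 ≠ v j 0 * v i 2) {F : A3} {b : ℕ}
    (hFi : Irreducible F) (hF : F.IsHomogeneous b) {x : Fin r → ℕ}
    (hx : ∀ i, ExactOrd (psi (v i) F) (x i)) :
    ((r : ℤ) ^ 2 - 100) * (∑ i, (x i : ℤ)) ^ 2 ≤ (r : ℤ) ^ 3 * (b : ℤ) ^ 2 := by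
  apply irr_arith x b (degree_pos_of_irreducible hFi hF)
  · intro j hj
    exact xu_ineq hv hp hsep hFi hF hx j hj
  · intro a c hac
    exact swap_ineq hv hp hsep hFi hF hx hac
  · intro μ hμ h100 hall
    refine const_bound hv hF hFi.ne_zero hμ h100 ?_
    intro i
    have := (hx i).1
    rwa [hall i] at this

lemma quad_add {A B S₁ S₂ d₁ d₂ : ℤ} (hB : 0 ≤ B) (hS₁ : 0 ≤ S₁) (hS₂ : 0 ≤ S₂) (hd₁ : 0 ≤ d₁)
    (hd₂ : 0 ≤ d₂) (h₁ : A * S₁ ^ 2 ≤ B * d₁ ^ 2) (h₂ : A * S₂ ^ 2 ≤ B * d₂ ^ 2) :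
    A * (S₁ + S₂) ^ 2 ≤ B * (d₁ + d₂) ^ 2 := by
  by_cases hA : A ≤ 0
  · have h1 : A * (S₁ + S₂) ^ 2 ≤ 0 := mul_nonpos_of_nonpos_of_nonneg hA (by positivity)
    have h2 : 0 ≤ B * (d₁ + d₂) ^ 2 := by positivity
    linarith
  · rw [not_le] at hA
    have h3 : (A * (S₁ * S₂)) ^ 2 ≤ (B * (d₁ * d₂)) ^ 2 := by
      have h4 : (A * S₁ ^ 2) * (A * S₂ ^ 2) ≤ (B * d₁ ^ 2) * (B * d₂ ^ 2) :=
        mul_le_mul h₁ h₂ (by positivity) (by positivity)
      nlinarith
    have h5 : A * (S₁ * S₂) ≤ B * (d₁ * d₂) :=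
      (pow_le_pow_iff_left₀ (by positivity) (by positivity) two_ne_zero).mp h3
    nlinarith

lemma quad_mono {A B S T d : ℤ} (hB : 0 ≤ B) (hS : 0 ≤ S) (hST : S ≤ T) (h : A * T ^ 2 ≤ B * d ^ 2) :
    A * S ^ 2 ≤ B * d ^ 2 := by
  by_cases hA : A ≤ 0
  · have h1 : A * S ^ 2 ≤ 0 := mul_nonpos_of_nonpos_of_nonneg hA (by positivity)
    have h2 : 0 ≤ B * d ^ 2 := by positivity
    linarith
  · rw [not_le] at hA
    have h3 : S ^ 2 ≤ T ^ 2 := pow_le_pow_left₀ hS hST 2
    have h4 : A * S ^ 2 ≤ A * T ^ 2 := mul_le_mul_of_nonneg_left h3 hA.le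
    linarith

/-- The bound for all forms and all multiplicity vectors, by factoring into irreducibles. -/
theorem all_bound (hv : Good v) (hp : ∀ i, v i 2 ≠ 0)
    (hsep : ∀ i j, i ≠ j → v i 0 * v j 2 ≠ v j 0 * v i 2) (F : A3) (hF0 : F ≠ 0) :
    ∀ (d : ℕ) (m : Fin r → ℕ), F.IsHomogeneous d → (∀ i, OrdGe (psi (v i) F) (m i)) →
      ((r : ℤ) ^ 2 - 100) * (∑ i, (m i : ℤ)) ^ 2 ≤ (r : ℤ) ^ 3 * (d : ℤ) ^ 2 := by
  classical
  induction F using WfDvdMonoid.induction_on_irreducible with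
  | zero => exact absurd rfl hF0
  | unit u hu =>
    intro d m hd hm
    have hall : ∀ i, m i = 0 := by
      intro i
      by_contra hne
      obtain ⟨w, hw⟩ := hu.exists_right_inv
      have h1 : OrdGe (psi (v i) (u * w)) (m i) := by
        rw [map_mul (psi (v i))]
        exact (hm i).mul_right _
      rw [hw, map_one] at h1
      have := h1 0 (by simp; omega)
      simp at this
    simp only [hall, Nat.cast_zero, Finset.sum_const_zero]
    have : (0 : ℤ) ≤ (r : ℤ) ^ 3 * (d : ℤ) ^ 2 := by positivity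
    simpa using this
  | mul a f ha hf ih =>
    intro d m hd hm
    have hf0 := hf.ne_zero
    obtain ⟨b, d', hfb, had, hsum⟩ := isHomogeneous_of_mul hd hf0 ha
    have hex : ∀ i, ∃ x, ExactOrd (psi (v i) f) x := fun i =>
      exists_exactOrd (psi_ne_zero hfb hf0 (hp i))
    choose x hx using hex
    have hirr := irr_bound hv hp hsep hf hfb hx
    have hcancel : ∀ i, OrdGe (psi (v i) a) (m i - x i) := by
      intro i
      apply (hx i).cancel
      rw [← map_mul (psi (v i))]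
      by_cases hle : m i ≤ x i
      · have : x i + (m i - x i) = x i := by omega
        rw [this, map_mul (psi (v i))]
        exact (hx i).1.mul_right _
      · have : x i + (m i - x i) = m i := by omega
        rw [this]
        exact hm i
    have hrest := ih ha d' (fun i => m i - x i) had hcancel
    have hadd := quad_add (A := (r : ℤ) ^ 2 - 100) (B := (r : ℤ) ^ 3) (by positivity)
      (Finset.sum_nonneg (fun i _ => by positivity)) (Finset.sum_nonneg (fun i _ => by positivity))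
      (by positivity) (by positivity) hirr hrest
    have hST : ∑ i, (m i : ℤ) ≤ ∑ i, (x i : ℤ) + ∑ i, ((m i - x i : ℕ) : ℤ) := by
      rw [← Finset.sum_add_distrib]
      apply Finset.sum_le_sum
      intro i _
      have : m i ≤ x i + (m i - x i) := by omega
      exact_mod_cast this
    have hfinal := quad_mono (by positivity) (Finset.sum_nonneg (fun i _ => by positivity)) hST hadd
    have hdcast : (b : ℤ) + d' = d := by
      rw [← hsum]
      push_cast
      ring
    rw [hdcast] at hfinal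
    exact hfinal

end Main

section Family

/-- The extra polynomials: the third coordinates, and the polynomials detecting distinct
projections from `(0:1:0)`. -/
def extraSet (r : ℕ) : Set (MvPolynomial (Fin r × Fin 3) ℂ) :=
  Set.range (fun i : Fin r => (X (i, 2) : MvPolynomial (Fin r × Fin 3) ℂ)) ∪
  Set.range (fun q : {q : Fin r × Fin r // q.1 ≠ q.2} =>
    (X (q.1.1, 0) * X (q.1.2, 2) - X (q.1.2, 0) * X (q.1.1, 2) : MvPolynomial (Fin r × Fin 3) ℂ))

lemma extraSet_countable (r : ℕ) : (extraSet r).Countable :=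
  (Set.countable_range _).union (Set.countable_range _)

lemma X_multiHomogeneous (i : Fin r) (j : Fin 3) :
    IsMultiHomogeneous (X (i, j) : MvPolynomial (Fin r × Fin 3) ℂ) := by
  classical
  refine ⟨fun a => if a = i then 1 else 0, ?_⟩
  intro lam w
  rw [Finset.prod_eq_single i]
  · simp
  · intro a _ ha
    simp [ha]
  · simp

lemma sep_multiHomogeneous {i j : Fin r} :
    IsMultiHomogeneous (X (i, 0) * X (j, 2) - X (j, 0) * X (i, 2) :
      MvPolynomial (Fin r × Fin 3) ℂ) := by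
  classical
  refine ⟨fun a => (if a = i then 1 else 0) + (if a = j then 1 else 0), ?_⟩
  intro lam w
  simp only [pow_add, Finset.prod_mul_distrib]
  rw [Finset.prod_eq_single i, Finset.prod_eq_single j]
  · simp
    ring
  · intro a _ ha
    simp [ha]
  · simp
  · intro a _ ha
    simp [ha]
  · simp

lemma sep_ne_zero {i j : Fin r} (hij : i ≠ j) :
    (X (i, 0) * X (j, 2) - X (j, 0) * X (i, 2) : MvPolynomial (Fin r × Fin 3) ℂ) ≠ 0 := by
  classical
  intro h0
  have := congrArg (eval (fun q : Fin r × Fin 3 =>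
    if (q.1 = i ∧ q.2 = 0) ∨ (q.1 = j ∧ q.2 = 2) then (1 : ℂ) else 0)) h0
  simp [hij, Ne.symm hij] at this

/-- The bound for all forms and all multiplicity vectors, for very general points. -/
theorem uniform_theorem (r : ℕ) :
    HoldsVeryGenerally r (fun v =>
      ∀ (d : ℕ) (F : MvPolynomial (Fin 3) ℂ) (m : Fin r → ℕ), F ≠ 0 → F.IsHomogeneous d →
        (∀ i, HasMultAtLeast F (v i) (m i)) →
          ((r : ℝ) ^ 2 - 100) * (∑ i, (m i : ℝ)) ^ 2 ≤ (r : ℝ) ^ 3 * (d : ℝ) ^ 2) := by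
  classical
  refine ⟨minorSet r ∪ extraSet r, (minorSet_countable r).union (extraSet_countable r), ?_, ?_⟩
  · rintro G (hG | hG)
    · obtain ⟨hne, b, x, n, φ, ψ, rfl⟩ := hG
      exact ⟨hne, minorP_multiHomogeneous b x n φ ψ⟩
    · rcases hG with ⟨i, rfl⟩ | ⟨⟨⟨i, j⟩, hij⟩, rfl⟩
      · exact ⟨X_ne_zero _, X_multiHomogeneous i 2⟩
      · exact ⟨sep_ne_zero hij, sep_multiHomogeneous⟩
  · intro v hv d F m hF0 hF hmult
    have hgood : Good v := fun G hG => hv G (Or.inl hG)
    have hp : ∀ i, v i 2 ≠ 0 := by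
      intro i
      have := hv (X (i, 2)) (Or.inr (Or.inl ⟨i, rfl⟩))
      simpa using this
    have hsep : ∀ i j, i ≠ j → v i 0 * v j 2 ≠ v j 0 * v i 2 := by
      intro i j hij h
      have := hv (X (i, 0) * X (j, 2) - X (j, 0) * X (i, 2))
        (Or.inr (Or.inr ⟨⟨(i, j), hij⟩, rfl⟩))
      apply this
      simp [h]
    have hord : ∀ i, OrdGe (psi (v i) F) (m i) := by
      intro i
      rw [ordGe_psi_iff]
      intro s t hst
      exact hmult i s t 0 (by omega)
    have hZ := all_bound hgood hp hsep F hF0 d m hF hord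
    have hR : (((r : ℤ) ^ 2 - 100) * (∑ i, (m i : ℤ)) ^ 2 : ℝ) ≤ (((r : ℤ) ^ 3 * (d : ℤ) ^ 2 : ℤ) : ℝ) := by
      have := (Int.cast_le (R := ℝ)).mpr hZ
      push_cast at this ⊢
      exact this
    push_cast at hR
    exact hR

end Family

end Vale.Agent.Lib.P279
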